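import Vale.Agent.P296.Api

namespace Vale.Agent.P296

open scoped Matrix

theorem hv_self (i : Fin 2) (t : ℂ) : hv i t i = 1 := by simp [hv]

theorem mk_eq_iff (v w : V) (hv : v ≠ 0) (hw : w ≠ 0) :
    Projectivization.mk ℂ v hv = Projectivization.mk ℂ w hw ↔ ∃ l : ℂ, l ≠ 0 ∧ w = l • v := by
  rw [eq_comm, Projectivization.mk_eq_mk_iff']
  constructor
  · rintro ⟨l, hl⟩
    exact ⟨l, fun h => hw (by rw [← hl, h, zero_smul]), hl.symm⟩
  · rintro ⟨l, -, hl⟩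
    exact ⟨l, hl.symm⟩

theorem pt_eq_iff (α β : Fin 2 × Fin 2) (x y : ℂ × ℂ) : pt α x = pt β y ↔
    ∃ l m : ℂ, l ≠ 0 ∧ m ≠ 0 ∧ hv β.1 y.1 = l • hv α.1 x.1 ∧ hv β.2 y.2 = m • hv α.2 x.2 := by
  rw [pt, pt, Prod.mk.injEq, mk_eq_iff, mk_eq_iff]
  constructor
  · rintro ⟨⟨l, hl, h⟩, m, hm, h'⟩
    exact ⟨l, m, hl, hm, h, h'⟩
  · rintro ⟨l, m, hl, hm, h, h'⟩
    exact ⟨⟨l, hl, h⟩, m, hm, h'⟩

/-- The affine coordinate of `z` in the chart `i`. -/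
noncomputable def aff (i : Fin 2) (z : V) : ℂ := z (i + 1) / z i

theorem hv_aff {i : Fin 2} {z : V} (hz : z i ≠ 0) : hv i (aff i z) = (z i)⁻¹ • z := by
  funext k
  fin_cases i <;> fin_cases k <;> simp_all [hv, aff, div_eq_inv_mul]

theorem aff_hv (i : Fin 2) (t : ℂ) : aff i (hv i t) = t := by
  fin_cases i <;> simp [hv, aff]

theorem aff_smul (i : Fin 2) {l : ℂ} (hl : l ≠ 0) (z : V) : aff i (l • z) = aff i z := by
  simp only [aff, Pi.smul_apply, smul_eq_mul, mul_div_mul_left _ _ hl]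

theorem mem_range_pt (α β : Fin 2 × Fin 2) (x : ℂ × ℂ) :
    pt α x ∈ Set.range (pt β) ↔ hv α.1 x.1 β.1 ≠ 0 ∧ hv α.2 x.2 β.2 ≠ 0 := by
  constructor
  · rintro ⟨y, hy⟩
    obtain ⟨l, m, hl, hm, h, h'⟩ := (pt_eq_iff _ _ _ _).1 hy
    rw [h, h']
    simp [hv_self, hl, hm]
  · rintro ⟨h, h'⟩
    exact ⟨(aff β.1 (hv α.1 x.1), aff β.2 (hv α.2 x.2)), ((pt_eq_iff _ _ _ _).2
      ⟨_, _, inv_ne_zero h, inv_ne_zero h', hv_aff h, hv_aff h'⟩).symm⟩

theorem aff_rep (i : Fin 2) (t : ℂ) :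
    aff i (Projectivization.mk ℂ (hv i t) (hv_ne _ _)).rep = t := by
  obtain ⟨c, hc⟩ := Projectivization.exists_smul_eq_mk_rep ℂ (hv i t) (hv_ne _ _)
  rw [← hc, Units.smul_def, aff_smul _ c.ne_zero, aff_hv]

theorem FData.gm_scal {p a : ℕ} (D : FData p a) (i i' : Fin 2) (z w : V) {l m : ℂ} (hl : l ≠ 0)
    (hm : m ≠ 0) : D.gm i i' (l • z) (m • w) =
      l ^ (-(a : ℤ) - p) * m ^ ((a : ℤ) - p) * D.gm i i' z w := by
  unfold FData.gm
  split_ifs <;> simp [D.gam_hh.scal l m z w hl hm]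

theorem FData.gm_add {p a : ℕ} (D : FData p a) (i i' i'' : Fin 2) (z w : V) :
    D.gm i i' z w + D.gm i' i'' z w = D.gm i i'' z w := by
  fin_cases i <;> fin_cases i' <;> fin_cases i'' <;> simp [FData.gm]

/-- The transition matrix in normalised homogeneous coordinates. -/
noncomputable def FData.G {p a : ℕ} (D : FData p a) (i : Fin 2) (β : Fin 2 × Fin 2) (z w : V) :
    Matrix (Fin 2) (Fin 2) ℂ :=
  !![z β.1 ^ ((a : ℤ) + 1) * w β.2, 0;
    D.gm i β.1 z w * (z β.1 ^ ((a : ℤ) + 1) * w β.2),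
      z β.1 ^ (1 - (p : ℤ)) * w β.2 ^ (1 + (a : ℤ) - p)]

theorem differentiable_hv (i : Fin 2) : Differentiable ℂ (hv i) := by
  refine differentiable_pi.2 fun k => ?_
  unfold hv
  split_ifs <;> fun_prop

theorem exists_models {p a : ℕ} (D : FData p a) : ∃ E : Bundle 2, Models D E := by
  let g : Fin 2 × Fin 2 → Fin 2 × Fin 2 → P1 × P1 → Matrix (Fin 2) (Fin 2) ℂ := fun α β P =>
    D.G α.1 β (hv α.1 (aff α.1 P.1.rep)) (hv α.2 (aff α.2 P.2.rep))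
  have hg : ∀ α β x, g α β (pt α x) = D.G α.1 β (hv α.1 x.1) (hv α.2 x.2) := fun α β x => by
    simp only [g, pt, aff_rep]
  have inv1 : ∀ {i i' : Fin 2} {s t l : ℂ}, hv i' t = l • hv i s → hv i s i' = l⁻¹ := by
    intro i i' s t l h
    have := congrFun h i'
    rw [hv_self, Pi.smul_apply, smul_eq_mul] at this
    exact eq_inv_of_mul_eq_one_right this.symm
  refine ⟨⟨g, fun α β r c => ?_, ?_, ?_⟩, fun α β x y l m hl hm h h' => ?_⟩
  · simp only [hg]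
    intro x hx
    obtain ⟨h1, h2⟩ := (mem_range_pt _ _ _).1 hx
    refine DifferentiableAt.differentiableWithinAt ?_
    have d1 : DifferentiableAt ℂ (fun x : ℂ × ℂ => hv α.1 x.1) x :=
      (differentiable_hv _ _).comp x differentiableAt_fst
    have d2 : DifferentiableAt ℂ (fun x : ℂ × ℂ => hv α.2 x.2) x :=
      (differentiable_hv _ _).comp x differentiableAt_snd
    have d3 := differentiableAt_pi.1 d1 β.1
    have d4 := differentiableAt_pi.1 d2 β.2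
    have d5 : DifferentiableAt ℂ (fun x : ℂ × ℂ => D.gm α.1 β.1 (hv α.1 x.1) (hv α.2 x.2)) x := by
      unfold FData.gm
      split_ifs with e1 e2
      · fun_prop
      all_goals
        have h01 : hv α.1 x.1 0 ≠ 0 ∧ hv α.1 x.1 1 ≠ 0 := by
          have := hv_self α.1 x.1
          generalize α.1 = i at *
          generalize β.1 = i' at *
          fin_cases i <;> fin_cases i' <;> simp_all
        have := DifferentiableAt.comp x (D.gam_hh.diff _ (hv α.2 x.2) h01) (d1.prodMk d2)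
      · exact this
      · exact this.fun_neg
    fin_cases r <;> fin_cases c
    · exact (d3.zpow (.inl h1)).fun_mul d4
    · exact differentiableAt_const _
    · exact d5.fun_mul ((d3.zpow (.inl h1)).fun_mul d4)
    · exact (d3.zpow (.inl h1)).fun_mul (d4.zpow (.inl h2))
  · rintro α _ ⟨x, rfl⟩
    rw [hg]
    ext r c
    fin_cases r <;> fin_cases c <;> simp [FData.G, hv_self, FData.gm]
  · rintro α β γ _ ⟨x, rfl⟩ ⟨y, hy⟩ -
    obtain ⟨l, m, hl, hm, h, h'⟩ := (pt_eq_iff _ _ _ _).1 hy.symm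
    rw [hg, hg, ← hy, hg, h, h']
    have a1 : l⁻¹ ^ ((a : ℤ) + 1) * l ^ ((a : ℤ) + 1) = 1 := by
      rw [← mul_zpow, inv_mul_cancel₀ hl, one_zpow]
    have a2 : l⁻¹ ^ (1 - (p : ℤ)) * l ^ (1 - (p : ℤ)) = 1 := by
      rw [← mul_zpow, inv_mul_cancel₀ hl, one_zpow]
    have a3 : m⁻¹ ^ (1 + (a : ℤ) - p) * m ^ (1 + (a : ℤ) - p) = 1 := by
      rw [← mul_zpow, inv_mul_cancel₀ hm, one_zpow]
    have a4 : l ^ (-(a : ℤ) - p) * l ^ ((a : ℤ) + 1) = l ^ (1 - (p : ℤ)) := by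
      rw [← zpow_add₀ hl]; congr 1; ring
    have a5 : m ^ ((a : ℤ) - p) * m = m ^ (1 + (a : ℤ) - p) := by
      rw [← zpow_add_one₀ hm]; congr 1; ring
    have a6 : m⁻¹ * m = 1 := inv_mul_cancel₀ hm
    have ga := D.gm_add α.1 β.1 γ.1 (hv α.1 x.1) (hv α.2 x.2)
    ext r c
    fin_cases r <;> fin_cases c <;>
      simp only [FData.G, D.gm_scal _ _ _ _ hl hm, inv1 h, inv1 h', Matrix.mul_apply,
        Fin.sum_univ_two, Matrix.of_apply, Matrix.cons_val', Matrix.cons_val_zero,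
        Matrix.cons_val_one, Matrix.cons_val_fin_one, Fin.zero_eta, Fin.mk_one, Pi.smul_apply,
        smul_eq_mul, mul_zpow, zero_mul, mul_zero, add_zero, zero_add]
    · linear_combination hv α.1 x.1 γ.1 ^ ((a : ℤ) + 1) * hv α.2 x.2 γ.2 * (a1 +
        l⁻¹ ^ ((a : ℤ) + 1) * l ^ ((a : ℤ) + 1) * a6)
    · rw [← ga]
      linear_combination hv α.1 x.1 γ.1 ^ ((a : ℤ) + 1) * hv α.2 x.2 γ.2 *
        (D.gm α.1 β.1 (hv α.1 x.1) (hv α.2 x.2) *
          (a1 + l⁻¹ ^ ((a : ℤ) + 1) * l ^ ((a : ℤ) + 1) * a6) +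
        D.gm β.1 γ.1 (hv α.1 x.1) (hv α.2 x.2) * (a2 + l⁻¹ ^ (1 - (p : ℤ)) * l ^ (1 - (p : ℤ)) * a3 +
          l⁻¹ ^ (1 - (p : ℤ)) * m⁻¹ ^ (1 + (a : ℤ) - p) * (m ^ ((a : ℤ) - p) * m * a4 +
            l ^ (1 - (p : ℤ)) * a5)))
    · linear_combination hv α.1 x.1 γ.1 ^ (1 - (p : ℤ)) * hv α.2 x.2 γ.2 ^ (1 + (a : ℤ) - p) *
        (a2 + l⁻¹ ^ (1 - (p : ℤ)) * l ^ (1 - (p : ℤ)) * a3)
  · change g α β (pt α x) = _
    rw [hg, FData.G, inv1 h, inv1 h', inv_zpow', inv_zpow', inv_zpow',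
      show -((a : ℤ) + 1) = -a - 1 by ring, show -(1 - (p : ℤ)) = p - 1 by ring,
      show -(1 + (a : ℤ) - p) = p - 1 - a by ring]

end Vale.Agent.P296
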