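import Vale.Agent.P296.SecOps
import Vale.Agent.P296.Pt

namespace Vale.Agent.P296

open scoped Matrix

variable {p a : ℕ} {D : FData p a} {E : Bundle 2}

theorem HSec.frame' {m : ℕ} {s t : ℤ} (S : HSec D m s t) (i i' : Fin 2) {z w : V} (y : V)
    (hi : z i ≠ 0) (hi' : z i' ≠ 0) (hw : w ≠ 0) :
    S.F i z w y = S.F i' z w ![y 0 + D.gm i i' z w * y 1, y 1] := by
  have hy : y = ![y 0, y 1] := by funext k; fin_cases k <;> rfl
  fin_cases i <;> fin_cases i'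
  · simpa [FData.gm] using congrArg (S.F 0 z w) hy
  · simpa [FData.gm] using S.frame z w y hi hi' hw
  · have := S.frame z w ![y 0 + -D.gam z w * y 1, y 1] hi' hi hw
    simp only [Matrix.cons_val_zero, Matrix.cons_val_one, neg_mul, neg_add_cancel_right] at this
    rw [← hy] at this
    simpa [FData.gm] using this.symm
  · simpa [FData.gm] using congrArg (S.F 1 z w) hy

theorem Models.vecMul (hE : Models D E) {α β : Fin 2 × Fin 2} {x y : ℂ × ℂ} {l μ : ℂ}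
    (hl : l ≠ 0) (hμ : μ ≠ 0) (h : hv β.1 y.1 = l • hv α.1 x.1) (h' : hv β.2 y.2 = μ • hv α.2 x.2)
    (φ : V) : (![l ^ (a : ℤ) * (φ ᵥ* E.g α β (pt α x)) 0,
      l ^ (-(p : ℤ)) * μ ^ ((a : ℤ) - p) * (φ ᵥ* E.g α β (pt α x)) 1] : V) =
      (l * μ)⁻¹ • ![φ 0 + D.gm α.1 β.1 (hv α.1 x.1) (hv α.2 x.2) * φ 1, φ 1] := by
  rw [hE α β x y l μ hl hμ h h']
  have e1 : l ^ (a : ℤ) * l ^ (-(a : ℤ) - 1) = l⁻¹ := by
    rw [← zpow_add₀ hl, ← zpow_neg_one]; congr 1; ring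
  have e2 : l ^ (-(p : ℤ)) * l ^ ((p : ℤ) - 1) = l⁻¹ := by
    rw [← zpow_add₀ hl, ← zpow_neg_one]; congr 1; ring
  have e3 : μ ^ ((a : ℤ) - p) * μ ^ ((p : ℤ) - 1 - a) = μ⁻¹ := by
    rw [← zpow_add₀ hμ, ← zpow_neg_one]; congr 1; ring
  funext k
  fin_cases k <;>
    simp only [Matrix.vecMul, dotProduct, Fin.sum_univ_two, Matrix.of_apply, Matrix.cons_val',
      Matrix.cons_val_zero, Matrix.cons_val_one, Matrix.cons_val_fin_one, Fin.zero_eta,
      Fin.mk_one, Pi.smul_apply, smul_eq_mul, mul_inv]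
  · rw [← e1]; ring
  · rw [← e2, ← e3]; ring

theorem HSec.transport (hE : Models D E) {m : ℕ} {s t : ℤ} (S : HSec D m s t)
    {α β : Fin 2 × Fin 2} {x y : ℂ × ℂ} {l μ : ℂ}
    (hl : l ≠ 0) (hμ : μ ≠ 0) (h : hv β.1 y.1 = l • hv α.1 x.1) (h' : hv β.2 y.2 = μ • hv α.2 x.2)
    (φ : V) : S.F β.1 (hv β.1 y.1) (hv β.2 y.2) (φ ᵥ* E.g α β (pt α x)) =
      l ^ s * μ ^ t * (l * μ)⁻¹ ^ m * S.F α.1 (hv α.1 x.1) (hv α.2 x.2) φ := by
  have h1 : hv α.1 x.1 β.1 ≠ 0 := fun h0 => by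
    have := congrFun h β.1
    simp [hv_self, h0] at this
  have h2 : hv α.1 x.1 α.1 ≠ 0 := by simp [hv_self]
  rw [h, h', S.scal _ _ _ _ _ _ hl hμ h1 (hv_ne _ _), hE.vecMul hl hμ h h',
    S.hom _ _ _ _ _ h1 (hv_ne _ _), ← S.frame' α.1 β.1 φ h2 h1 (hv_ne _ _)]
  ring

theorem HSec.diffAt {m : ℕ} {s t : ℤ} (S : HSec D m s t) (α : Fin 2 × Fin 2)
    (q : (ℂ × ℂ) × V) : DifferentiableAt ℂ
      (fun q : (ℂ × ℂ) × V => S.F α.1 (hv α.1 q.1.1) (hv α.2 q.1.2) q.2) q := by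
  have d1 := differentiable_hv α.1
  have d2 := differentiable_hv α.2
  have h1 : DifferentiableAt ℂ (fun q : (ℂ × ℂ) × V => (hv α.1 q.1.1, hv α.2 q.1.2, q.2)) q := by
    fun_prop
  exact DifferentiableAt.comp q (S.diff α.1 _ _ q.2 (by simp [hv_self]) (hv_ne _ _)) h1

/-- A section of `Sᵐ N (m, m) = Sᵐ E` is a section of `O_{P(E)}(m)`. -/
theorem HSec.exists_osec {m : ℕ} (hE : Models D E)
    (S : HSec D m m m) : ∃ T : OSec E m, ∀ α x φ,
      T.f α (x, φ) = S.F α.1 (hv α.1 x.1) (hv α.2 x.2) φ := by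
  refine ⟨⟨fun α q => S.F α.1 (hv α.1 q.1.1) (hv α.2 q.1.2) q.2,
    fun α q _ => (S.diffAt α q).differentiableWithinAt,
    fun α x φ c _ _ => S.hom _ _ _ _ _ (by simp [hv_self]) (hv_ne _ _),
    fun α β x y φ _ h => ?_⟩, fun _ _ _ => rfl⟩
  obtain ⟨l, μ, hl, hμ, h, h'⟩ := (pt_eq_iff _ _ _ _).1 h
  simp only
  rw [S.transport hE hl hμ h h', zpow_natCast, zpow_natCast, ← mul_pow, ← mul_pow,
    mul_inv_cancel₀ (mul_ne_zero hl hμ), one_pow, one_mul]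

theorem hv_other (i : Fin 2) (t : ℂ) : hv i t (i + 1) = t := by
  fin_cases i <;> simp [hv]

theorem ample_of {m J : ℕ} (hE : Models D E) (hb : Bpf D m) (hg : Gen D J) : E.Ample := by
  obtain ⟨nb, σ, hσ⟩ := hb
  obtain ⟨ng, L, A, B, hL, hL0⟩ := hg
  have hT : ∀ k : Fin ng × Fin 2 × Fin 2 × Fin nb, ∃ T : OSec E (1 + J * m), ∀ α x φ,
      T.f α (x, φ) = (L k.1).F α.1 (hv α.1 x.1) (hv α.2 x.2) φ *
        (hv α.1 x.1 k.2.1 * hv α.2 x.2 k.2.2.1) *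
          (σ k.2.2.2).F α.1 (hv α.1 x.1) (hv α.2 x.2) φ ^ J := by
    rintro ⟨k, i, j, k'⟩
    obtain ⟨T1, h1⟩ := HSec.exists_mono D i j 1 1
    obtain ⟨T2, h2⟩ := (L k).exists_mul T1
    obtain ⟨T3, h3⟩ := (σ k').exists_pow J
    obtain ⟨T4, h4⟩ := T2.exists_mul T3
    obtain ⟨T5, h5⟩ := T4.exists_cast (m' := 1 + J * m) (s' := (1 + J * m : ℕ))
      (t' := (1 + J * m : ℕ)) rfl (by push_cast; ring) (by push_cast; ring)
    obtain ⟨T, h⟩ := T5.exists_osec hE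
    exact ⟨T, fun α x φ => by rw [h, h5, h4, h3, h2, h1]; simp⟩
  choose T hT using hT
  let e := (Fintype.equivFin (Fin ng × Fin 2 × Fin 2 × Fin nb)).symm
  have h1 : ∀ (α : Fin 2 × Fin 2) (x : ℂ × ℂ), hv α.1 x.1 α.1 ≠ 0 := fun α x => by simp [hv_self]
  have lin : ∀ (α : Fin 2 × Fin 2) (x : ℂ × ℂ) (φ ψ : V) (d : ℂ),
      (∀ k, (L k).F α.1 (hv α.1 x.1) (hv α.2 x.2) φ =
        d * (L k).F α.1 (hv α.1 x.1) (hv α.2 x.2) ψ) → φ = d • ψ := by
    intro α x φ ψ d h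
    by_contra hne
    obtain ⟨k, hk⟩ := hL0 α.1 _ _ (φ - d • ψ) (h1 α x) (hv_ne α.2 x.2) (sub_ne_zero.2 hne)
    have := h k
    rw [hL _ _ _ _ _ (h1 α x) (hv_ne _ _)] at hk this
    rw [hL _ _ _ _ _ (h1 α x) (hv_ne _ _)] at this
    simp only [Pi.sub_apply, Pi.smul_apply, smul_eq_mul] at hk
    exact hk (by linear_combination this)
  refine ⟨1 + J * m, by omega, _, fun k => T (e k), fun α x φ hφ h => ?_,
    fun α β x y φ ψ c hφ hψ h => ?_, fun α x φ v c hφ h => ?_⟩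
  · obtain ⟨k, hk⟩ := hL0 α.1 _ _ φ (h1 α x) (hv_ne α.2 x.2) hφ
    obtain ⟨k', hk'⟩ := hσ α.1 _ _ φ (h1 α x) (hv_ne α.2 x.2) hφ
    have := congrFun h (e.symm (k, α.1, α.2, k'))
    simp [secMap, hT, hv_self, hk, hk'] at this
  · obtain ⟨k₀, hk⟩ := hL0 α.1 _ _ φ (h1 α x) (hv_ne α.2 x.2) hφ
    obtain ⟨k', hk'⟩ := hσ α.1 _ _ φ (h1 α x) (hv_ne α.2 x.2) hφ
    have H := fun k i j => congrFun h (e.symm (k, i, j, k'))
    simp only [secMap, hT, Equiv.apply_symm_apply, Pi.smul_apply, smul_eq_mul] at H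
    set l := hv β.1 y.1 α.1
    set μ := hv β.2 y.2 α.2
    set s := (σ k').F α.1 (hv α.1 x.1) (hv α.2 x.2) φ ^ J with hs
    set s' := (σ k').F β.1 (hv β.1 y.1) (hv β.2 y.2) ψ ^ J
    have hs0 : s ≠ 0 := pow_ne_zero _ hk'
    have H0 := H k₀ α.1 α.2
    rw [hv_self, hv_self] at H0
    have hne : c * ((L k₀).F β.1 (hv β.1 y.1) (hv β.2 y.2) ψ * (l * μ) * s') ≠ 0 := by
      rw [← H0]; simp [hk, hs0]
    simp only [ne_eq, mul_eq_zero, not_or] at hne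
    obtain ⟨hc, ⟨hL', hl, hμ⟩, hs'⟩ := hne
    have hz : hv β.1 y.1 = l • hv α.1 x.1 := by
      funext i
      have := H k₀ i α.2
      rw [hv_self] at this
      refine mul_left_cancel₀ (mul_ne_zero (mul_ne_zero (mul_ne_zero hc hL') hμ) hs') ?_
      simp only [Pi.smul_apply, smul_eq_mul]
      linear_combination hv α.1 x.1 i * H0 - this
    have hw : hv β.2 y.2 = μ • hv α.2 x.2 := by
      funext j
      have := H k₀ α.1 j
      rw [hv_self] at this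
      refine mul_left_cancel₀ (mul_ne_zero (mul_ne_zero (mul_ne_zero hc hL') hl) hs') ?_
      simp only [Pi.smul_apply, smul_eq_mul]
      linear_combination hv α.2 x.2 j * H0 - this
    refine ⟨(pt_eq_iff _ _ _ _).2 ⟨l, μ, hl, hμ, hz, hw⟩,
      l ^ (J : ℤ) * μ ^ (J : ℤ) * (l * μ)⁻¹ ^ 1 * (c * (l * μ) * s' / s), lin β y _ _ _ fun k => ?_⟩
    have := H k α.1 α.2
    rw [hv_self, hv_self] at this
    have e2 : (L k).F α.1 (hv α.1 x.1) (hv α.2 x.2) φ =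
        c * (l * μ) * s' / s * (L k).F β.1 (hv β.1 y.1) (hv β.2 y.2) ψ := by
      field_simp
      linear_combination this
    rw [(L k).transport hE hl hμ hz hw, e2]; ring
  · obtain ⟨k₀, hk⟩ := hL0 α.1 _ _ φ (h1 α x) (hv_ne α.2 x.2) hφ
    obtain ⟨k', hk'⟩ := hσ α.1 _ _ φ (h1 α x) (hv_ne α.2 x.2) hφ
    let fa : Fin ng → (ℂ × ℂ) × V → ℂ := fun k q => (L k).F α.1 (hv α.1 q.1.1) (hv α.2 q.1.2) q.2
    let fb : (ℂ × ℂ) × V → ℂ := fun q => (σ k').F α.1 (hv α.1 q.1.1) (hv α.2 q.1.2) q.2 ^ J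
    have da : ∀ k, HasFDerivAt (fa k) (fderiv ℂ (fa k) (x, φ)) (x, φ) := fun k =>
      ((L k).diffAt α _).hasFDerivAt
    have db : HasFDerivAt fb (fderiv ℂ fb (x, φ)) (x, φ) :=
      (((σ k').diffAt α _).fun_pow J).hasFDerivAt
    have hb0 : fb (x, φ) ≠ 0 := pow_ne_zero _ hk'
    have hd : ∀ k, DifferentiableAt ℂ (T k |>.f α) (x, φ) := fun k =>
      ((T k).holo α).differentiableAt ((isOpen_ne_fun continuous_snd continuous_const).mem_nhds hφ)
    have H : ∀ k i j (g : (ℂ × ℂ) × V → ℂ) (g' : ((ℂ × ℂ) × V) →L[ℂ] ℂ),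
        (∀ q : (ℂ × ℂ) × V, hv α.1 q.1.1 i * hv α.2 q.1.2 j = g q) → HasFDerivAt g g' (x, φ) →
        (fderiv ℂ (fa k) (x, φ) v * g (x, φ) + fa k (x, φ) * g' v) * fb (x, φ) +
          fa k (x, φ) * g (x, φ) * fderiv ℂ fb (x, φ) v =
          c * (fa k (x, φ) * g (x, φ) * fb (x, φ)) := by
      intro k i j g g' hg dg
      have e1 : (T (k, i, j, k')).f α = fun q => fa k q * g q * fb q := by
        funext q; rw [← hg q]; exact hT _ α q.1 q.2
      have e2 := congrFun h (e.symm (k, i, j, k'))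
      have e3 : secMap (fun k => T (e k)) α = fun q k => (T (e k)).f α q := rfl
      rw [e3, fderiv_pi fun k => hd (e k)] at e2
      simp only [ContinuousLinearMap.pi_apply, Equiv.apply_symm_apply, Pi.smul_apply,
        smul_eq_mul, e1] at e2
      rw [(((da k).fun_mul dg).fun_mul db).fderiv] at e2
      simp only [ContinuousLinearMap.add_apply, ContinuousLinearMap.smul_apply, smul_eq_mul] at e2
      linear_combination e2
    have H0 := fun k => H k α.1 α.2 (fun _ => 1) 0 (fun q => by simp [hv_self])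
      (hasFDerivAt_const _ _)
    have H1 := H k₀ (α.1 + 1) α.2 (fun q => q.1.1) _ (fun q => by simp [hv_self, hv_other])
      ((ContinuousLinearMap.fst ℂ ℂ ℂ).comp (ContinuousLinearMap.fst ℂ (ℂ × ℂ) V)).hasFDerivAt
    have H2 := H k₀ α.1 (α.2 + 1) (fun q => q.1.2) _ (fun q => by simp [hv_self, hv_other])
      ((ContinuousLinearMap.snd ℂ ℂ ℂ).comp (ContinuousLinearMap.fst ℂ (ℂ × ℂ) V)).hasFDerivAt
    simp only [ContinuousLinearMap.zero_apply, mul_one, mul_zero, add_zero,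
      ContinuousLinearMap.comp_apply, ContinuousLinearMap.coe_fst', ContinuousLinearMap.coe_snd']
      at H0 H1 H2
    have hab : fa k₀ (x, φ) * fb (x, φ) ≠ 0 := mul_ne_zero hk hb0
    have v1 : v.1.1 = 0 := (mul_eq_zero.1 (show fa k₀ (x, φ) * fb (x, φ) * v.1.1 = 0 by
      linear_combination H1 - x.1 * H0 k₀)).resolve_left hab
    have v2 : v.1.2 = 0 := (mul_eq_zero.1 (show fa k₀ (x, φ) * fb (x, φ) * v.1.2 = 0 by
      linear_combination H2 - x.2 * H0 k₀)).resolve_left hab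
    have hv0 : v = (0, v.2) := Prod.ext (Prod.ext v1 v2) rfl
    refine ⟨c - fderiv ℂ fb (x, φ) v / fb (x, φ), hv0.trans (congrArg _ (lin α x _ _ _ fun k => ?_))⟩
    have d1 : HasDerivAt (fun t : ℂ => ((x, φ + t • v.2) : (ℂ × ℂ) × V)) v 0 := by
      rw [hv0]
      exact (hasDerivAt_const _ _).prodMk (by
        simpa using ((hasDerivAt_id (0 : ℂ)).smul_const v.2).const_add φ)
    have d2 := HasFDerivAt.comp_hasDerivAt_of_eq (0 : ℂ) (da k) d1 (by simp)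
    have d3 : HasDerivAt (fa k ∘ fun t : ℂ => ((x, φ + t • v.2) : (ℂ × ℂ) × V))
        (fa k (x, v.2)) 0 := by
      have e1 : (fa k ∘ fun t : ℂ => ((x, φ + t • v.2) : (ℂ × ℂ) × V)) =
          fun t => fa k (x, φ) + t * fa k (x, v.2) := by
        funext t
        simp only [fa, Function.comp, hL _ _ _ _ _ (h1 α x) (hv_ne _ _), Pi.add_apply,
          Pi.smul_apply, smul_eq_mul]
        ring
      rw [e1]
      simpa using ((hasDerivAt_id (0 : ℂ)).mul_const (fa k (x, v.2))).const_add (fa k (x, φ))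
    change fa k (x, v.2) = _ * fa k (x, φ)
    rw [← d2.unique d3]
    field_simp
    linear_combination H0 k

end Vale.Agent.P296
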