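import Vale.Agent.P296.Defs

/-!
Internal definitions for the counterexample to Griffiths' conjecture.  See `notes/P296.md`.
-/

namespace Vale.Agent.P296

open scoped Matrix

/-- Homogeneous coordinates (sup norm). -/
abbrev V : Type := Fin 2 → ℂ

/-- `f z w` is holomorphic where `D` holds, and bihomogeneous of bidegree `(s, t)`. -/
structure HH (D : V → V → Prop) (s t : ℤ) (f : V → V → ℂ) : Prop where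
  diff : ∀ z w, D z w → DifferentiableAt ℂ (fun q : V × V => f q.1 q.2) (z, w)
  scal : ∀ (l m : ℂ) z w, l ≠ 0 → m ≠ 0 → f (l • z) (m • w) = l ^ s * m ^ t * f z w

/-- Function-level gluing data: a curve `sg = 0` of bidegree `(p, p)` and a nowhere vanishing
section `θ` of `O(-a, a)` on it, with extensions `th i` of `θ` and `th' j` of `θ⁻¹`. -/
structure FData (p a : ℕ) where
  sg : V → V → ℂ
  th : Fin 2 → V → V → ℂ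
  th' : Fin 2 → V → V → ℂ
  rr : Fin 2 → Fin 2 → V → V → ℂ
  gam : V → V → ℂ
  sg_hh : HH (fun _ _ => True) p p sg
  th_hh : ∀ i, HH (fun z _ => z i ≠ 0) (-(a : ℤ)) a (th i)
  th'_hh : ∀ j, HH (fun _ w => w j ≠ 0) a (-(a : ℤ)) (th' j)
  rr_hh : ∀ i j, HH (fun z w => z i ≠ 0 ∧ w j ≠ 0) (-(p : ℤ)) (-(p : ℤ)) (rr i j)
  gam_hh : HH (fun z _ => z 0 ≠ 0 ∧ z 1 ≠ 0) (-(a : ℤ) - p) ((a : ℤ) - p) gam
  rr_eq : ∀ i j z w, z i ≠ 0 → w j ≠ 0 → th i z w * th' j z w - 1 = sg z w * rr i j z w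
  gam_eq : ∀ z w, z 0 ≠ 0 → z 1 ≠ 0 → th 1 z w - th 0 z w = sg z w * gam z w

/-- The additive cocycle `(θ_{i'} - θ_i) / σ`. -/
def FData.gm {p a : ℕ} (D : FData p a) (i i' : Fin 2) (z w : V) : ℂ :=
  if i = i' then 0 else if i = 0 then D.gam z w else -D.gam z w

/-- `E` is the rank two bundle `N(1,1)` attached to the data `D`. -/
def Models {p a : ℕ} (D : FData p a) (E : Bundle 2) : Prop :=
  ∀ (α β : Fin 2 × Fin 2) (x y : ℂ × ℂ) (l m : ℂ), l ≠ 0 → m ≠ 0 →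
    hv β.1 y.1 = l • hv α.1 x.1 → hv β.2 y.2 = m • hv α.2 x.2 →
    E.g α β (pt α x) =
      !![l ^ (-(a : ℤ) - 1) * m⁻¹, 0;
        D.gm α.1 β.1 (hv α.1 x.1) (hv α.2 x.2) * (l ^ (-(a : ℤ) - 1) * m⁻¹),
          l ^ ((p : ℤ) - 1) * m ^ ((p : ℤ) - 1 - a)]

/-- A section of `Sᵐ N ⊗ O(s, t)`, as a function on the cone over the dual bundle;
`F i z w y` is its value at the vector with coordinates `y = (y_i, η)` in the frame `i`. -/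
structure HSec {p a : ℕ} (D : FData p a) (m : ℕ) (s t : ℤ) where
  F : Fin 2 → V → V → V → ℂ
  diff : ∀ i z w y, z i ≠ 0 → w ≠ 0 →
    DifferentiableAt ℂ (fun q : V × V × V => F i q.1 q.2.1 q.2.2) (z, w, y)
  hom : ∀ i z w y (c : ℂ), z i ≠ 0 → w ≠ 0 → F i z w (c • y) = c ^ m * F i z w y
  scal : ∀ i z w y (l μ : ℂ), l ≠ 0 → μ ≠ 0 → z i ≠ 0 → w ≠ 0 →
    F i (l • z) (μ • w) y = l ^ s * μ ^ t *
      F i z w ![l ^ (a : ℤ) * y 0, l ^ (-(p : ℤ)) * μ ^ ((a : ℤ) - p) * y 1]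
  frame : ∀ z w y, z 0 ≠ 0 → z 1 ≠ 0 → w ≠ 0 →
    F 0 z w y = F 1 z w ![y 0 + D.gam z w * y 1, y 1]

/-- The three families of sections produced by the algebra. -/
structure Rich {p a : ℕ} (D : FData p a) : Prop where
  s1 : ∀ i j : Fin 2, ∃ s : HSec D p ((p : ℤ) - 1) ((p : ℤ) - 1), ∀ i' z w, z i' ≠ 0 → w ≠ 0 →
    s.F i' z w ![1, 0] = z i ^ (p * a + (p - 1)) * w j ^ (p - 1)
  s2 : ∀ i j : Fin 2, ∃ s : HSec D p ((p : ℤ) - 1) ((p : ℤ) - 1), ∀ i' z w, z i' ≠ 0 → w ≠ 0 →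
    s.F i' z w ![D.th i' z w, D.sg z w] = z i ^ (p - 1) * w j ^ (p * a + (p - 1))
  s3 : ∀ i j : Fin 2, ∃ (s : HSec D 1 p p) (c : Fin 2 → V → V → ℂ), ∀ i' z w y,
    z i' ≠ 0 → w ≠ 0 → s.F i' z w y = z i ^ (p + a) * w j ^ p * y 0 + c i' z w * y 1

/-- A base point free family of sections of `O_{P(E)}(m) ⊗ O(-1,-1)`. -/
def Bpf {p a : ℕ} (D : FData p a) (m : ℕ) : Prop :=
  ∃ (n : ℕ) (s : Fin n → HSec D m ((m : ℤ) - 1) ((m : ℤ) - 1)),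
    ∀ i z w y, z i ≠ 0 → w ≠ 0 → y ≠ 0 → ∃ k, (s k).F i z w y ≠ 0

/-- Sections of `N(J, J)` which generate it: they are linear in `y` and span the dual fibre. -/
def Gen {p a : ℕ} (D : FData p a) (J : ℕ) : Prop :=
  ∃ (n : ℕ) (s : Fin n → HSec D 1 J J) (A B : Fin n → Fin 2 → V → V → ℂ),
    (∀ k i z w y, z i ≠ 0 → w ≠ 0 → (s k).F i z w y = A k i z w * y 0 + B k i z w * y 1) ∧
    ∀ i z w y, z i ≠ 0 → w ≠ 0 → y ≠ 0 → ∃ k, (s k).F i z w y ≠ 0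

/-- The norm of a Griffiths negative metric on the dual bundle, in homogeneous coordinates. -/
structure HNorm {p a : ℕ} (D : FData p a) where
  n : Fin 2 → V → V → V → ℝ
  cont : ∀ i z w y, z i ≠ 0 → w ≠ 0 →
    ContinuousAt (fun q : V × V × V => n i q.1 q.2.1 q.2.2) (z, w, y)
  nonneg : ∀ i z w y, 0 ≤ n i z w y
  pos : ∀ i z w y, z i ≠ 0 → w ≠ 0 → y ≠ 0 → 0 < n i z w y
  tri : ∀ i z w y y', z i ≠ 0 → w ≠ 0 → n i z w (y + y') ≤ n i z w y + n i z w y'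
  smul : ∀ i z w y (c : ℂ), z i ≠ 0 → w ≠ 0 → n i z w (c • y) = ‖c‖ * n i z w y
  scal : ∀ i z w y (l μ : ℂ), l ≠ 0 → μ ≠ 0 → z i ≠ 0 → w ≠ 0 →
    n i (l • z) (μ • w) y = ‖l‖ * ‖μ‖ *
      n i z w ![l ^ (a : ℤ) * y 0, l ^ (-(p : ℤ)) * μ ^ ((a : ℤ) - p) * y 1]
  frame : ∀ z w y, z 0 ≠ 0 → z 1 ≠ 0 → w ≠ 0 →
    n 0 z w y = n 1 z w ![y 0 + D.gam z w * y 1, y 1]
  mpz : ∀ i w (φ : ℂ → V) t₀, w ≠ 0 → AnalyticAt ℂ φ t₀ → φ t₀ ≠ 0 →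
    ¬ IsLocalMax (fun t => n i (hv i t) w (φ t)) t₀
  mpw : ∀ i j z (φ : ℂ → V) t₀, z i ≠ 0 → AnalyticAt ℂ φ t₀ → φ t₀ ≠ 0 →
    ¬ IsLocalMax (fun t => n i z (hv j t) (φ t)) t₀

/-- The contraction property of the gluing. -/
structure Contr {p a : ℕ} (D : FData p a) (δ₀ c₀ C₀ ε : ℝ) where
  q : V → ℝ
  q_cont : Continuous q
  q_pos : ∀ z, z ≠ 0 → 0 < q z
  q_hom : ∀ (l : ℂ) z, q (l • z) = ‖l‖ ^ a * q z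
  hz : ∀ w, w ≠ 0 → ∃ (i : Fin 2) (δ σ' : V → ℂ), Differentiable ℂ δ ∧ Differentiable ℂ σ' ∧
    (∀ (l : ℂ) z, δ (l • z) = l ^ 2 * δ z) ∧
    (∀ (l : ℂ) z, l ≠ 0 → σ' (l • z) = l ^ ((p : ℤ) - 2) * σ' z) ∧
    (∀ z, D.sg z w = δ z * σ' z) ∧ (∀ z, ‖δ z‖ ≤ C₀ * ‖z‖ ^ 2) ∧
    ∀ z, z ≠ 0 → ‖δ z‖ ≤ δ₀ * ‖z‖ ^ 2 → c₀ * ‖z‖ ≤ ‖z i‖ ∧ ‖D.th i z w‖ * q z ≤ ε * q w
  hw : ∀ z, z ≠ 0 → ∃ (j : Fin 2) (δ σ' : V → ℂ), Differentiable ℂ δ ∧ Differentiable ℂ σ' ∧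
    (∀ (l : ℂ) w, δ (l • w) = l ^ 2 * δ w) ∧
    (∀ (l : ℂ) w, l ≠ 0 → σ' (l • w) = l ^ ((p : ℤ) - 2) * σ' w) ∧
    (∀ w, D.sg z w = δ w * σ' w) ∧ (∀ w, ‖δ w‖ ≤ C₀ * ‖w‖ ^ 2) ∧
    ∀ w, w ≠ 0 → ‖δ w‖ ≤ δ₀ * ‖w‖ ^ 2 → c₀ * ‖w‖ ≤ ‖w j‖ ∧ ‖D.th' j z w‖ * q w ≤ ε * q z

/-- Bound for the section `s₁ = (θ_i, σ)`. -/
def Bound1 {p a : ℕ} {D : FData p a} (N : HNorm D) (q : V → ℝ) (B : ℝ) : Prop :=
  ∀ i z w, z i ≠ 0 → w ≠ 0 → N.n i z w ![D.th i z w, D.sg z w] ≤ B * ‖z‖ * ‖w‖ * q w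

/-- Bound for the section `s₂ = (1, 0)`. -/
def Bound2 {p a : ℕ} {D : FData p a} (N : HNorm D) (q : V → ℝ) (A : ℝ) : Prop :=
  ∀ i z w, z i ≠ 0 → w ≠ 0 → N.n i z w ![1, 0] ≤ A * ‖z‖ * ‖w‖ * q z

/-- The conclusion of the one variable lemma, with constant `C`. -/
def LineProp (δ₀ c₀ C₀ C : ℝ) : Prop :=
  ∀ (i : Fin 2) (n₁ e : V → ℝ) (δ : V → ℂ) (S : ℝ), 0 ≤ S →
    ContinuousOn n₁ {z | z ≠ 0} → (∀ z, z ≠ 0 → 0 ≤ n₁ z) →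
    (∀ (l : ℂ) z, l ≠ 0 → z ≠ 0 → n₁ (l • z) = ‖l‖ * n₁ z) →
    Continuous δ → (∀ (l : ℂ) z, δ (l • z) = l ^ 2 * δ z) → (∀ z, ‖δ z‖ ≤ C₀ * ‖z‖ ^ 2) →
    ContinuousOn e {z | z i ≠ 0} → (∀ z, z i ≠ 0 → 0 ≤ e z) →
    (∀ (l : ℂ) z, l ≠ 0 → z i ≠ 0 → e (l • z) = e z) →
    (∀ z, z ≠ 0 → ‖δ z‖ ≤ δ₀ * ‖z‖ ^ 2 → c₀ * ‖z‖ ≤ ‖z i‖ ∧
      n₁ z * ‖z i‖ ≤ S * ‖z‖ * ‖z i‖ + ‖δ z‖ * e z ∧
      ‖δ z‖ * e z ≤ (n₁ z + S * ‖z‖) * ‖z i‖) →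
    (∀ z, z i ≠ 0 → 0 < e z → ¬ IsLocalMax e z) →
    (∀ z, z ≠ 0 → δ z ≠ 0 → 0 < n₁ z → ¬ IsLocalMax (fun z => n₁ z ^ 2 / ‖δ z‖) z) →
    ∀ z, z ≠ 0 → n₁ z ≤ C * S * ‖z‖

/-! ### Laurent polynomials in `u = z 1 / z 0`, `v = w 1 / w 0` -/

/-- Laurent polynomials in two variables. -/
abbrev R : Type := AddMonoidAlgebra ℂ (ℤ × ℤ)

/-- `z₀ ^ s * f` is regular where `z i ≠ 0`. -/
def ZR (i : Fin 2) (s : ℤ) (f : R) : Prop :=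
  ∀ m ∈ f.coeff.support, if i = 0 then 0 ≤ m.1 else m.1 ≤ s

/-- `w₀ ^ t * f` is regular where `w j ≠ 0`. -/
def WR (j : Fin 2) (t : ℤ) (f : R) : Prop :=
  ∀ m ∈ f.coeff.support, if j = 0 then 0 ≤ m.2 else m.2 ≤ t

/-- The bihomogeneous function `z₀ ^ s * w₀ ^ t * f (z₁ / z₀, w₁ / w₀)`. -/
noncomputable def hev (s t : ℤ) (f : R) (z w : V) : ℂ :=
  f.coeff.sum fun m c => c * (z 0 ^ (s - m.1) * z 1 ^ m.1) * (w 0 ^ (t - m.2) * w 1 ^ m.2)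

/-- `f`, seen in bidegree `(s, t)`, is regular at `(z, w)`. -/
structure Good (s t : ℤ) (f : R) (z w : V) : Prop where
  z1 : z 1 = 0 → ZR 0 s f
  z0 : z 0 = 0 → ZR 1 s f
  w1 : w 1 = 0 → WR 0 t f
  w0 : w 0 = 0 → WR 1 t f

/-- The monomial `u ^ a * v ^ b`. -/
noncomputable def mono (a b : ℤ) : R := AddMonoidAlgebra.single (a, b) 1

/-- Algebraic gluing data. -/
structure Core (p a : ℕ) where
  σ : R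
  θ : Fin 2 → R
  θ' : Fin 2 → R
  r : Fin 2 → Fin 2 → R
  σ_ne : σ ≠ 0
  σ_z : ∀ i, ZR i p σ
  σ_w : ∀ j, WR j p σ
  θ_z : ∀ i, ZR i (-(a : ℤ)) (θ i)
  θ_w : ∀ i j, WR j a (θ i)
  θ'_z : ∀ i j, ZR i a (θ' j)
  θ'_w : ∀ j, WR j (-(a : ℤ)) (θ' j)
  r_z : ∀ i j, ZR i (-(p : ℤ)) (r i j)
  r_w : ∀ i j, WR j (-(p : ℤ)) (r i j)
  eq : ∀ i j, θ i * θ' j - 1 = σ * r i j

/-- `(θ 1 - θ 0) / σ`. -/
noncomputable def Core.γ {p a : ℕ} (K : Core p a) : R := K.θ 0 * K.r 1 0 - K.θ 1 * K.r 0 0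

/-- The function-level data `D` comes from the algebraic data `K`. -/
structure Core.Gives {p a : ℕ} (K : Core p a) (D : FData p a) : Prop where
  sg : D.sg = hev p p K.σ
  th : ∀ i, D.th i = hev (-(a : ℤ)) a (K.θ i)
  th' : ∀ j, D.th' j = hev a (-(a : ℤ)) (K.θ' j)
  gam : D.gam = hev (-(a : ℤ) - p) ((a : ℤ) - p) K.γ

/-- The binary form `∑ c l * Y ^ (j - l) * H ^ l`. -/
noncomputable def form (j : ℕ) (c : ℕ → R) (Y H : R) : R :=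
  ∑ l ∈ Finset.range (j + 1), c l * Y ^ (j - l) * H ^ l

/-- The coefficients of a section of `Sʲ N (s, t)` over `{z i ≠ 0}`. -/
def Coef (p a : ℕ) (i : Fin 2) (j : ℕ) (s t : ℤ) (c : ℕ → R) : Prop :=
  ∀ l ≤ j, ZR i (s + ((j - l : ℕ) : ℤ) * a - l * p) (c l) ∧
    ∀ k, WR k (t + l * ((a : ℤ) - p)) (c l)

/-! ### The four Moebius maps -/

/-- The determinant of two vectors. -/
def cross (x y : V) : ℂ := x 0 * y 1 - x 1 * y 0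

/-- The squared Euclidean norm. -/
noncomputable def e2 (z : V) : ℝ := ‖z 0‖ ^ 2 + ‖z 1‖ ^ 2

/-- Coordinatewise square. -/
def sqv (z : V) : V := fun k => z k ^ 2

/-- The graphs of the four maps form a nodal curve, with eigenvalues 16-th roots of unity. -/
structure Nodal (N : Fin 4 → Matrix (Fin 2) (Fin 2) ℂ) : Prop where
  det_ne : ∀ l, (N l).det ≠ 0
  root : ∀ l l' (Z : V) (c : ℂ), l ≠ l' → Z ≠ 0 → N l' *ᵥ Z = c • N l *ᵥ Z → c ^ 16 = 1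
  triple : ∀ l l' l'' (Z : V), l ≠ l' → l ≠ l'' → l' ≠ l'' → Z ≠ 0 →
    cross (N l *ᵥ Z) (N l' *ᵥ Z) = 0 → cross (N l *ᵥ Z) (N l'' *ᵥ Z) ≠ 0
  disc : ∀ l l', l ≠ l' →
    (cross (N l *ᵥ ![1, 0]) (N l' *ᵥ ![0, 1]) + cross (N l *ᵥ ![0, 1]) (N l' *ᵥ ![1, 0])) ^ 2 ≠
      4 * cross (N l *ᵥ ![1, 0]) (N l' *ᵥ ![1, 0]) * cross (N l *ᵥ ![0, 1]) (N l' *ᵥ ![0, 1])

/-- The equation `cross W (M Z)` of the graph of `M`, at `Z = (1, u)`, `W = (1, v)`. -/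
noncomputable def graphR (M : Matrix (Fin 2) (Fin 2) ℂ) : R :=
  (M 1 0 • mono 0 0 + M 1 1 • mono 1 0) - (M 0 0 • mono 0 1 + M 0 1 • mono 1 1)

/-- Pointwise description of the base data. -/
structure Base (N : Fin 4 → Matrix (Fin 2) (Fin 2) ℂ) (K : Core 4 16) : Prop where
  σ : ∀ Z W, hev 4 4 K.σ Z W = ∏ l, cross W (N l *ᵥ Z)
  θ : ∀ i l Z (c : ℂ), c ≠ 0 → Z i ≠ 0 → hev (-16) 16 (K.θ i) Z (c • N l *ᵥ Z) = c ^ 16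
  θ' : ∀ j l W (c : ℂ), c ≠ 0 → W j ≠ 0 → hev 16 (-16) (K.θ' j) (c • (N l)⁻¹ *ᵥ W) W = c ^ 16

end Vale.Agent.P296
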