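import Vale.Agent.P296.RingB

namespace Vale.Agent.P296

open scoped Matrix
open Polynomial

theorem graphR_z (M : Matrix (Fin 2) (Fin 2) ℂ) (i : Fin 2) : ZR i 1 (graphR M) :=
  (((ZR.monomial i 0 0 (by simp) (by simp)).smul _).add
    ((ZR.monomial i 1 0 (by simp) (by simp)).smul _)).sub
  (((ZR.monomial i 0 1 (by simp) (by simp)).smul _).add
    ((ZR.monomial i 1 1 (by simp) (by simp)).smul _))
theorem graphR_w (M : Matrix (Fin 2) (Fin 2) ℂ) (j : Fin 2) : WR j 1 (graphR M) :=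
  (((WR.monomial j 0 0 (by simp) (by simp)).smul _).add
    ((WR.monomial j 1 0 (by simp) (by simp)).smul _)).sub
  (((WR.monomial j 0 1 (by simp) (by simp)).smul _).add
    ((WR.monomial j 1 1 (by simp) (by simp)).smul _))
theorem hev_graphR (M : Matrix (Fin 2) (Fin 2) ℂ) (Z W : V) :
    hev 1 1 (graphR M) Z W = cross W (M *ᵥ Z) := by
  simp only [graphR, hev_sub, hev_add, hev_smul, hev_mono, cross, Matrix.mulVec, dotProduct,
    Fin.sum_univ_two]
  simp
  ring

namespace DivX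

theorem coeff_graph (M : Matrix (Fin 2) (Fin 2) ℂ) :
    (graphR M).coeff (0, 0) = M 1 0 ∧ (graphR M).coeff (1, 0) = M 1 1 ∧
      (graphR M).coeff (0, 1) = -M 0 0 ∧ (graphR M).coeff (1, 1) = -M 0 1 := by
  simp [graphR, mono, AddMonoidAlgebra.coeff_single]

theorem top_deg (φ : ℤ × ℤ →+ ℤ) {G g : R} {d s : ℤ} (hG : Sup (fun m => φ m ≤ d) G)
    (hG' : ∃ m ∈ G.coeff.support, φ m = d) (h : Sup (fun m => φ m ≤ s) (G * g)) :
    Sup (fun m => φ m ≤ s - d) g := by
  rcases g.coeff.support.eq_empty_or_nonempty with h0 | h0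
  · intro m hm
    rw [h0] at hm
    simp at hm
  obtain ⟨m0, hm0, hmax⟩ := g.coeff.support.exists_max_image φ h0
  suffices φ m0 ≤ s - d from fun m hm => (hmax m hm).trans this
  obtain ⟨g1, g0, e1, a1, a0, a2⟩ := Sup.split g (fun m => φ m = φ m0)
  obtain ⟨G1, G0, e2, b1, b0, b2⟩ := Sup.split G (fun m => φ m = d)
  have c0 : Sup (fun m => φ m < φ m0) g0 := fun m hm =>
    lt_of_le_of_ne ((a2 _ hmax).2 m hm) (a0 m hm)
  have c1 : Sup (fun m => φ m < d) G0 := fun m hm =>
    lt_of_le_of_ne ((b2 _ hG).2 m hm) (b0 m hm)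
  have n1 : g1 ≠ 0 := by
    rintro rfl
    rw [zero_add] at e1
    exact a0 m0 (e1 ▸ hm0) rfl
  have n2 : G1 ≠ 0 := by
    rintro rfl
    rw [zero_add] at e2
    obtain ⟨m, hm, hm'⟩ := hG'
    exact b0 m (e2 ▸ hm) hm'
  have n3 : (G1 * g1).coeff.support.Nonempty := by
    rw [Finsupp.support_nonempty_iff]
    intro h3
    exact mul_ne_zero n2 n1 (AddMonoidAlgebra.coeff_injective h3)
  obtain ⟨m, hm⟩ := n3
  have d1 : φ m = d + φ m0 :=
    Sup.mul (S := fun m => φ m = d + φ m0) b1 a1 (fun a b x y => by rw [map_add, x, y]) m hm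
  have d2 : Sup (fun m => φ m < d + φ m0) (G1 * g0 + G0 * g) :=
    (Sup.mul b1 c0 fun a b x y => by rw [map_add]; omega).add
      (Sup.mul (Q := fun m => φ m ≤ φ m0) c1 hmax fun a b x y => by rw [map_add]; omega)
  have d3 : (G1 * g0 + G0 * g).coeff m = 0 := by
    by_contra h4
    exact (d2 m (Finsupp.mem_support_iff.2 h4)).ne d1
  have e3 : G * g = G1 * g1 + (G1 * g0 + G0 * g) := by
    linear_combination g * e2 + G1 * e1
  have d4 : m ∈ (G * g).coeff.support := by
    rw [Finsupp.mem_support_iff, e3, AddMonoidAlgebra.coeff_add, Finsupp.add_apply, d3, add_zero]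
    exact Finsupp.mem_support_iff.1 hm
  have := h m d4
  omega

theorem reg {M : Matrix (Fin 2) (Fin 2) ℂ} (hM : M.det ≠ 0) (s t : ℤ) (g : R) :
    (∀ i, ZR i s (graphR M * g) → ZR i (s - 1) g) ∧
      (∀ j, WR j t (graphR M * g) → WR j (t - 1) g) := by
  obtain ⟨k1, k2, k3, k4⟩ := coeff_graph M
  rw [Matrix.det_fin_two] at hM
  have ex : ∀ (φ : ℤ × ℤ →+ ℤ) (d : ℤ) (a b : ℤ × ℤ), φ a = d → φ b = d →
      ((graphR M).coeff a = 0 → (graphR M).coeff b = 0 → False) →
      ∃ m ∈ (graphR M).coeff.support, φ m = d := by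
    intro φ d a b ha hb h
    by_cases h1 : (graphR M).coeff a = 0
    · exact ⟨b, Finsupp.mem_support_iff.2 (h h1), hb⟩
    · exact ⟨a, Finsupp.mem_support_iff.2 h1, ha⟩
  refine ⟨fun i h => ?_, fun j h => ?_⟩
  · fin_cases i
    · have := top_deg (-AddMonoidHom.fst ℤ ℤ) (d := 0) (s := 0)
        (fun m hm => by simpa using graphR_z M 0 m hm)
        (ex _ _ (0, 0) (0, 1) rfl rfl fun x y => hM (by
          rw [k1] at x; rw [k3, neg_eq_zero] at y; rw [x, y]; ring))
        (fun m hm => by simpa using h m hm)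
      exact fun m hm => by simpa using this m hm
    · have := top_deg (AddMonoidHom.fst ℤ ℤ) (d := 1) (s := s)
        (fun m hm => by simpa using graphR_z M 1 m hm)
        (ex _ _ (1, 0) (1, 1) rfl rfl fun x y => hM (by
          rw [k2] at x; rw [k4, neg_eq_zero] at y; rw [x, y]; ring))
        (fun m hm => by simpa using h m hm)
      exact fun m hm => by simpa using this m hm
  · fin_cases j
    · have := top_deg (-AddMonoidHom.snd ℤ ℤ) (d := 0) (s := 0)
        (fun m hm => by simpa using graphR_w M 0 m hm)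
        (ex _ _ (0, 0) (1, 0) rfl rfl fun x y => hM (by
          rw [k1] at x; rw [k2] at y; rw [x, y]; ring))
        (fun m hm => by simpa using h m hm)
      exact fun m hm => by simpa using this m hm
    · have := top_deg (AddMonoidHom.snd ℤ ℤ) (d := 1) (s := t)
        (fun m hm => by simpa using graphR_w M 1 m hm)
        (ex _ _ (0, 1) (1, 1) rfl rfl fun x y => hM (by
          rw [k3, neg_eq_zero] at x; rw [k4, neg_eq_zero] at y; rw [x, y]; ring))
        (fun m hm => by simpa using h m hm)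
      exact fun m hm => by simpa using this m hm

theorem mono_pow (a b : ℤ) (n : ℕ) : mono a b ^ n = mono (n * a) (n * b) := by
  induction n with
  | zero => simp [mono_zero]
  | succ n ih => rw [pow_succ, ih, mono_mul]; congr 1 <;> push_cast <;> ring

/-- elimination of the variable `v` -/
theorem elim (PA PB : ℂ[X]) (f : R) : ∃ (n : ℕ) (p : ℂ[X]),
    aeval (mono 1 0) PA - mono 0 1 * aeval (mono 1 0) PB ∣
      (aeval (mono 1 0) PB ^ 2 * mono 1 1) ^ n * f - aeval (mono 1 0) p := by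
  set A := aeval (mono 1 0) PA with hA
  set B := aeval (mono 1 0) PB with hB
  have m11 : mono 1 1 = mono 1 0 * mono 0 1 := by rw [mono_mul]; simp
  have up : ∀ (f : R) (n k : ℕ) (p : ℂ[X]),
      A - mono 0 1 * B ∣ (B ^ 2 * mono 1 1) ^ n * f - aeval (mono 1 0) p → ∃ p' : ℂ[X],
      A - mono 0 1 * B ∣ (B ^ 2 * mono 1 1) ^ (n + k) * f - aeval (mono 1 0) p' := by
    intro f n k p h
    induction k with
    | zero => exact ⟨p, h⟩
    | succ k ih =>
      obtain ⟨p', c, hc⟩ := ih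
      refine ⟨PB * PA * X * p', B ^ 2 * mono 1 1 * c - B * mono 1 0 * aeval (mono 1 0) p', ?_⟩
      simp only [map_mul, aeval_X, ← hA, ← hB]
      rw [← add_assoc, pow_succ]
      rw [m11] at hc ⊢
      linear_combination (B ^ 2 * (mono 1 0 * mono 0 1)) * hc
  induction f using AddMonoidAlgebra.induction_linear with
  | zero => exact ⟨0, 0, by simp⟩
  | add f g hf hg =>
    obtain ⟨n, p, h⟩ := hf
    obtain ⟨n', p', h'⟩ := hg
    obtain ⟨q, h1⟩ := up f n n' p h
    obtain ⟨q', h2⟩ := up g n' n p' h'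
    refine ⟨n + n', q + q', ?_⟩
    rw [add_comm n' n] at h2
    have := dvd_add h1 h2
    convert this using 1
    rw [map_add]; ring
  | single m c =>
    obtain ⟨a, b⟩ := m
    obtain ⟨n, x, y, z, h1, h2, h3⟩ : ∃ n x y z : ℕ, (x : ℤ) = n + a ∧ (y : ℤ) = n + b ∧
        y + z = 2 * n := ⟨a.natAbs + b.natAbs, (a.natAbs + b.natAbs + a).toNat,
          (a.natAbs + b.natAbs + b).toNat, (a.natAbs + b.natAbs - b).toNat, by omega, by omega,
          by omega⟩
    refine ⟨n, C c * X ^ x * PB ^ z * PA ^ y, ?_⟩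
    have e1 : (AddMonoidAlgebra.single (a, b) c : R) = algebraMap ℂ R c * mono a b := by
      rw [← Algebra.smul_def]; simp [mono]
    have e2 : mono 1 1 ^ n * mono a b = mono 1 0 ^ x * mono 0 1 ^ y := by
      rw [mono_pow, mono_pow, mono_pow, mono_mul, mono_mul, h1, h2]; simp
    have e3 : (B ^ 2 * mono 1 1) ^ n * (algebraMap ℂ R c * mono a b) =
        algebraMap ℂ R c * mono 1 0 ^ x * B ^ z * (mono 0 1 * B) ^ y := by
      rw [mul_pow, ← pow_mul, ← h3, pow_add, mul_pow]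
      linear_combination (B ^ y * B ^ z * algebraMap ℂ R c) * e2
    simp only [map_mul, map_pow, aeval_X, aeval_C, ← hA, ← hB]
    rw [e1, e3, ← mul_sub]
    exact Dvd.dvd.mul_left (dvd_sub_comm.1 (sub_dvd_pow_sub_pow _ _ _)) _

theorem bad_finite {M : Matrix (Fin 2) (Fin 2) ℂ} (hM : M.det ≠ 0) (k : Fin 2) :
    {u : ℂ | (M *ᵥ ![1, u]) k = 0}.Finite := by
  have h : (C (M k 0) + C (M k 1) * X : ℂ[X]) ≠ 0 := by
    intro h
    have h0 := congrArg (fun p => coeff p 0) h
    have h1 := congrArg (fun p => coeff p 1) h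
    simp [coeff_C] at h0 h1
    exact hM (Matrix.det_eq_zero_of_row_eq_zero k fun j => by fin_cases j <;> assumption)
  refine (Polynomial.finite_setOfPred_isRoot h).subset fun u hu => ?_
  simpa [Matrix.mulVec, dotProduct, Fin.sum_univ_two] using hu

end DivX

theorem graphR_ne {M : Matrix (Fin 2) (Fin 2) ℂ} (hM : M.det ≠ 0) : graphR M ≠ 0 := by
  intro h
  obtain ⟨k1, k2, -, -⟩ := DivX.coeff_graph M
  rw [h] at k1 k2
  apply hM
  rw [Matrix.det_fin_two, ← k1, ← k2]
  simp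

/-- Division by the equation of one graph, with control of the regularity. -/
theorem div_graph {M : Matrix (Fin 2) (Fin 2) ℂ} (hM : M.det ≠ 0) (s t : ℤ) (f : R)
    (S : Set ℂ) (hS : S.Finite)
    (hf : ∀ u : ℂ, u ∉ S → hev s t f ![1, u] (M *ᵥ ![1, u]) = 0) :
    ∃ g : R, f = graphR M * g ∧ (∀ i, ZR i s f → ZR i (s - 1) g) ∧
      (∀ j, WR j t f → WR j (t - 1) g) := by
  suffices h : graphR M ∣ f by
    obtain ⟨g, rfl⟩ := h
    exact ⟨g, rfl, DivX.reg hM s t g⟩
  obtain ⟨n, p, h⟩ := DivX.elim (C (M 1 0) + C (M 1 1) * X) (C (M 0 0) + C (M 0 1) * X) f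
  simp only [map_add, map_mul, aeval_X, aeval_C] at h
  have m11 : mono 1 1 = mono 1 0 * mono 0 1 := by rw [mono_mul]; simp
  have hG : graphR M = algebraMap ℂ R (M 1 0) + algebraMap ℂ R (M 1 1) * mono 1 0 -
      mono 0 1 * (algebraMap ℂ R (M 0 0) + algebraMap ℂ R (M 0 1) * mono 1 0) := by
    simp only [graphR, Algebra.smul_def, mono_zero, m11]
    ring
  have hp : p = 0 := by
    apply Polynomial.eq_zero_of_infinite_isRoot
    refine Set.Infinite.mono ?_ (((hS.union (Set.finite_singleton 0)).union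
      ((DivX.bad_finite hM 0).union (DivX.bad_finite hM 1))).infinite_compl)
    intro u hu
    simp only [Set.mem_compl_iff, Set.mem_union, Set.mem_singleton_iff, Set.mem_ofPred_eq,
      not_or] at hu
    obtain ⟨⟨h1, h2⟩, h3, h4⟩ := hu
    obtain ⟨ev, e1, e2⟩ := exists_ev u ((M *ᵥ ![1, u]) 1 / (M *ᵥ ![1, u]) 0) h2
      (div_ne_zero h4 h3)
    have e3 : ∀ (s t : ℤ) (f : R), hev s t f ![1, u] (M *ᵥ ![1, u]) =
        (M *ᵥ ![1, u]) 0 ^ t * ev f := by
      intro s t f
      have := e2 s t f 1 _ one_ne_zero h3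
      rw [one_mul, one_zpow, one_mul, mul_div_cancel₀ _ h3] at this
      rw [← this]
      congr 1
      ext k; fin_cases k <;> rfl
    have f0 : ev f = 0 := by
      have := hf u h1
      rw [e3] at this
      exact (mul_eq_zero.1 this).resolve_left (zpow_ne_zero _ h3)
    have g0 : ev (graphR M) = 0 := by
      have := hev_graphR M ![1, u] (M *ᵥ ![1, u])
      rw [e3, cross, mul_comm ((M *ᵥ ![1, u]) 0) ((M *ᵥ ![1, u]) 1), sub_self] at this
      exact (mul_eq_zero.1 this).resolve_left (zpow_ne_zero _ h3)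
    rw [← hG] at h
    obtain ⟨c, hc⟩ := h
    have := congrArg ev hc
    rw [map_sub, map_mul, f0, map_mul, g0, ← aeval_algHom_apply, e1] at this
    simpa [IsRoot, coe_aeval_eq_eval] using this
  rw [hp, map_zero, sub_zero] at h
  rw [hG]
  refine IsCoprime.dvd_of_dvd_mul_left (IsCoprime.pow_right (IsCoprime.mul_right
    (IsCoprime.pow_right ?_) ?_)) h
  · have hd : algebraMap ℂ R (M.det)⁻¹ * (algebraMap ℂ R (M 0 0) * algebraMap ℂ R (M 1 1) -
        algebraMap ℂ R (M 0 1) * algebraMap ℂ R (M 1 0)) = 1 := by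
      rw [← map_mul, ← map_mul, ← map_sub, ← map_mul, ← Matrix.det_fin_two, inv_mul_cancel₀ hM,
        map_one]
    refine ⟨-(algebraMap ℂ R (M.det)⁻¹ * algebraMap ℂ R (M 0 1)), algebraMap ℂ R (M.det)⁻¹ *
      (algebraMap ℂ R (M 1 1) - algebraMap ℂ R (M 0 1) * mono 0 1), ?_⟩
    linear_combination hd
  · refine ⟨0, mono (-1) (-1), ?_⟩
    rw [mono_mul]
    simp [mono_zero]

theorem DivX.cross_finite {N : Fin 4 → Matrix (Fin 2) (Fin 2) ℂ} (hN : Nodal N) {l l' : Fin 4}
    (h : l ≠ l') : {u : ℂ | cross (N l *ᵥ ![1, u]) (N l' *ᵥ ![1, u]) = 0}.Finite := by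
  have hd := hN.disc l l' h
  set a := cross (N l *ᵥ ![1, 0]) (N l' *ᵥ ![1, 0]) with ha
  set b := cross (N l *ᵥ ![1, 0]) (N l' *ᵥ ![0, 1]) + cross (N l *ᵥ ![0, 1]) (N l' *ᵥ ![1, 0])
    with hb
  set c := cross (N l *ᵥ ![0, 1]) (N l' *ᵥ ![0, 1]) with hc
  have h : (C a + C b * X + C c * X ^ 2 : ℂ[X]) ≠ 0 := by
    intro h
    have h0 := congrArg (fun p => coeff p 0) h
    have h1 := congrArg (fun p => coeff p 1) h
    simp [coeff_C] at h0 h1
    exact hd (by rw [h0, h1]; ring)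
  refine (Polynomial.finite_setOfPred_isRoot h).subset fun u hu => ?_
  simp only [Set.mem_ofPred_eq, IsRoot, eval_add, eval_mul, eval_C, eval_X, eval_pow] at hu ⊢
  rw [← hu, ha, hb, hc]
  simp [cross, Matrix.mulVec, dotProduct, Fin.sum_univ_two]
  ring

theorem DivX.div_fin {N : Fin 4 → Matrix (Fin 2) (Fin 2) ℂ} (hN : Nodal N) (T : Finset (Fin 4)) :
    ∀ (s t : ℤ) (f : R) (S : Set ℂ), S.Finite →
    (∀ l ∈ T, ∀ u : ℂ, u ∉ S → hev s t f ![1, u] (N l *ᵥ ![1, u]) = 0) →
    ∃ g : R, f = (∏ l ∈ T, graphR (N l)) * g ∧ (∀ i, ZR i s f → ZR i (s - T.card) g) ∧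
      (∀ j, WR j t f → WR j (t - T.card) g) := by
  induction T using Finset.induction_on with
  | empty => exact fun s t f S _ _ => ⟨f, by simp, by simp, by simp⟩
  | insert l1 T hl ih =>
    intro s t f S hS hf
    obtain ⟨g1, e1, z1, w1⟩ := div_graph (hN.det_ne l1) s t f S hS
      (hf l1 (Finset.mem_insert_self _ _))
    obtain ⟨g, e2, z2, w2⟩ := ih (s - 1) (t - 1) g1
      ((S ∪ {0}) ∪ ⋃ l ∈ T, ({u : ℂ | (N l *ᵥ ![1, u]) 0 = 0} ∪ {u : ℂ | (N l *ᵥ ![1, u]) 1 = 0} ∪
        {u : ℂ | cross (N l *ᵥ ![1, u]) (N l1 *ᵥ ![1, u]) = 0}))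
      ((hS.union (Set.finite_singleton 0)).union (T.finite_toSet.biUnion fun l h =>
        ((DivX.bad_finite (hN.det_ne l) 0).union (DivX.bad_finite (hN.det_ne l) 1)).union
          (DivX.cross_finite hN fun e => hl (e ▸ h)))) (by
        intro l h u hu
        simp only [Set.mem_union, Set.mem_singleton_iff, Set.mem_iUnion, Set.mem_ofPred_eq,
          not_or, not_exists] at hu
        obtain ⟨⟨h1, h2⟩, h3⟩ := hu
        obtain ⟨⟨h4, h5⟩, h6⟩ := h3 l h
        have k := hf l (Finset.mem_insert_of_mem h) u h1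
        have gd : ∀ (s t : ℤ) (f : R), Good s t f ![1, u] (N l *ᵥ ![1, u]) := fun s t f =>
          Good.of (.inr (.inr ⟨by simp, by simpa using h2⟩)) (.inr (.inr ⟨h4, h5⟩))
        have k2 := hev_mul (gd 1 1 (graphR (N l1))) (gd (s - 1) (t - 1) g1)
        rw [← e1, add_sub_cancel, add_sub_cancel, k, hev_graphR] at k2
        exact (mul_eq_zero.1 k2.symm).resolve_left h6)
    refine ⟨g, by rw [Finset.prod_insert hl, mul_assoc, ← e2, e1], fun i h => ?_, fun j h => ?_⟩
    · exact (z2 i (z1 i h)).of_eq (by rw [Finset.card_insert_of_notMem hl]; push_cast; ring)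
    · exact (w2 j (w1 j h)).of_eq (by rw [Finset.card_insert_of_notMem hl]; push_cast; ring)

/-- Division by the equation of the union of the four graphs. -/
theorem div_graphs {N : Fin 4 → Matrix (Fin 2) (Fin 2) ℂ} (hN : Nodal N) (s t : ℤ) (f : R)
    (S : Set ℂ) (hS : S.Finite)
    (hf : ∀ l (u : ℂ), u ∉ S → hev s t f ![1, u] (N l *ᵥ ![1, u]) = 0) :
    ∃ g : R, f = (∏ l, graphR (N l)) * g ∧ (∀ i, ZR i s f → ZR i (s - 4) g) ∧
      (∀ j, WR j t f → WR j (t - 4) g) := by
  simpa using DivX.div_fin hN Finset.univ s t f S hS fun l _ => hf l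

end Vale.Agent.P296
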