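import Vale.Agent.P296.Interp
import Vale.Agent.P296.DivR

namespace Vale.Agent.P296

open scoped Matrix
open Polynomial

namespace BaseX

def ex (i : Fin 2) (n : ℕ) : ℤ := if i = 0 then n else -16 - n

noncomputable def th (i : Fin 2) (T : ℕ → ℂ[X]) : R :=
  ∑ k ∈ Finset.range 17, ∑ n ∈ (T k).support, (T k).coeff n • mono (ex i n) k

noncomputable def th' (i : Fin 2) (T : ℕ → ℂ[X]) : R :=
  ∑ k ∈ Finset.range 17, ∑ n ∈ (T k).support, (T k).coeff n • mono k (ex i n)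

theorem th_z (i : Fin 2) (T : ℕ → ℂ[X]) : ZR i (-16) (th i T) :=
  ZR.sum _ fun k _ => ZR.sum _ fun n _ => ZR.smul _ (ZR.monomial i _ _
    (fun h => by simp [ex, h]) (fun h => by simp [ex, h]))

theorem th_w (i j : Fin 2) (T : ℕ → ℂ[X]) : WR j 16 (th i T) :=
  WR.sum _ fun k hk => WR.sum _ fun n _ => WR.smul _ (WR.monomial j _ _
    (fun _ => by simp) (fun _ => by have := Finset.mem_range.1 hk; omega))

theorem th'_w (i : Fin 2) (T : ℕ → ℂ[X]) : WR i (-16) (th' i T) :=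
  WR.sum _ fun k _ => WR.sum _ fun n _ => WR.smul _ (WR.monomial i _ _
    (fun h => by simp [ex, h]) (fun h => by simp [ex, h]))

theorem th'_z (i j : Fin 2) (T : ℕ → ℂ[X]) : ZR j 16 (th' i T) :=
  ZR.sum _ fun k hk => ZR.sum _ fun n _ => ZR.smul _ (ZR.monomial j _ _
    (fun _ => by simp) (fun _ => by have := Finset.mem_range.1 hk; omega))

theorem hv_pow (i : Fin 2) (u : ℂ) (n : ℕ) :
    hv i u 0 ^ (-16 - ex i n) * hv i u 1 ^ ex i n = u ^ n := by
  fin_cases i <;> simp [hv, ex]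

theorem zp (x y : ℂ) {k : ℕ} (hk : k ∈ Finset.range 17) :
    x ^ ((16 : ℤ) - k) * y ^ (k : ℤ) = x ^ (16 - k) * y ^ k := by
  have := Finset.mem_range.1 hk
  rw [show (16 : ℤ) - k = ((16 - k : ℕ) : ℤ) by omega, zpow_natCast, zpow_natCast]

theorem hev_th (i : Fin 2) (T : ℕ → ℂ[X]) (u : ℂ) (W : V) :
    hev (-16) 16 (th i T) (hv i u) W =
      ∑ k ∈ Finset.range 17, (T k).eval u * W 0 ^ (16 - k) * W 1 ^ k := by
  rw [th, hev_sum]
  refine Finset.sum_congr rfl fun k hk => ?_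
  rw [hev_sum, eval_eq_sum, Polynomial.sum, mul_assoc, Finset.sum_mul]
  refine Finset.sum_congr rfl fun n _ => ?_
  rw [hev_smul, hev_mono, hv_pow, zp _ _ hk, mul_assoc]

theorem hev_th' (i : Fin 2) (T : ℕ → ℂ[X]) (u : ℂ) (W : V) :
    hev 16 (-16) (th' i T) W (hv i u) =
      ∑ k ∈ Finset.range 17, (T k).eval u * W 0 ^ (16 - k) * W 1 ^ k := by
  rw [th', hev_sum]
  refine Finset.sum_congr rfl fun k hk => ?_
  rw [hev_sum, eval_eq_sum, Polynomial.sum, mul_assoc, Finset.sum_mul]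
  refine Finset.sum_congr rfl fun n _ => ?_
  rw [hev_smul, hev_mono, hv_pow, zp _ _ hk]
  ring

theorem eq_hv (i : Fin 2) (Z : V) (h : Z i ≠ 0) : ∃ u, Z = Z i • hv i u := by
  fin_cases i
  · refine ⟨Z 1 / Z 0, ?_⟩
    ext k; fin_cases k
    · simp [hv]
    · simp only [Fin.zero_eta] at h
      simp [hv, mul_div_cancel₀ _ h]
  · refine ⟨Z 0 / Z 1, ?_⟩
    ext k; fin_cases k
    · simp only [Fin.mk_one] at h
      simp [hv, mul_div_cancel₀ _ h]
    · simp [hv]

theorem hev_sigma (N : Fin 4 → Matrix (Fin 2) (Fin 2) ℂ) (Z W : V) :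
    hev 4 4 (∏ l, graphR (N l)) Z W = ∏ l, cross W (N l *ᵥ Z) := by
  have g : ∀ l, Good 1 1 (graphR (N l)) Z W := fun l =>
    Good.of (.inl (graphR_z _)) (.inl (graphR_w _))
  have h3 := hev_mul (((g 0).mul (g 1)).mul (g 2)) (g 3)
  rw [hev_mul ((g 0).mul (g 1)) (g 2), hev_mul (g 0) (g 1)] at h3
  simp only [hev_graphR] at h3
  rw [Fin.prod_univ_four, Fin.prod_univ_four]
  exact h3

end BaseX

open BaseX in
theorem exists_base {N : Fin 4 → Matrix (Fin 2) (Fin 2) ℂ} (hN : Nodal N)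
    (hN' : Nodal (fun l => (N l)⁻¹)) : ∃ K : Core 4 16, Base N K := by
  choose T hT using interp hN
  choose T' hT' using interp hN'
  have h1 : ∀ i l Z (c : ℂ), c ≠ 0 → Z i ≠ 0 →
      hev (-16) 16 (th i (T i)) Z (c • N l *ᵥ Z) = c ^ 16 := by
    intro i l Z c hc hZ
    obtain ⟨u, hu⟩ := eq_hv i Z hZ
    generalize Z i = z at hu hZ
    rw [hu, Matrix.mulVec_smul, smul_smul, hev_scal _ _ _ _ _ _ _ hZ (mul_ne_zero hc hZ), hev_th,
      hT, mul_zpow, zpow_neg]
    have : z ^ (16 : ℤ) ≠ 0 := zpow_ne_zero _ hZ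
    field_simp
  have h2 : ∀ j l W (c : ℂ), c ≠ 0 → W j ≠ 0 →
      hev 16 (-16) (th' j (T' j)) (c • (N l)⁻¹ *ᵥ W) W = c ^ 16 := by
    intro i l Z c hc hZ
    obtain ⟨u, hu⟩ := eq_hv i Z hZ
    generalize Z i = z at hu hZ
    rw [hu, Matrix.mulVec_smul, smul_smul, hev_scal _ _ _ _ _ _ _ (mul_ne_zero hc hZ) hZ, hev_th',
      hT', mul_zpow, zpow_neg]
    have : z ^ (16 : ℤ) ≠ 0 := zpow_ne_zero _ hZ
    field_simp
  have h3 : ∀ i j, ∃ g : R, th i (T i) * th' j (T' j) - 1 = (∏ l, graphR (N l)) * g ∧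
      ZR i (-4) g ∧ WR j (-4) g := by
    intro i j
    obtain ⟨g, e, a, b⟩ := div_graphs hN 0 0 (th i (T i) * th' j (T' j) - 1)
      ({0} ∪ ⋃ l, ({u : ℂ | (N l *ᵥ ![1, u]) 0 = 0} ∪ {u : ℂ | (N l *ᵥ ![1, u]) 1 = 0}))
      ((Set.finite_singleton 0).union (Set.finite_iUnion fun l =>
        (DivX.bad_finite (hN.det_ne l) 0).union (DivX.bad_finite (hN.det_ne l) 1))) (by
        intro l u hu
        simp only [Set.mem_union, Set.mem_singleton_iff, Set.mem_iUnion, Set.mem_ofPred_eq,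
          not_or, not_exists] at hu
        obtain ⟨k1, k2⟩ := hu
        obtain ⟨k3, k4⟩ := k2 l
        have gd : ∀ (s t : ℤ) (f : R), Good s t f ![1, u] (N l *ᵥ ![1, u]) := fun s t f =>
          Good.of (.inr (.inr ⟨by simp, by simpa using k1⟩)) (.inr (.inr ⟨k3, k4⟩))
        have k5 := hev_mul (gd (-16) 16 (th i (T i))) (gd 16 (-16) (th' j (T' j)))
        have k6 := h1 i l ![1, u] 1 one_ne_zero (by fin_cases i <;> simp [k1])
        have k7 := h2 j l (N l *ᵥ ![1, u]) 1 one_ne_zero (by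
          fin_cases j
          exacts [k3, k4])
        rw [Matrix.mulVec_mulVec, Matrix.nonsing_inv_mul _ (Ne.isUnit (hN.det_ne l)),
          Matrix.one_mulVec] at k7
        rw [one_smul] at k6 k7
        rw [k6, k7, neg_add_cancel, add_neg_cancel] at k5
        rw [hev_sub, k5, hev_one]
        simp)
    exact ⟨g, e, (a i ((((th_z i _).mul (th'_z j i _)).of_eq (by norm_num)).sub (ZR.one i))).of_eq
      (by norm_num), (b j ((((th_w i j _).mul (th'_w j _)).of_eq (by norm_num)).sub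
        (WR.one j))).of_eq (by norm_num)⟩
  choose r hr rz rw' using h3
  refine ⟨⟨∏ l, graphR (N l), fun i => th i (T i), fun j => th' j (T' j), r,
    Finset.prod_ne_zero_iff.2 fun l _ => graphR_ne (hN.det_ne l), fun i => ?_, fun j => ?_,
    fun i => th_z i _, fun i j => th_w i j _, fun i j => th'_z j i _, fun j => th'_w j _,
    rz, rw', hr⟩, hev_sigma N, h1, h2⟩
  · rw [Fin.prod_univ_four]
    exact ((((graphR_z _ i).mul (graphR_z _ i)).mul (graphR_z _ i)).mul (graphR_z _ i)).of_eq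
      (by norm_num)
  · rw [Fin.prod_univ_four]
    exact ((((graphR_w _ j).mul (graphR_w _ j)).mul (graphR_w _ j)).mul (graphR_w _ j)).of_eq
      (by norm_num)

end Vale.Agent.P296
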