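import Vale.Agent.P296.Defs

namespace Vale.Agent.P296

open scoped Matrix ComplexOrder ContDiff

theorem contDiff_det {r : ℕ} {A : ℂ × ℂ → Matrix (Fin r) (Fin r) ℂ}
    (h : ∀ a b, ContDiff ℝ ∞ (fun x => A x a b)) : ContDiff ℝ ∞ (fun x => (A x).det) := by
  simp_rw [Matrix.det_apply']
  refine ContDiff.sum fun σ _ => ?_
  exact contDiff_const.mul (contDiff_prod fun i _ => h _ _)

theorem contDiff_inv_entry {r : ℕ} {H : ℂ × ℂ → Matrix (Fin r) (Fin r) ℂ}
    (hs : ∀ a b, ContDiff ℝ ∞ (fun x => H x a b)) (hp : ∀ x, (H x).PosDef) (a b : Fin r) :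
    ContDiff ℝ ∞ (fun x => (H x)⁻¹ a b) := by
  have hd : ∀ x, (H x).det ≠ 0 := fun x => (hp x).det_pos.ne'
  simp_rw [Matrix.inv_def, Ring.inverse_eq_inv', Matrix.smul_apply, smul_eq_mul,
    Matrix.adjugate_apply]
  refine ((contDiff_det hs).inv hd).mul (contDiff_det fun c d => ?_)
  by_cases hc : c = b
  · simp only [hc, Matrix.updateRow_self]; exact contDiff_const
  · simp only [Matrix.updateRow_ne hc]; exact hs _ _

theorem contDiff_del {f : ℂ × ℂ → ℂ} (hf : ContDiff ℝ ∞ f) (ξ : ℂ × ℂ) :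
    ContDiff ℝ ∞ (del ξ f) := by
  have h1 : ContDiff ℝ ∞ (fderiv ℝ f) := hf.fderiv_right (m := ∞) (by simp)
  unfold del
  exact ((h1.clm_apply contDiff_const).sub
    (contDiff_const.mul (h1.clm_apply contDiff_const))).div_const _

theorem delbar_mul {f g : ℂ × ℂ → ℂ} {x : ℂ × ℂ} (hf : DifferentiableAt ℝ f x)
    (hg : DifferentiableAt ℝ g x) (ξ : ℂ × ℂ) :
    delbar ξ (fun y => f y * g y) x = delbar ξ f x * g x + f x * delbar ξ g x := by
  unfold delbar
  rw [fderiv_fun_mul hf hg]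
  simp only [ContinuousLinearMap.add_apply, ContinuousLinearMap.smul_apply, smul_eq_mul]
  ring

theorem delbar_sum {ι : Type*} (T : Finset ι) {f : ι → ℂ × ℂ → ℂ} {x : ℂ × ℂ}
    (hf : ∀ i ∈ T, DifferentiableAt ℝ (f i) x) (ξ : ℂ × ℂ) :
    delbar ξ (fun y => ∑ i ∈ T, f i y) x = ∑ i ∈ T, delbar ξ (f i) x := by
  unfold delbar
  rw [fderiv_fun_sum hf]
  simp only [ContinuousLinearMap.sum_apply, Finset.mul_sum, ← Finset.sum_add_distrib,
    Finset.sum_div]

theorem contDiff_conn {r : ℕ} {H : ℂ × ℂ → Matrix (Fin r) (Fin r) ℂ}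
    (hs : ∀ a b, ContDiff ℝ ∞ (fun x => H x a b)) (hp : ∀ x, (H x).PosDef) (ξ : ℂ × ℂ)
    (a b : Fin r) : ContDiff ℝ ∞ (fun x => conn H ξ x a b) := by
  simp only [conn, Matrix.mul_apply, Matrix.of_apply]
  exact ContDiff.sum fun c _ => (contDiff_inv_entry hs hp _ _).mul (contDiff_del (hs _ _) ξ)

/-- Expansion of the curvature: `H Θ = -∂bar ∂ H + ∂bar H * H⁻¹ * ∂ H`. -/
theorem mul_curv {r : ℕ} (H : ℂ × ℂ → Matrix (Fin r) (Fin r) ℂ)
    (hs : ∀ a b, ContDiff ℝ ∞ (fun x => H x a b)) (hp : ∀ x, (H x).PosDef) (ξ x : ℂ × ℂ) :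
    H x * curv H ξ x =
      -(Matrix.of fun a b => delbar ξ (del ξ (fun y => H y a b)) x) +
        (Matrix.of fun a b => delbar ξ (fun y => H y a b) x) * (H x)⁻¹ *
          (Matrix.of fun a b => del ξ (fun y => H y a b) x) := by
  have hu : ∀ y, IsUnit (H y).det := fun y => (hp y).det_pos.ne'.isUnit
  have key : ∀ a b, del ξ (fun y => H y a b) = fun y => ∑ c, H y a c * conn H ξ y c b := by
    intro a b; funext y
    have : H y * conn H ξ y = Matrix.of fun a b => del ξ (fun y => H y a b) y := by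
      rw [conn, ← Matrix.mul_assoc, Matrix.mul_nonsing_inv _ (hu y), Matrix.one_mul]
    have h2 := congrFun (congrFun this a) b
    simpa [Matrix.mul_apply] using h2.symm
  ext a b
  have hd : ∀ c d, DifferentiableAt ℝ (fun y => H y c d) x := fun c d =>
    ((hs c d).differentiable (by simp)) x
  have hc : ∀ c d, DifferentiableAt ℝ (fun y => conn H ξ y c d) x := fun c d =>
    ((contDiff_conn hs hp ξ c d).differentiable (by simp)) x
  have e : delbar ξ (del ξ (fun y => H y a b)) x = ∑ c, (delbar ξ (fun y => H y a c) x *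
      conn H ξ x c b + H x a c * delbar ξ (fun y => conn H ξ y c b) x) := by
    rw [key a b, delbar_sum _ (fun c _ => (hd a c).fun_mul (hc c b))]
    exact Finset.sum_congr rfl fun c _ => delbar_mul (hd a c) (hc c b) ξ
  rw [Matrix.mul_assoc]
  change _ = -(delbar ξ (del ξ (fun y => H y a b)) x) +
    ((Matrix.of fun a b => delbar ξ (fun y => H y a b) x) * conn H ξ x) a b
  rw [e]
  simp only [Matrix.mul_apply, curv, Matrix.of_apply, Finset.sum_add_distrib, mul_neg,
    Finset.sum_neg_distrib]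
  ring

end Vale.Agent.P296
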