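import Mathlib

/-!
Holomorphic vector bundles on the smooth projective surface `P¹ × P¹`, ampleness and
Griffiths positivity, written in the four standard affine charts.
-/

namespace Vale.Agent.P296

open scoped ComplexOrder ContDiff Matrix

/-- The complex projective line. -/
abbrev P1 : Type := Projectivization ℂ (Fin 2 → ℂ)

/-- Homogeneous coordinates of the point with affine coordinate `t` in the standard chart `i`:
coordinate `i` is `1`, the other one is `t`. -/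
def hv (i : Fin 2) (t : ℂ) : Fin 2 → ℂ := fun k => if k = i then 1 else t

theorem hv_ne (i : Fin 2) (t : ℂ) : hv i t ≠ 0 := fun h => by simpa [hv] using congrFun h i

/-- The four standard affine charts `ℂ² → P¹ × P¹`. -/
noncomputable def pt (α : Fin 2 × Fin 2) (x : ℂ × ℂ) : P1 × P1 :=
  (Projectivization.mk ℂ (hv α.1 x.1) (hv_ne _ _), Projectivization.mk ℂ (hv α.2 x.2) (hv_ne _ _))

/-- A holomorphic vector bundle of rank `r` on `P¹ × P¹`: a holomorphic cocycle of transition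
matrices on the standard cover.  A vector of the fibre has coordinates `v_α = g α β p *ᵥ v_β`. -/
structure Bundle (r : ℕ) where
  g : Fin 2 × Fin 2 → Fin 2 × Fin 2 → P1 × P1 → Matrix (Fin r) (Fin r) ℂ
  holo : ∀ α β a b, DifferentiableOn ℂ (fun x => g α β (pt α x) a b)
    {x | pt α x ∈ Set.range (pt β)}
  refl : ∀ α, ∀ p ∈ Set.range (pt α), g α α p = 1
  cocycle : ∀ α β γ p, p ∈ Set.range (pt α) → p ∈ Set.range (pt β) → p ∈ Set.range (pt γ) →
    g α β p * g β γ p = g α γ p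

/-- A holomorphic section of `O_{P(E)}(m)`.  A point of `P(E)` is a one-dimensional quotient of
a fibre, i.e. a nonzero covector `φ` up to scale (coordinates `φ_β = φ_α ᵥ* g α β p`), and a section
of `O(m)` is a holomorphic function of `(x, φ)`, homogeneous of degree `m` in `φ`. -/
structure OSec {r : ℕ} (E : Bundle r) (m : ℕ) where
  f : Fin 2 × Fin 2 → (ℂ × ℂ) × (Fin r → ℂ) → ℂ
  holo : ∀ α, DifferentiableOn ℂ (f α) {q | q.2 ≠ 0}
  homog : ∀ α x φ (c : ℂ), φ ≠ 0 → c ≠ 0 → f α (x, c • φ) = c ^ m * f α (x, φ)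
  glue : ∀ α β x y φ, φ ≠ 0 → pt α x = pt β y →
    f β (y, φ ᵥ* E.g α β (pt α x)) = f α (x, φ)

/-- The map to `ℂⁿ` given by `n` sections of `O_{P(E)}(m)`, in the chart `α`. -/
def secMap {r m n : ℕ} {E : Bundle r} (s : Fin n → OSec E m) (α : Fin 2 × Fin 2)
    (q : (ℂ × ℂ) × (Fin r → ℂ)) : Fin n → ℂ := fun k => (s k).f α q

/-- `E` is ample: for some `m ≥ 1` finitely many sections of `O_{P(E)}(m)` have no common zero
and define an injective immersion of the compact manifold `P(E)` into a projective space,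
i.e. `O_{P(E)}(m)` is very ample. -/
def Bundle.Ample {r : ℕ} (E : Bundle r) : Prop :=
  ∃ m : ℕ, 1 ≤ m ∧ ∃ (n : ℕ) (s : Fin n → OSec E m),
    (∀ α x φ, φ ≠ 0 → secMap s α (x, φ) ≠ 0) ∧
    (∀ α β x y φ ψ (c : ℂ), φ ≠ 0 → ψ ≠ 0 → secMap s α (x, φ) = c • secMap s β (y, ψ) →
      pt α x = pt β y ∧ ∃ d : ℂ, φ ᵥ* E.g α β (pt α x) = d • ψ) ∧
    (∀ α x φ (v : (ℂ × ℂ) × (Fin r → ℂ)) (c : ℂ), φ ≠ 0 →
      fderiv ℂ (secMap s α) (x, φ) v = c • secMap s α (x, φ) → ∃ d : ℂ, v = (0, d • φ))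

/-- A smooth Hermitian metric on `E`: `h(v, v) = v_α^* H_α v_α`. -/
structure HMetric {r : ℕ} (E : Bundle r) where
  H : Fin 2 × Fin 2 → ℂ × ℂ → Matrix (Fin r) (Fin r) ℂ
  smooth : ∀ α a b, ContDiff ℝ ∞ (fun x => H α x a b)
  pos : ∀ α x, (H α x).PosDef
  glue : ∀ α β x y, pt α x = pt β y →
    H β y = (E.g α β (pt α x))ᴴ * H α x * E.g α β (pt α x)

/-- The Wirtinger derivative `∑ ξ_j ∂/∂z_j`. -/
noncomputable def del (ξ : ℂ × ℂ) (f : ℂ × ℂ → ℂ) (x : ℂ × ℂ) : ℂ :=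
  (fderiv ℝ f x ξ - Complex.I * fderiv ℝ f x (Complex.I • ξ)) / 2

/-- The conjugate Wirtinger derivative `∑ conj(ξ_k) ∂/∂conj(z_k)`. -/
noncomputable def delbar (ξ : ℂ × ℂ) (f : ℂ × ℂ → ℂ) (x : ℂ × ℂ) : ℂ :=
  (fderiv ℝ f x ξ + Complex.I * fderiv ℝ f x (Complex.I • ξ)) / 2

/-- The connection matrix `H⁻¹ ∂H` of the Chern connection, evaluated on `ξ`. -/
noncomputable def conn {r : ℕ} (H : ℂ × ℂ → Matrix (Fin r) (Fin r) ℂ) (ξ x : ℂ × ℂ) :
    Matrix (Fin r) (Fin r) ℂ :=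
  (H x)⁻¹ * Matrix.of fun a b => del ξ (fun y => H y a b) x

/-- The Chern curvature `∂bar (H⁻¹ ∂H) = ∑ c_{jk} dz_j ∧ dconj(z_k)` contracted with `ξ`:
the endomorphism `∑ c_{jk} ξ_j conj(ξ_k)`. -/
noncomputable def curv {r : ℕ} (H : ℂ × ℂ → Matrix (Fin r) (Fin r) ℂ) (ξ x : ℂ × ℂ) :
    Matrix (Fin r) (Fin r) ℂ :=
  Matrix.of fun a b => -delbar ξ (fun y => conn H ξ y a b) x

/-- Strict Griffiths positivity: `h(Θ(ξ, conj ξ) v, v) > 0` for all `ξ ≠ 0`, `v ≠ 0`. -/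
def HMetric.GriffithsPos {r : ℕ} {E : Bundle r} (h : HMetric E) : Prop :=
  ∀ α x (ξ : ℂ × ℂ) (v : Fin r → ℂ), ξ ≠ 0 → v ≠ 0 →
    0 < (star v ⬝ᵥ (h.H α x * curv (h.H α) ξ x) *ᵥ v).re

end Vale.Agent.P296
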