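import Vale.Agent.P296.RingB

namespace Vale.Agent.P296

open scoped Matrix

/-- Pull back by the squaring map. -/
noncomputable def dbl : R →ₐ[ℂ] R :=
  AddMonoidAlgebra.mapDomainAlgHom ℂ ℂ (AddMonoidHom.id (ℤ × ℤ) + AddMonoidHom.id (ℤ × ℤ))

theorem dbl_apply (f : R) : dbl f = AddMonoidAlgebra.mapDomain (fun m => m + m) f := rfl

theorem dbl_injective : Function.Injective dbl :=
  AddMonoidAlgebra.mapDomain_injective (f := fun m : ℤ × ℤ => m + m) fun a b h => by
    simp only [Prod.ext_iff, Prod.fst_add, Prod.snd_add] at h ⊢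
    omega

theorem dbl_supp {f : R} {m : ℤ × ℤ} (h : m ∈ (dbl f).coeff.support) :
    ∃ n ∈ f.coeff.support, n + n = m :=
  Finset.mem_image.1 (Finsupp.mapDomain_support h)

theorem ZR.dbl {i : Fin 2} {s s' : ℤ} {f : R} (hf : ZR i s f) (h : s' = 2 * s) :
    ZR i s' (dbl f) := fun m hm => by
  obtain ⟨n, hn, rfl⟩ := dbl_supp hm
  have := hf n hn
  split_ifs at this ⊢ <;> simp only [Prod.fst_add] <;> omega

theorem WR.dbl {i : Fin 2} {s s' : ℤ} {f : R} (hf : WR i s f) (h : s' = 2 * s) :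
    WR i s' (dbl f) := fun m hm => by
  obtain ⟨n, hn, rfl⟩ := dbl_supp hm
  have := hf n hn
  split_ifs at this ⊢ <;> simp only [Prod.snd_add] <;> omega

theorem hev_dbl {s t s' t' : ℤ} (hs : s' = 2 * s) (ht : t' = 2 * t) (f : R) (z w : V) :
    hev s' t' (dbl f) z w = hev s t f (sqv z) (sqv w) := by
  subst hs ht
  induction f using AddMonoidAlgebra.induction_linear with
  | zero => simp [hev_zero]
  | add f g hf hg => rw [map_add, hev_add, hev_add, hf, hg]
  | single m c =>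
    have h : ∀ (x : ℂ) (n : ℤ), (x ^ 2) ^ n = x ^ (2 * n) := fun x n => by
      rw [zpow_mul, zpow_ofNat]
    rw [dbl_apply, AddMonoidAlgebra.mapDomain_single, hev_single, hev_single]
    rw [Prod.fst_add, Prod.snd_add]
    simp only [sqv, h, ← two_mul, mul_sub]

/-- Take the `k`-th power of the gluing and pull back by the squaring map. -/
theorem Core.double {p a : ℕ} (K : Core p a) (k : ℕ) : ∃ K' : Core (2 * p) (2 * (a * k)),
    (∀ z w, hev (2 * p : ℕ) (2 * p : ℕ) K'.σ z w = hev p p K.σ (sqv z) (sqv w)) ∧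
    (∀ i z w, z i ≠ 0 → hev (-((2 * (a * k) : ℕ) : ℤ)) (2 * (a * k) : ℕ) (K'.θ i) z w =
      hev (-(a : ℤ)) a (K.θ i) (sqv z) (sqv w) ^ k) ∧
    (∀ j z w, w j ≠ 0 → hev (2 * (a * k) : ℕ) (-((2 * (a * k) : ℕ) : ℤ)) (K'.θ' j) z w =
      hev a (-(a : ℤ)) (K.θ' j) (sqv z) (sqv w) ^ k) := by
  have hz : ∀ i j, ZR i 0 (∑ l ∈ Finset.range k, (K.θ i * K.θ' j) ^ l) := fun i j =>
    ZR.sum _ fun l _ => (((K.θ_z i).mul (K.θ'_z i j)).pow l).of_eq (by ring)
  have hw : ∀ i j, WR j 0 (∑ l ∈ Finset.range k, (K.θ i * K.θ' j) ^ l) := fun i j =>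
    WR.sum _ fun l _ => (((K.θ_w i j).mul (K.θ'_w j)).pow l).of_eq (by ring)
  refine ⟨⟨dbl K.σ, fun i => dbl (K.θ i ^ k), fun j => dbl (K.θ' j ^ k),
    fun i j => dbl (K.r i j * ∑ l ∈ Finset.range k, (K.θ i * K.θ' j) ^ l),
    fun h => K.σ_ne (dbl_injective (h.trans (map_zero _).symm)),
    fun i => (K.σ_z i).dbl (by push_cast; ring), fun j => (K.σ_w j).dbl (by push_cast; ring),
    fun i => ((K.θ_z i).pow k).dbl (by push_cast; ring),
    fun i j => ((K.θ_w i j).pow k).dbl (by push_cast; ring),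
    fun i j => ((K.θ'_z i j).pow k).dbl (by push_cast; ring),
    fun j => ((K.θ'_w j).pow k).dbl (by push_cast; ring),
    fun i j => ((K.r_z i j).mul (hz i j)).dbl (by push_cast; ring),
    fun i j => ((K.r_w i j).mul (hw i j)).dbl (by push_cast; ring), fun i j => ?_⟩,
    fun z w => hev_dbl (by push_cast; ring) (by push_cast; ring) _ z w,
    fun i z w h => ?_, fun j z w h => ?_⟩
  · rw [← map_mul, ← map_mul, ← map_one dbl, ← map_sub, ← mul_pow, ← mul_assoc, ← K.eq,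
      mul_geom_sum]
  · rw [← hev_pow (K.good_θ i _ (pow_ne_zero 2 h))]
    exact hev_dbl (by push_cast; ring) (by push_cast; ring) _ z w
  · rw [← hev_pow (K.good_θ' j _ (pow_ne_zero 2 h))]
    exact hev_dbl (by push_cast; ring) (by push_cast; ring) _ z w

end Vale.Agent.P296
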