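import Vale.Agent.P296.Api

namespace Vale.Agent.P296

open scoped Matrix

namespace Unif

open Filter Topology

theorem sqv_smul (c : ℂ) (z : V) : sqv (c • z) = c ^ 2 • sqv z := by
  funext k
  simp [sqv, mul_pow]

theorem e2_smul (c : ℂ) (z : V) : e2 (c • z) = ‖c‖ ^ 2 * e2 z := by
  simp only [e2, Pi.smul_apply, norm_smul]
  ring

theorem cross_smul (a b : ℂ) (x y : V) : cross (a • x) (b • y) = a * b * cross x y := by
  simp only [cross, Pi.smul_apply, smul_eq_mul]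
  ring

theorem e2_nonneg (z : V) : 0 ≤ e2 z := by
  unfold e2
  positivity

theorem e2_pos {z : V} (h : z ≠ 0) : 0 < e2 z := by
  refine (e2_nonneg z).lt_of_ne fun h0 => h ?_
  unfold e2 at h0
  have h1 : ‖z 0‖ ^ 2 = 0 := by nlinarith [sq_nonneg ‖z 0‖, sq_nonneg ‖z 1‖]
  have h2 : ‖z 1‖ ^ 2 = 0 := by nlinarith [sq_nonneg ‖z 0‖, sq_nonneg ‖z 1‖]
  funext k
  fin_cases k
  · simpa using h1
  · simpa using h2

theorem sqv_ne {z : V} (h : z ≠ 0) : sqv z ≠ 0 := fun h0 =>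
  h (funext fun k => by simpa [sqv] using congrFun h0 k)

theorem norm_sqv (z : V) : ‖sqv z‖ ≤ ‖z‖ ^ 2 :=
  (pi_norm_le_iff_of_nonneg (by positivity)).2 fun k => by
    rw [sqv, norm_pow]
    exact pow_le_pow_left₀ (norm_nonneg _) (norm_le_pi_norm z k) 2

theorem norm_cross (x y : V) : ‖cross x y‖ ≤ 2 * (‖x‖ * ‖y‖) := by
  have h : ∀ a b, ‖x a * y b‖ ≤ ‖x‖ * ‖y‖ := fun a b => by
    rw [norm_mul]
    exact mul_le_mul (norm_le_pi_norm x a) (norm_le_pi_norm y b) (norm_nonneg _) (norm_nonneg _)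
  refine (norm_sub_le _ _).trans ?_
  linarith [h 0 1, h 1 0]

theorem exists_smul {x y : V} (hy : y ≠ 0) (h : cross x y = 0) : ∃ c : ℂ, x = c • y := by
  unfold cross at h
  by_cases h0 : y 0 = 0
  · have h1 : y 1 ≠ 0 := fun h1 => hy (funext fun k => by fin_cases k <;> assumption)
    refine ⟨x 1 / y 1, funext fun k => ?_⟩
    fin_cases k
    · simpa [h0, h1] using h
    · simp [h1]
  · refine ⟨x 0 / y 0, funext fun k => ?_⟩
    fin_cases k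
    · simp [h0]
    · simp only [Fin.mk_one, Pi.smul_apply, smul_eq_mul]
      field_simp
      linear_combination -h

theorem exists_unit {z : V} (h : z ≠ 0) : ∃ u ∈ Metric.sphere (0 : V) 1, ∃ a : ℝ, 0 < a ∧
    z = (a : ℂ) • u := by
  have h1 := norm_pos_iff.2 h
  refine ⟨((‖z‖⁻¹ : ℝ) : ℂ) • z, by simp [norm_smul, h1.ne'], ‖z‖, h1, ?_⟩
  rw [smul_smul, ← Complex.ofReal_mul, mul_inv_cancel₀ h1.ne', Complex.ofReal_one, one_smul]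

@[fun_prop]
theorem continuous_sqv : Continuous sqv := continuous_pi fun k => by unfold sqv; fun_prop

@[fun_prop]
theorem continuous_e2 : Continuous e2 := by unfold e2; fun_prop

theorem on_sphere (N : Fin 4 → Matrix (Fin 2) (Fin 2) ℂ) (hdet : ∀ l, (N l).det ≠ 0) {κ : ℝ}
    (hκ0 : 0 ≤ κ) (hκ : κ < 1) (cov : ∀ W, ∃ l, e2 ((N l)⁻¹ *ᵥ W) ≤ κ * e2 W)
    (th : Fin 2 → V → V → ℂ) (hth : ∀ i, HH (fun z _ => z i ≠ 0) (-16) 16 (th i))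
    (hval : ∀ i l Z (c : ℂ), c ≠ 0 → Z i ≠ 0 → th i Z (c • N l *ᵥ Z) = c ^ 16) :
    ∀ᶠ δ : ℝ in 𝓝 0, ∀ w ∈ Metric.sphere (0 : V) 1, ∃ i l, ∀ z ∈ Metric.sphere (0 : V) 1,
      ‖cross (sqv w) (N l *ᵥ sqv z)‖ ≤ δ → 1 / 2 ≤ ‖z i‖ ∧
        ‖th i (sqv z) (sqv w)‖ * e2 (sqv z) ^ 8 ≤ (1 + κ ^ 8) / 2 * e2 (sqv w) ^ 8 := by
  refine (isCompact_sphere _ _).eventually_forall_of_forall_eventually fun w₀ hw₀ => ?_
  have hw : w₀ ≠ 0 := ne_zero_of_mem_unit_sphere ⟨w₀, hw₀⟩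
  obtain ⟨l, hl⟩ := cov (sqv w₀)
  obtain ⟨i, hi⟩ := Finite.exists_max fun k => ‖((N l)⁻¹ *ᵥ sqv w₀) k‖
  refine Eventually.mono ?_ fun p hp => ⟨i, l, hp⟩
  refine (isCompact_sphere _ _).eventually_forall_of_forall_eventually
    (P := fun (p : ℝ × V) z => ‖cross (sqv p.2) (N l *ᵥ sqv z)‖ ≤ p.1 → 1 / 2 ≤ ‖z i‖ ∧
      ‖th i (sqv z) (sqv p.2)‖ * e2 (sqv z) ^ 8 ≤ (1 + κ ^ 8) / 2 * e2 (sqv p.2) ^ 8)
    fun z₀ hz₀ => ?_
  have hz : z₀ ≠ 0 := ne_zero_of_mem_unit_sphere ⟨z₀, hz₀⟩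
  have hu : IsUnit (N l).det := (hdet l).isUnit
  by_cases h0 : cross (sqv w₀) (N l *ᵥ sqv z₀) = 0
  · have h1 : N l *ᵥ sqv z₀ ≠ 0 := fun h => sqv_ne hz (Matrix.eq_zero_of_mulVec_eq_zero (hdet l) h)
    obtain ⟨c, hc⟩ := exists_smul h1 h0
    have hc0 : c ≠ 0 := fun h => sqv_ne hw (by rw [hc, h, zero_smul])
    have h2 : (N l)⁻¹ *ᵥ sqv w₀ = c • sqv z₀ := by
      rw [hc, Matrix.mulVec_smul, Matrix.mulVec_mulVec, Matrix.nonsing_inv_mul _ hu,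
        Matrix.one_mulVec]
    rw [h2] at hl hi
    have h3 : 1 ≤ ‖z₀ i‖ := by
      rw [← mem_sphere_zero_iff_norm.1 hz₀]
      refine (pi_norm_le_iff_of_nonneg (norm_nonneg _)).2 fun k => ?_
      have := hi k
      simp only [Pi.smul_apply, norm_smul, sqv, norm_pow] at this
      exact (pow_le_pow_iff_left₀ (norm_nonneg _) (norm_nonneg _) two_ne_zero).1
        (le_of_mul_le_mul_left this (norm_pos_iff.2 hc0))
    have h4 : sqv z₀ i ≠ 0 := pow_ne_zero 2 (norm_pos_iff.1 (by linarith))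
    have h5 : ‖th i (sqv z₀) (sqv w₀)‖ * e2 (sqv z₀) ^ 8 <
        (1 + κ ^ 8) / 2 * e2 (sqv w₀) ^ 8 := by
      have a1 : th i (sqv z₀) (sqv w₀) = c ^ 16 := by rw [hc]; exact hval i l _ c hc0 h4
      have a2 := pow_le_pow_left₀ (e2_nonneg _) hl 8
      have a3 : κ ^ 8 < 1 := pow_lt_one₀ hκ0 hκ (by norm_num)
      have a4 := pow_pos (e2_pos (sqv_ne hw)) 8
      rw [e2_smul, mul_pow, mul_pow, ← pow_mul] at a2
      rw [a1, norm_pow]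
      refine a2.trans_lt (mul_lt_mul_of_pos_right (by linarith) a4)
    have c1 : ContinuousAt (fun q : (ℝ × V) × V => th i (sqv q.2) (sqv q.1.2)) ((0, w₀), z₀) :=
      ContinuousAt.comp (g := fun q : V × V => th i q.1 q.2)
        (f := fun q : (ℝ × V) × V => (sqv q.2, sqv q.1.2))
        ((hth i).diff _ _ h4).continuousAt (by fun_prop)
    have e1 : ∀ᶠ q : (ℝ × V) × V in 𝓝 ((0, w₀), z₀), 1 / 2 < ‖q.2 i‖ :=
      ContinuousAt.eventually_lt continuousAt_const (by fun_prop) (by linarith)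
    have c2 : Continuous fun q : (ℝ × V) × V => e2 (sqv q.2) ^ 8 :=
      (continuous_e2.comp (continuous_sqv.comp continuous_snd)).pow 8
    have c3 : Continuous fun q : (ℝ × V) × V => (1 + κ ^ 8) / 2 * e2 (sqv q.1.2) ^ 8 :=
      continuous_const.fun_mul
        ((continuous_e2.comp (continuous_sqv.comp continuous_fst.snd)).pow 8)
    have e3 := (c1.norm.fun_mul c2.continuousAt).eventually_lt c3.continuousAt h5
    filter_upwards [e1, e3] with q a b _ using ⟨a.le, b.le⟩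
  · have c1 : Continuous fun q : (ℝ × V) × V => ‖cross (sqv q.1.2) (N l *ᵥ sqv q.2)‖ := by
      simp only [cross, sqv, Matrix.mulVec, dotProduct, Fin.sum_univ_two]
      fun_prop
    have e := (continuous_fst.fst.continuousAt (x := (((0 : ℝ), w₀), z₀))).eventually_lt
      c1.continuousAt (norm_pos_iff.2 h0)
    filter_upwards [e] with q a b using absurd b a.not_ge

end Unif

theorem uniform (N : Fin 4 → Matrix (Fin 2) (Fin 2) ℂ) (hdet : ∀ l, (N l).det ≠ 0) {κ : ℝ}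
    (hκ0 : 0 ≤ κ) (hκ : κ < 1) (cov : ∀ W, ∃ l, e2 ((N l)⁻¹ *ᵥ W) ≤ κ * e2 W)
    (th : Fin 2 → V → V → ℂ) (hth : ∀ i, HH (fun z _ => z i ≠ 0) (-16) 16 (th i))
    (hval : ∀ i l Z (c : ℂ), c ≠ 0 → Z i ≠ 0 → th i Z (c • N l *ᵥ Z) = c ^ 16) :
    ∃ δ₀ c₀ C₀ κ' : ℝ, 0 < δ₀ ∧ 0 < c₀ ∧ 0 < C₀ ∧ 0 ≤ κ' ∧ κ' < 1 ∧ ∀ w : V, w ≠ 0 → ∃ i l,
      (∀ z : V, ‖cross (sqv w) (N l *ᵥ sqv z)‖ ≤ C₀ * ‖w‖ ^ 2 * ‖z‖ ^ 2) ∧
      ∀ z : V, z ≠ 0 → ‖cross (sqv w) (N l *ᵥ sqv z)‖ ≤ δ₀ * ‖w‖ ^ 2 * ‖z‖ ^ 2 →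
        c₀ * ‖z‖ ≤ ‖z i‖ ∧
          ‖th i (sqv z) (sqv w)‖ * e2 (sqv z) ^ 8 ≤ κ' * e2 (sqv w) ^ 8 := by
  obtain ⟨δ, h, hδ⟩ := (((Unif.on_sphere N hdet hκ0 hκ cov th hth hval).filter_mono
    (nhdsWithin_le_nhds (s := Set.Ioi 0))).and self_mem_nhdsWithin).exists
  let A : Fin 4 → V →L[ℂ] V := fun l => LinearMap.toContinuousLinearMap (N l).mulVecLin
  have hA : 0 ≤ ∑ l, ‖A l‖ := Finset.sum_nonneg fun _ _ => norm_nonneg _
  have a3 : κ ^ 8 < 1 := pow_lt_one₀ hκ0 hκ (by norm_num)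
  refine ⟨δ, 1 / 2, 2 * (∑ l, ‖A l‖) + 1, (1 + κ ^ 8) / 2, hδ, by norm_num, by positivity,
    by positivity, by linarith, fun w hw => ?_⟩
  obtain ⟨w, hw1, b, hb, rfl⟩ := Unif.exists_unit hw
  obtain ⟨i, l, H⟩ := h w hw1
  refine ⟨i, l, fun z => ?_, fun z hz hc => ?_⟩
  · generalize (b : ℂ) • w = w
    have h1 : ‖N l *ᵥ sqv z‖ ≤ ‖A l‖ * ‖sqv z‖ := (A l).le_opNorm (sqv z)
    have h2 : ‖A l‖ ≤ ∑ l, ‖A l‖ :=
      Finset.single_le_sum (f := fun l => ‖A l‖) (fun _ _ => norm_nonneg _) (Finset.mem_univ l)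
    calc _ ≤ 2 * (‖sqv w‖ * ‖N l *ᵥ sqv z‖) := Unif.norm_cross _ _
      _ ≤ 2 * (‖w‖ ^ 2 * ((∑ l, ‖A l‖) * ‖z‖ ^ 2)) := by
        gcongr
        · exact Unif.norm_sqv w
        · exact h1.trans (by gcongr; exact Unif.norm_sqv z)
      _ ≤ _ := by nlinarith [mul_nonneg (sq_nonneg ‖w‖) (sq_nonneg ‖z‖)]
  · obtain ⟨z, hz1, a, ha, rfl⟩ := Unif.exists_unit hz
    have n1 := mem_sphere_zero_iff_norm.1 hz1
    have n2 := mem_sphere_zero_iff_norm.1 hw1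
    have ha' : (a : ℂ) ^ 2 ≠ 0 := pow_ne_zero _ (Complex.ofReal_ne_zero.2 ha.ne')
    have hb' : (b : ℂ) ^ 2 ≠ 0 := pow_ne_zero _ (Complex.ofReal_ne_zero.2 hb.ne')
    simp only [Unif.sqv_smul, Matrix.mulVec_smul, Unif.cross_smul, norm_smul, norm_mul, norm_pow,
      Complex.norm_real, Real.norm_of_nonneg ha.le, Real.norm_of_nonneg hb.le, n1, n2,
      Pi.smul_apply, Unif.e2_smul, (hth i).scal _ _ _ _ ha' hb', norm_zpow] at hc ⊢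
    obtain ⟨h1, h2⟩ := H z hz1 (le_of_mul_le_mul_left (a := b ^ 2 * a ^ 2) (by linarith)
      (by positivity))
    refine ⟨by nlinarith, ?_⟩
    calc _ = b ^ 32 * (‖th i (sqv z) (sqv w)‖ * e2 (sqv z) ^ 8) := by
          rw [zpow_neg, zpow_ofNat, zpow_ofNat]
          field_simp
      _ ≤ b ^ 32 * ((1 + κ ^ 8) / 2 * e2 (sqv w) ^ 8) := by gcongr
      _ = _ := by ring

end Vale.Agent.P296
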