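import Vale.Agent.P296.Tetra
import Vale.Agent.P296.BaseCore
import Vale.Agent.P296.Double
import Vale.Agent.P296.Uniform

namespace Vale.Agent.P296

open scoped Matrix

theorem ex_sqv_smul (l : ℂ) (z : V) : sqv (l • z) = l ^ 2 • sqv z := by
  funext k; simp [sqv, mul_pow]

theorem ex_cross_smul_right (x y : V) (c : ℂ) : cross x (c • y) = c * cross x y := by
  simp [cross]; ring

theorem ex_cross_smul_left (x y : V) (c : ℂ) : cross (c • x) y = c * cross x y := by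
  simp [cross]; ring

theorem ex_cross_inv {M : Matrix (Fin 2) (Fin 2) ℂ} (hM : M.det ≠ 0) (W Z : V) :
    cross W (M *ᵥ Z) = -M.det * cross Z (M⁻¹ *ᵥ W) := by
  have h : ∀ x y : V, cross (M *ᵥ x) (M *ᵥ y) = M.det * cross x y := fun x y => by
    simp [cross, Matrix.mulVec, dotProduct, Matrix.det_fin_two]; ring
  have h2 : W = M *ᵥ (M⁻¹ *ᵥ W) := by
    rw [Matrix.mulVec_mulVec, Matrix.mul_nonsing_inv _ hM.isUnit, Matrix.one_mulVec]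
  conv_lhs => rw [h2, h]
  simp [cross]; ring

theorem ex_diff (M : Matrix (Fin 2) (Fin 2) ℂ) (W : V) :
    Differentiable ℂ fun z : V => cross W (M *ᵥ sqv z) := by
  simp only [cross, Matrix.mulVec, dotProduct, Fin.sum_univ_two, sqv]
  fun_prop

theorem ex_e2_pos {z : V} (hz : z ≠ 0) : 0 < e2 (sqv z) := by
  obtain ⟨k, hk⟩ := Function.ne_iff.1 hz
  have := norm_pos_iff.2 hk
  fin_cases k <;> simp only [e2, sqv, norm_pow, Fin.zero_eta, Fin.mk_one] at this ⊢ <;> positivity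

/-- One half of the contraction property. -/
theorem ex_half (N : Fin 4 → Matrix (Fin 2) (Fin 2) ℂ) (c : ℂ) {δ₀ δ₁ c₀ c₁ C₀ C₁ κ ε : ℝ} {k : ℕ}
    (hδ : δ₀ ≤ δ₁) (hc : c₀ ≤ c₁) (hC : C₁ ≤ C₀) (hκ : 0 ≤ κ) (hε : κ ^ k ≤ ε)
    (sg : V → ℂ) (th th₀ : Fin 2 → V → ℂ) {w : V} (hw : w ≠ 0) (hc₁ : 0 < c₁)
    (hsg : ∀ z, sg z = c * ∏ l, cross (sqv w) (N l *ᵥ sqv z))
    (hth : ∀ i z, z i ≠ 0 → th i z = th₀ i z ^ k)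
    (h : ∃ i l, (∀ z : V, ‖cross (sqv w) (N l *ᵥ sqv z)‖ ≤ C₁ * ‖w‖ ^ 2 * ‖z‖ ^ 2) ∧
      ∀ z : V, z ≠ 0 → ‖cross (sqv w) (N l *ᵥ sqv z)‖ ≤ δ₁ * ‖w‖ ^ 2 * ‖z‖ ^ 2 →
        c₁ * ‖z‖ ≤ ‖z i‖ ∧ ‖th₀ i z‖ * e2 (sqv z) ^ 8 ≤ κ * e2 (sqv w) ^ 8) :
    ∃ (i : Fin 2) (δ σ' : V → ℂ), Differentiable ℂ δ ∧ Differentiable ℂ σ' ∧
    (∀ (l : ℂ) z, δ (l • z) = l ^ 2 * δ z) ∧
    (∀ (l : ℂ) z, l ≠ 0 → σ' (l • z) = l ^ (((8 : ℕ) : ℤ) - 2) * σ' z) ∧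
    (∀ z, sg z = δ z * σ' z) ∧ (∀ z, ‖δ z‖ ≤ C₀ * ‖z‖ ^ 2) ∧
    ∀ z, z ≠ 0 → ‖δ z‖ ≤ δ₀ * ‖z‖ ^ 2 → c₀ * ‖z‖ ≤ ‖z i‖ ∧
      ‖th i z‖ * e2 (sqv z) ^ (8 * k) ≤ ε * e2 (sqv w) ^ (8 * k) := by
  obtain ⟨i, l, h1, h2⟩ := h
  have nw : 0 < ‖w‖ ^ 2 := pow_pos (norm_pos_iff.2 hw) 2
  have hn : ((‖w‖ ^ 2 : ℝ) : ℂ) ≠ 0 := by exact_mod_cast nw.ne'
  have hnorm : ∀ z, ‖cross (sqv w) (N l *ᵥ sqv z) / ((‖w‖ ^ 2 : ℝ) : ℂ)‖ =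
      ‖cross (sqv w) (N l *ᵥ sqv z)‖ / ‖w‖ ^ 2 := fun z => by
    rw [norm_div, Complex.norm_real, Real.norm_of_nonneg nw.le]
  refine ⟨i, fun z => cross (sqv w) (N l *ᵥ sqv z) / ((‖w‖ ^ 2 : ℝ) : ℂ),
    fun z => ((‖w‖ ^ 2 : ℝ) : ℂ) * c * ∏ l' ∈ Finset.univ.erase l, cross (sqv w) (N l' *ᵥ sqv z),
    by simpa only [div_eq_mul_inv] using (ex_diff (N l) (sqv w)).mul_const _, ?_, fun x z => ?_, fun x z _ => ?_, fun z => ?_, fun z => ?_,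
    fun z hz hd => ?_⟩
  · refine Differentiable.const_mul (fun z => ?_) _
    exact (HasFDerivAt.finset_prod (fun l' _ => (ex_diff (N l') (sqv w) z).hasFDerivAt)).differentiableAt
  · simp only [ex_sqv_smul, Matrix.mulVec_smul, ex_cross_smul_right]; ring
  · simp only [ex_sqv_smul, Matrix.mulVec_smul, ex_cross_smul_right, Finset.prod_mul_distrib,
      Finset.prod_const, Finset.card_erase_of_mem (Finset.mem_univ l), Finset.card_univ,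
      Fintype.card_fin]
    rw [show (((8 : ℕ) : ℤ) - 2) = (6 : ℕ) by norm_num, zpow_natCast]; ring
  · rw [hsg, ← Finset.mul_prod_erase _ _ (Finset.mem_univ l)]
    field_simp
  · rw [hnorm, div_le_iff₀ nw]
    refine (h1 z).trans ?_
    calc C₁ * ‖w‖ ^ 2 * ‖z‖ ^ 2 ≤ C₀ * ‖w‖ ^ 2 * ‖z‖ ^ 2 := by gcongr
      _ = _ := by ring
  · rw [hnorm, div_le_iff₀ nw] at hd
    obtain ⟨h3, h4⟩ := h2 z hz (hd.trans (by
      calc δ₀ * ‖z‖ ^ 2 * ‖w‖ ^ 2 ≤ δ₁ * ‖z‖ ^ 2 * ‖w‖ ^ 2 := by gcongr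
        _ = _ := by ring))
    have hi : z i ≠ 0 := norm_pos_iff.1 ((mul_pos hc₁ (norm_pos_iff.2 hz)).trans_le h3)
    refine ⟨le_trans (by gcongr) h3, ?_⟩
    have e1 := (ex_e2_pos hz).le
    have e2' := (ex_e2_pos hw).le
    rw [hth i z hi, norm_pow, pow_mul, pow_mul, ← mul_pow]
    calc (‖th₀ i z‖ * e2 (sqv z) ^ 8) ^ k ≤ (κ * e2 (sqv w) ^ 8) ^ k := by gcongr
      _ = κ ^ k * (e2 (sqv w) ^ 8) ^ k := mul_pow _ _ _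
      _ ≤ _ := by gcongr

theorem exists_core : ∃ δ₀ c₀ C₀ : ℝ, 0 < δ₀ ∧ 0 < c₀ ∧ 0 < C₀ ∧ ∀ ε : ℝ, 0 < ε →
    ∃ (a : ℕ) (K : Core 8 a) (D : FData 8 a), 64 ≤ a ∧ K.Gives D ∧
      Nonempty (Contr D δ₀ c₀ C₀ ε) := by
  obtain ⟨N, κ, hκ0, hκ1, hN, hN', cov1, cov2⟩ := tetra
  obtain ⟨K, hK⟩ := exists_base hN hN'
  have hinv : ∀ l, (N l)⁻¹⁻¹ = N l := fun l => Matrix.nonsing_inv_nonsing_inv _ (hN.det_ne l).isUnit
  obtain ⟨δ₁, c₁, C₁, κ₁, hδ₁, hc₁, hC₁, hκ₁, hκ₁', H₁⟩ := uniform N hN.det_ne hκ0 hκ1 cov2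
    (fun i => hev (-16) 16 (K.θ i)) (fun i => hh_hev fun z w h => K.good_θ i w h) hK.θ
  obtain ⟨δ₂, c₂, C₂, κ₂, hδ₂, hc₂, hC₂, hκ₂, hκ₂', H₂⟩ := uniform (fun l => (N l)⁻¹) hN'.det_ne
    hκ0 hκ1 (by simpa only [hinv] using cov1) (fun j W Z => hev 16 (-16) (K.θ' j) Z W)
    (fun j => ⟨fun W Z h => DifferentiableAt.comp (W, Z) (f := fun q : V × V => (q.2, q.1))
        (g := fun q : V × V => hev 16 (-16) (K.θ' j) q.1 q.2)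
        (K.good_θ' j Z h).differentiableAt (by fun_prop),
      fun l m W Z hl hm => by rw [hev_scal _ _ _ _ _ _ _ hm hl]; ring⟩) hK.θ'
  refine ⟨min δ₁ δ₂, min c₁ c₂, max C₁ C₂, lt_min hδ₁ hδ₂, lt_min hc₁ hc₂, lt_max_of_lt_left hC₁,
    fun ε hε => ?_⟩
  obtain ⟨k, hk1, hk2, hk⟩ : ∃ k : ℕ, κ₁ ^ k ≤ ε ∧ κ₂ ^ k ≤ ε ∧ 2 ≤ k := by
    have t1 := (tendsto_pow_atTop_nhds_zero_of_lt_one hκ₁ hκ₁').eventually (ge_mem_nhds hε)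
    have t2 := (tendsto_pow_atTop_nhds_zero_of_lt_one hκ₂ hκ₂').eventually (ge_mem_nhds hε)
    exact (t1.and (t2.and (Filter.eventually_ge_atTop 2))).exists
  obtain ⟨K', hσ, hθ, hθ'⟩ := K.double k
  obtain ⟨D, hD⟩ := K'.exists_fdata
  refine ⟨2 * (16 * k), K', D, by omega, hD, ⟨⟨fun z => e2 (sqv z) ^ (8 * k), ?_,
    fun z hz => pow_pos (ex_e2_pos hz) _, fun l z => ?_, fun w hw => ?_, fun z hz => ?_⟩⟩⟩
  · unfold e2 sqv; fun_prop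
  · have : e2 (sqv (l • z)) = ‖l‖ ^ 4 * e2 (sqv z) := by
      simp only [e2, sqv, Pi.smul_apply, smul_eq_mul, norm_pow, norm_mul]; ring
    rw [this, mul_pow, ← pow_mul]; congr 2; ring
  · refine ex_half N 1 (min_le_left _ _) (min_le_left _ _) (le_max_left _ _) hκ₁ hk1 _
      (fun i z => D.th i z w) (fun i z => hev (-16) 16 (K.θ i) (sqv z) (sqv w)) hw hc₁
      (fun z => ?_) (fun i z hz => ?_) (H₁ w hw)
    · rw [hD.sg, hσ, one_mul]; exact hK.σ _ _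
    · rw [hD.th, hθ i z w hz]; rfl
  · refine ex_half (fun l => (N l)⁻¹) (∏ l, -(N l).det) (min_le_right _ _) (min_le_right _ _)
      (le_max_right _ _) hκ₂ hk2 _ (fun j w => D.th' j z w)
      (fun j w => hev 16 (-16) (K.θ' j) (sqv z) (sqv w)) hz hc₂ (fun w => ?_)
      (fun j w hw => ?_) (H₂ z hz)
    · rw [hD.sg, hσ, ← Finset.prod_mul_distrib]
      exact (hK.σ _ _).trans (Finset.prod_congr rfl fun l _ => ex_cross_inv (hN.det_ne l) _ _)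
    · rw [hD.th', hθ' j z w hw]; rfl

end Vale.Agent.P296
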