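import Vale.Agent.P296.Api

namespace Vale.Agent.P296

open scoped Matrix

theorem line_norm_unit {z : V} (hz : z ≠ 0) : ‖((‖z‖⁻¹ : ℝ) : ℂ) • z‖ = 1 := by
  rw [norm_smul, Complex.norm_real, norm_inv, norm_norm, inv_mul_cancel₀ (norm_ne_zero_iff.2 hz)]

theorem line_inv_ne {z : V} (hz : z ≠ 0) : ((‖z‖⁻¹ : ℝ) : ℂ) ≠ 0 :=
  Complex.ofReal_ne_zero.2 (inv_ne_zero (norm_ne_zero_iff.2 hz))

/-- The maximum principle on a piece of the projective line. -/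
theorem line_max (f g : V → ℝ) (B : ℝ) (hB : 0 ≤ B) (hg : Continuous g)
    (hgh : ∀ (l : ℂ) z, g (l • z) = ‖l‖ ^ 2 * g z)
    (hf : ContinuousOn f {z | ‖z‖ = 1 ∧ g z ≤ 0})
    (hfh : ∀ (l : ℂ) z, l ≠ 0 → z ≠ 0 → g z ≤ 0 → f (l • z) = f z)
    (hmax : ∀ z, ‖z‖ = 1 → g z < 0 → 0 < f z → ¬ IsLocalMax f z)
    (hb : ∀ z, ‖z‖ = 1 → g z = 0 → f z ≤ B) :
    ∀ z, ‖z‖ = 1 → g z ≤ 0 → f z ≤ B := by
  intro z₁ h1 h2
  by_contra hlt
  push Not at hlt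
  have hK : IsCompact {z : V | ‖z‖ = 1 ∧ g z ≤ 0} := by
    have : {z : V | ‖z‖ = 1 ∧ g z ≤ 0} = Metric.sphere 0 1 ∩ {z | g z ≤ 0} := by
      ext z; simp
    rw [this]
    exact (isCompact_sphere 0 1).inter_right (isClosed_le hg continuous_const)
  obtain ⟨z₀, ⟨h3, h4⟩, h5⟩ := hK.exists_isMaxOn ⟨z₁, h1, h2⟩ hf
  have h6 : f z₁ ≤ f z₀ := h5 (show z₁ ∈ {z : V | ‖z‖ = 1 ∧ g z ≤ 0} from ⟨h1, h2⟩)
  have h7 : g z₀ < 0 := lt_of_le_of_ne h4 fun h => by linarith [hb z₀ h3 h]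
  refine hmax z₀ h3 h7 (by linarith) ?_
  have hz₀ : z₀ ≠ 0 := by rintro rfl; simp at h3
  have e1 : ∀ᶠ z in nhds z₀, z ≠ 0 := isOpen_ne.mem_nhds hz₀
  have e2 : ∀ᶠ z in nhds z₀, g z < 0 := (isOpen_lt hg continuous_const).mem_nhds h7
  filter_upwards [e1, e2] with z hz hgz
  rw [← hfh _ z (line_inv_ne hz) hz hgz.le]
  refine h5 (show _ ∈ {z : V | ‖z‖ = 1 ∧ g z ≤ 0} from ⟨line_norm_unit hz, ?_⟩)
  rw [hgh]
  exact mul_nonpos_of_nonneg_of_nonpos (by positivity) hgz.le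

theorem line_lemma {δ₀ c₀ C₀ : ℝ} (hδ : 0 < δ₀) (hc : 0 < c₀) (hC : 0 < C₀) :
    ∃ C : ℝ, 0 < C ∧ LineProp δ₀ c₀ C₀ C := by
  obtain ⟨ε, hε, hε1, hε2, hε3⟩ : ∃ ε : ℝ, 0 < ε ∧ ε ≤ δ₀ ∧ ε ≤ c₀ * δ₀ / 2 ∧
      C₀ * ε ≤ (c₀ * δ₀ / 2) ^ 2 := by
    refine ⟨min δ₀ (min (c₀ * δ₀ / 2) ((c₀ * δ₀ / 2) ^ 2 / C₀)), by positivity, min_le_left _ _,
      (min_le_right _ _).trans (min_le_left _ _), ?_⟩
    rw [mul_comm, ← le_div_iff₀ hC]
    exact (min_le_right _ _).trans (min_le_right _ _)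
  set r := √(C₀ / ε) with hr
  have hr0 : 0 ≤ r := Real.sqrt_nonneg _
  have hr2 : r ^ 2 * ε = C₀ := by rw [hr, Real.sq_sqrt (by positivity)]; field_simp
  have hrε : r * ε ≤ c₀ * δ₀ / 2 := by
    refine (pow_le_pow_iff_left₀ (by positivity) (by positivity) two_ne_zero).1 ?_
    calc (r * ε) ^ 2 = r ^ 2 * ε * ε := by ring
      _ = C₀ * ε := by rw [hr2]
      _ ≤ _ := hε3
  refine ⟨2 * r + 3, by positivity, ?_⟩
  intro i n₁ e δ S hS hn hn0 hnh hδc hδh hδC he he0 heh hin hemax hnmax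
  have hne : ∀ z : V, ‖z‖ = 1 → z ≠ 0 := fun z h => by rintro rfl; simp at h
  obtain ⟨zs, hzs, hM⟩ := (isCompact_sphere (0 : V) 1).exists_isMaxOn
    ⟨fun _ => 1, by simp⟩ (hn.mono fun z hz => hne z (by simpa using hz))
  have hzs' : ‖zs‖ = 1 := by simpa using hzs
  set M := n₁ zs with hMdef
  have hM' : ∀ z : V, ‖z‖ = 1 → n₁ z ≤ M := fun z hz => hM (by simpa using hz)
  have hM0 : 0 ≤ M := hn0 _ (hne _ hzs')
  have hcd : 0 < c₀ * δ₀ := by positivity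
  have hzi : ∀ z : V, z ≠ 0 → ‖δ z‖ ≤ δ₀ * ‖z‖ ^ 2 → z i ≠ 0 := fun z hz h h0 => by
    have h1 := (hin z hz h).1
    rw [h0, norm_zero] at h1
    have : 0 < c₀ * ‖z‖ := mul_pos hc (norm_pos_iff.2 hz)
    linarith
  have step1 : ∀ z : V, ‖z‖ = 1 → ‖δ z‖ - δ₀ * ‖z‖ ^ 2 ≤ 0 → e z ≤ (M + S) / δ₀ := by
    refine line_max e (fun z => ‖δ z‖ - δ₀ * ‖z‖ ^ 2) _ (by positivity) (by fun_prop)
      (fun l z => ?_) (he.mono fun z hz => hzi z (hne z hz.1) (by linarith [hz.2]))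
      (fun l z hl hz h => heh l z hl (hzi z hz (by linarith)))
      (fun z hz h h0 => hemax z (hzi z (hne z hz) (by linarith)) h0) (fun z hz h => ?_)
    · rw [hδh, norm_mul, norm_pow, norm_smul]; ring
    · obtain ⟨-, -, h3⟩ := hin z (hne z hz) (by linarith)
      have h4 : ‖z i‖ ≤ 1 := hz ▸ norm_le_pi_norm z i
      have h5 : ‖δ z‖ = δ₀ := by rw [hz] at h; linarith
      rw [h5, hz] at h3
      rw [le_div_iff₀ hδ]
      have h6 := hM' z hz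
      have h7 := hn0 z (hne z hz)
      have h8 : (n₁ z + S * 1) * ‖z i‖ ≤ (n₁ z + S * 1) * 1 :=
        mul_le_mul_of_nonneg_left h4 (by positivity)
      linarith
  have step2 : ∀ z : V, ‖z‖ = 1 → ‖δ z‖ ≤ ε → n₁ z ≤ S + ε * (M + S) / (c₀ * δ₀) := by
    intro z hz h
    have h0 : ‖δ z‖ ≤ δ₀ * ‖z‖ ^ 2 := by rw [hz]; linarith
    obtain ⟨h1, h2, -⟩ := hin z (hne z hz) h0
    have h3 := step1 z hz (by linarith)
    have h4 := he0 z (hzi z (hne z hz) h0)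
    rw [hz] at h1 h2
    have h5 : ‖δ z‖ * e z ≤ ε * ((M + S) / δ₀) := mul_le_mul h h3 h4 hε.le
    have h6 : 0 < ‖z i‖ := by linarith
    have h7 : ε * ((M + S) / δ₀) ≤ ε * (M + S) / (c₀ * δ₀) * ‖z i‖ := by
      have : ε * ((M + S) / δ₀) = ε * (M + S) / (c₀ * δ₀) * (c₀ * 1) := by field_simp
      rw [this]
      exact mul_le_mul_of_nonneg_left h1 (by positivity)
    refine le_of_mul_le_mul_right ?_ h6
    linarith
  set b := S + ε * (M + S) / (c₀ * δ₀) with hb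
  have hb0 : 0 ≤ b := by positivity
  have hδne : ∀ z : V, z ≠ 0 → ε * ‖z‖ ^ 2 - ‖δ z‖ ≤ 0 → δ z ≠ 0 := fun z hz h h0 => by
    rw [h0, norm_zero] at h
    have : 0 < ε * ‖z‖ ^ 2 := mul_pos hε (pow_pos (norm_pos_iff.2 hz) 2)
    linarith
  have step3 : ∀ z : V, ‖z‖ = 1 → ε * ‖z‖ ^ 2 - ‖δ z‖ ≤ 0 → n₁ z ^ 2 / ‖δ z‖ ≤ b ^ 2 / ε := by
    refine line_max (fun z => n₁ z ^ 2 / ‖δ z‖) (fun z => ε * ‖z‖ ^ 2 - ‖δ z‖) _ (by positivity)
      (by fun_prop) (fun l z => ?_) ?_ (fun l z hl hz h => ?_) (fun z hz h h0 => ?_)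
      (fun z hz h => ?_)
    · rw [hδh, norm_mul, norm_pow, norm_smul]; ring
    · refine ((hn.mono fun z hz => hne z hz.1).pow 2).div hδc.norm.continuousOn fun z hz => ?_
      exact norm_ne_zero_iff.2 (hδne z (hne z hz.1) hz.2)
    · have hl' : ‖l‖ ≠ 0 := norm_ne_zero_iff.2 hl
      have hd : ‖δ z‖ ≠ 0 := norm_ne_zero_iff.2 (hδne z hz h)
      beta_reduce
      rw [hnh l z hl hz, hδh, norm_mul, norm_pow]
      field_simp
    · refine hnmax z (hne z hz) (hδne z (hne z hz) h.le) ?_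
      refine lt_of_le_of_ne (hn0 z (hne z hz)) fun h1 => ?_
      simp [← h1] at h0
    · have h5 : ‖δ z‖ = ε := by rw [hz] at h; linarith
      have h6 := step2 z hz h5.le
      beta_reduce
      rw [h5]
      exact div_le_div_of_nonneg_right (pow_le_pow_left₀ (hn0 z (hne z hz)) h6 2) hε.le
  have hfin : M ≤ (r + 1) * S + (M + S) / 2 := by
    have hA : ε * (M + S) / (c₀ * δ₀) ≤ (M + S) / 2 := by
      rw [div_le_div_iff₀ hcd two_pos]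
      nlinarith
    have hB : r * (ε * (M + S) / (c₀ * δ₀)) ≤ (M + S) / 2 := by
      rw [← mul_div_assoc, div_le_div_iff₀ hcd two_pos]
      nlinarith
    have hrS : 0 ≤ r * S := by positivity
    rcases le_total ‖δ zs‖ ε with h | h
    · have := step2 zs hzs' h
      linarith
    · have h1 := step3 zs hzs' (by rw [hzs']; linarith)
      have h2 := hδC zs
      rw [hzs'] at h2
      have h3 : 0 < ‖δ zs‖ := by linarith
      rw [div_le_div_iff₀ h3 hε] at h1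
      have h4 : M ^ 2 ≤ (r * b) ^ 2 := by
        refine le_of_mul_le_mul_right ?_ hε
        have h5 : b ^ 2 * ‖δ zs‖ ≤ b ^ 2 * (C₀ * 1 ^ 2) :=
          mul_le_mul_of_nonneg_left h2 (by positivity)
        calc M ^ 2 * ε ≤ b ^ 2 * (C₀ * 1 ^ 2) := h1.trans h5
          _ = (r * b) ^ 2 * ε := by rw [← hr2]; ring
      have h5 : M ≤ r * b := (pow_le_pow_iff_left₀ hM0 (by positivity) two_ne_zero).1 h4
      rw [hb, mul_add] at h5
      linarith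
  intro z hz
  have h1 := hM' _ (line_norm_unit hz)
  rw [hnh _ z (line_inv_ne hz) hz, Complex.norm_real, norm_inv, norm_norm,
    inv_mul_le_iff₀ (norm_pos_iff.2 hz)] at h1
  have h2 : M ≤ (2 * r + 3) * S := by linarith
  calc n₁ z ≤ ‖z‖ * M := h1
    _ ≤ ‖z‖ * ((2 * r + 3) * S) := mul_le_mul_of_nonneg_left h2 (norm_nonneg _)
    _ = _ := by ring

end Vale.Agent.P296
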