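import Vale.Agent.P296.NoMax
import Vale.Agent.P296.Pt

namespace Vale.Agent.P296

open scoped Matrix ComplexOrder ContDiff Topology

/-- The squared dual norm of a covector. -/
noncomputable def dq (H : Matrix (Fin 2) (Fin 2) ℂ) (φ : V) : ℝ := (φ ⬝ᵥ H⁻¹ *ᵥ star φ).re

theorem dq_eq {H : Matrix (Fin 2) (Fin 2) ℂ} (hH : H.PosDef) : ∃ (m : ℕ) (v : Fin m → V), ∀ φ,
    √(dq H φ) = ‖(WithLp.toLp 2 fun i => φ ⬝ᵥ v i : EuclideanSpace ℂ (Fin m))‖ := by
  obtain ⟨m, v, hv⟩ := Matrix.posSemidef_iff_eq_sum_vecMulVec.1 hH.inv.posSemidef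
  refine ⟨m, v, fun φ => ?_⟩
  rw [EuclideanSpace.norm_eq, dq, hv, Matrix.sum_mulVec, dotProduct_sum, Complex.re_sum]
  congr 1
  refine Finset.sum_congr rfl fun i _ => ?_
  rw [Matrix.vecMulVec_mulVec, star_dot_star, dotProduct_smul]
  change _ = ‖φ ⬝ᵥ v i‖ ^ 2
  generalize φ ⬝ᵥ v i = c
  simp [Complex.mul_conj, Complex.normSq_eq_norm_sq]
  norm_cast

theorem dq_pos {H : Matrix (Fin 2) (Fin 2) ℂ} (hH : H.PosDef) {φ : V} (h : φ ≠ 0) :
    0 < dq H φ := by
  have := hH.inv.dotProduct_mulVec_pos (x := star φ) (by simpa using h)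
  rw [star_star] at this
  exact (Complex.pos_iff.1 this).1

theorem dq_nonneg {H : Matrix (Fin 2) (Fin 2) ℂ} (hH : H.PosDef) (φ : V) : 0 ≤ dq H φ := by
  have := hH.inv.posSemidef.dotProduct_mulVec_nonneg (star φ)
  rw [star_star] at this
  exact (Complex.nonneg_iff.1 this).1

theorem dq_tri {H : Matrix (Fin 2) (Fin 2) ℂ} (hH : H.PosDef) (φ ψ : V) :
    √(dq H (φ + ψ)) ≤ √(dq H φ) + √(dq H ψ) := by
  obtain ⟨m, v, hv⟩ := dq_eq hH
  rw [hv, hv, hv]
  refine le_of_eq_of_le (congrArg norm ?_) (norm_add_le _ _)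
  ext i; simp

theorem dq_smul {H : Matrix (Fin 2) (Fin 2) ℂ} (hH : H.PosDef) (c : ℂ) (φ : V) :
    √(dq H (c • φ)) = ‖c‖ * √(dq H φ) := by
  obtain ⟨m, v, hv⟩ := dq_eq hH
  rw [hv, hv, ← norm_smul]
  congr 1
  ext i; simp

theorem dq_conj (H g g' : Matrix (Fin 2) (Fin 2) ℂ) (hH : H.PosDef) (hg : g * g' = 1) (φ : V) :
    dq (gᴴ * H * g) (φ ᵥ* g) = dq H φ := by
  have hu : IsUnit H.det := hH.det_pos.ne'.isUnit
  have h2 : g'ᴴ * gᴴ = 1 := by rw [← Matrix.conjTranspose_mul, hg, Matrix.conjTranspose_one]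
  have h3 : gᴴ * g'ᴴ = 1 := mul_eq_one_comm.1 h2
  have h1 : (gᴴ * H * g)⁻¹ = g' * H⁻¹ * g'ᴴ := by
    refine Matrix.inv_eq_right_inv ?_
    calc gᴴ * H * g * (g' * H⁻¹ * g'ᴴ) = gᴴ * (H * (g * g') * H⁻¹) * g'ᴴ := by
          simp only [Matrix.mul_assoc]
      _ = 1 := by rw [hg, Matrix.mul_one, Matrix.mul_nonsing_inv _ hu, Matrix.mul_one, h3]
  unfold dq
  rw [h1, Matrix.star_vecMul, Matrix.mulVec_mulVec, ← Matrix.dotProduct_mulVec,
    Matrix.mulVec_mulVec, Matrix.mul_assoc (g' * H⁻¹), h2, Matrix.mul_one, ← Matrix.mul_assoc, hg,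
    Matrix.one_mul]

variable {p a : ℕ} {D : FData p a} {E : Bundle 2}

/-- Chart coordinates of a homogeneous covector. -/
noncomputable def cov (p a : ℕ) (i j : Fin 2) (z w y : V) : V :=
  ![y 0 * (z i ^ ((a : ℤ) + 1) * w j), y 1 * (z i ^ (1 - (p : ℤ)) * w j ^ (1 + (a : ℤ) - p))]

/-- The dual norm computed in the chart `(i, j)`. -/
noncomputable def nc (p a : ℕ) (h : HMetric E) (i j : Fin 2) (z w y : V) : ℝ :=
  √(dq (h.H (i, j) (aff i z, aff j w)) (cov p a i j z w y))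

theorem nc_change (hE : Models D E) (h : HMetric E) {i i' j j' : Fin 2} {z w : V} (y : V)
    (hi : z i ≠ 0) (hi' : z i' ≠ 0) (hj : w j ≠ 0) (hj' : w j' ≠ 0) :
    nc p a h i j z w y = nc p a h i' j' z w ![y 0 + D.gm i i' z w * y 1, y 1] := by
  have hl : z i / z i' ≠ 0 := div_ne_zero hi hi'
  have hm : w j / w j' ≠ 0 := div_ne_zero hj hj'
  have e1 : hv i' (aff i' z) = (z i / z i') • hv i (aff i z) := by
    rw [hv_aff hi, hv_aff hi', smul_smul]; congr 1; field_simp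
  have e2 : hv j' (aff j' w) = (w j / w j') • hv j (aff j w) := by
    rw [hv_aff hj, hv_aff hj', smul_smul]; congr 1; field_simp
  have hp : pt (i, j) (aff i z, aff j w) = pt (i', j') (aff i' z, aff j' w) :=
    (pt_eq_iff _ _ _ _).2 ⟨_, _, hl, hm, e1, e2⟩
  have hg := E.cocycle (i, j) (i', j') (i, j) _ ⟨_, rfl⟩ ⟨_, hp.symm⟩ ⟨_, rfl⟩
  rw [E.refl _ _ ⟨_, rfl⟩] at hg
  unfold nc
  rw [h.glue _ _ _ _ hp, ← dq_conj _ _ _ (h.pos _ _) hg]
  congr 2
  rw [hE (i, j) (i', j') (aff i z, aff j w) (aff i' z, aff j' w) _ _ hl hm e1 e2]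
  simp only [hv_aff hi, hv_aff hj, D.gm_scal _ _ _ _ (inv_ne_zero hi) (inv_ne_zero hj)]
  funext k
  fin_cases k <;>
    simp only [cov, Matrix.vecMul, dotProduct, Fin.sum_univ_two, Matrix.of_apply, Matrix.cons_val',
      Matrix.cons_val_zero, Matrix.cons_val_one, Matrix.cons_val_fin_one, Fin.zero_eta,
      Fin.mk_one, div_zpow, inv_zpow, zpow_sub₀ hi, zpow_sub₀ hi', zpow_sub₀ hj, zpow_sub₀ hj',
      zpow_add₀ hi, zpow_add₀ hi', zpow_add₀ hj, zpow_add₀ hj', zpow_neg, zpow_natCast,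
      zpow_one] <;>
    field_simp
  ring

theorem nc_cont (h : HMetric E) {i j : Fin 2} {z w : V} (y : V) (hi : z i ≠ 0) (hj : w j ≠ 0) :
    ContinuousAt (fun q : V × V × V => nc p a h i j q.1 q.2.1 q.2.2) (z, w, y) := by
  have c1 : ContinuousAt (fun q : V × V × V => (aff i q.1, aff j q.2.1)) (z, w, y) := by
    have a1 : ∀ k, ContinuousAt (fun q : V × V × V => q.1 k) (z, w, y) := fun k => by fun_prop
    have a2 : ∀ k, ContinuousAt (fun q : V × V × V => q.2.1 k) (z, w, y) := fun k => by fun_prop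
    exact ((a1 _).div (a1 i) hi).prodMk ((a2 _).div (a2 j) hj)
  have c2 : ∀ b c, ContinuousAt
      (fun q : V × V × V => (h.H (i, j) (aff i q.1, aff j q.2.1))⁻¹ b c) (z, w, y) := fun b c =>
    ContinuousAt.comp (g := fun x => (h.H (i, j) x)⁻¹ b c)
      (contDiff_inv_entry (h.smooth _) (h.pos _) b c).continuous.continuousAt c1
  have c3 : ∀ n : ℤ, ContinuousAt (fun q : V × V × V => q.1 i ^ n) (z, w, y) := fun n =>
    ContinuousAt.zpow₀ (by fun_prop) n (.inl hi)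
  have c4 : ∀ n : ℤ, ContinuousAt (fun q : V × V × V => q.2.1 j ^ n) (z, w, y) := fun n =>
    ContinuousAt.zpow₀ (by fun_prop) n (.inl hj)
  simp only [nc, dq, cov, dotProduct, Matrix.mulVec, Fin.sum_univ_two, Pi.star_apply,
    Matrix.cons_val_zero, Matrix.cons_val_one]
  fun_prop

theorem cov_ne {i j : Fin 2} {z w y : V} (hi : z i ≠ 0) (hj : w j ≠ 0) (hy : y ≠ 0) :
    cov p a i j z w y ≠ 0 := fun h => hy (by
  have h0 := congrFun h 0
  have h1 := congrFun h 1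
  simp only [cov, Matrix.cons_val_zero, Matrix.cons_val_one, Pi.zero_apply, mul_eq_zero,
    zpow_ne_zero _ hi, zpow_ne_zero _ hj, hj, or_false] at h0 h1
  funext k; fin_cases k; exacts [h0, h1])

theorem cov_analytic (i j : Fin 2) (z w : V) {φ : ℂ → V} {t₀ : ℂ} (hφ : AnalyticAt ℂ φ t₀) :
    AnalyticAt ℂ (fun t => cov p a i j z w (φ t)) t₀ := by
  refine analyticAt_pi_iff.2 fun k => ?_
  fin_cases k
  · exact (analyticAt_pi_iff.1 hφ 0).mul analyticAt_const
  · exact (analyticAt_pi_iff.1 hφ 1).mul analyticAt_const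

theorem max_of_sqrt {f : ℂ → ℝ} {t₀ : ℂ} (hf : ∀ t, 0 ≤ f t)
    (h : IsLocalMax (fun t => √(f t)) t₀) : IsLocalMax f t₀ := by
  filter_upwards [h] with t ht
  exact (Real.sqrt_le_sqrt_iff (hf t₀)).1 ht

theorem exists_hnorm (hE : Models D E)
    (h : HMetric E) (hG : h.GriffithsPos) : Nonempty (HNorm D) := by
  let J : V → Fin 2 := fun w => if w 0 = 0 then 1 else 0
  have hJ : ∀ {w : V}, w ≠ 0 → w (J w) ≠ 0 := fun {w} hw => by
    simp only [J]
    split_ifs with h0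
    · exact fun h1 => hw (by funext k; fin_cases k; exacts [h0, h1])
    · exact h0
  have hc : ∀ {i j : Fin 2} {z w : V} (y : V), z i ≠ 0 → w j ≠ 0 →
      nc p a h i (J w) z w y = nc p a h i j z w y := fun {i j z w} y hi hj => by
    rw [nc_change hE h y hi hi (hJ fun h0 => hj (congrFun h0 j)) hj]
    congr 1
    funext k; fin_cases k <;> simp [FData.gm]
  refine ⟨⟨fun i z w y => nc p a h i (J w) z w y, fun i z w y hz hw => ?_,
    fun _ _ _ _ => Real.sqrt_nonneg _, fun i z w y hz hw hy => ?_, fun i z w y y' hz hw => ?_,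
    fun i z w y c hz hw => ?_, fun i z w y l μ hl hμ hz hw => ?_, fun z w y h0 h1 hw => ?_,
    fun i w φ t₀ hw hφ h0 hm => ?_, fun i j z φ t₀ hz hφ h0 hm => ?_⟩⟩
  · refine (nc_cont (p := p) (a := a) h y hz (hJ hw)).congr ?_
    have o1 : ∀ᶠ q : V × V × V in 𝓝 (z, w, y), q.1 i ≠ 0 :=
      ContinuousAt.eventually_ne (by fun_prop) hz
    have o2 : ∀ᶠ q : V × V × V in 𝓝 (z, w, y), q.2.1 (J w) ≠ 0 :=
      ContinuousAt.eventually_ne (by fun_prop) (hJ hw)
    filter_upwards [o1, o2] with q h1 h2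
    exact (hc _ h1 h2).symm
  · exact Real.sqrt_pos.2 (dq_pos (h.pos _ _) (cov_ne hz (hJ hw) hy))
  · refine le_of_eq_of_le ?_ (dq_tri (h.pos _ _) _ _)
    unfold nc
    congr 2
    funext k; fin_cases k <;> simp [cov, add_mul]
  · refine Eq.trans ?_ (dq_smul (h.pos _ _) c _)
    unfold nc
    congr 2
    funext k; fin_cases k <;> simp [cov, mul_assoc]
  · have hj := hJ hw
    rw [hc (j := J w) _ (by simpa using ⟨hl, hz⟩) (by simpa using ⟨hμ, hj⟩), ← norm_mul]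
    refine Eq.trans ?_ (dq_smul (h.pos _ _) _ _)
    unfold nc
    rw [aff_smul _ hl, aff_smul _ hμ]
    congr 2
    funext k
    fin_cases k <;>
      simp only [cov, Matrix.cons_val_zero, Matrix.cons_val_one, Fin.zero_eta, Fin.mk_one,
        Pi.smul_apply, smul_eq_mul, mul_zpow, zpow_sub₀ hl, zpow_sub₀ hμ, zpow_add₀ hl,
        zpow_add₀ hμ, zpow_neg, zpow_natCast, zpow_one] <;>
      field_simp
  · simpa [FData.gm] using nc_change hE h y h0 h1 (hJ hw) (hJ hw)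
  · refine no_local_max (h.H (i, J w)) (h.smooth _) (h.pos _) (0, aff (J w) w) (1, 0) t₀
      (fun v hv => hG _ _ _ v (by simp) hv) _ (cov_analytic (p := p) (a := a) i (J w) (hv i 0) w hφ)
      (cov_ne (by simp [hv_self]) (hJ hw) h0) (max_of_sqrt (fun t => dq_nonneg (h.pos _ _) _) ?_)
    have e : ∀ t, √(dq (h.H (i, J w) ((0, aff (J w) w) + t • ((1 : ℂ), (0 : ℂ))))
        (cov p a i (J w) (hv i 0) w (φ t))) = nc p a h i (J w) (hv i t) w (φ t) := fun t => by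
      simp [nc, aff_hv, cov, hv_self]
    simp only [← e] at hm
    exact hm
  · refine no_local_max (h.H (i, j)) (h.smooth _) (h.pos _) (aff i z, 0) (0, 1) t₀
      (fun v hv => hG _ _ _ v (by simp) hv) _ (cov_analytic (p := p) (a := a) i j z (hv j 0) hφ)
      (cov_ne hz (by simp [hv_self]) h0) (max_of_sqrt (fun t => dq_nonneg (h.pos _ _) _) ?_)
    have e : ∀ t, √(dq (h.H (i, j) ((aff i z, 0) + t • ((0 : ℂ), (1 : ℂ))))
        (cov p a i j z (hv j 0) (φ t))) = nc p a h i (J (hv j t)) z (hv j t) (φ t) := fun t => by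
      rw [hc (j := j) _ hz (by simp [hv_self])]
      simp [nc, aff_hv, cov, hv_self]
    simp only [← e] at hm
    exact hm

end Vale.Agent.P296
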