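import Vale.Agent.P296.RingB

namespace Vale.Agent.P296

open scoped Matrix

theorem dense_torus : Dense {w : V | w 0 ≠ 0 ∧ w 1 ≠ 0} := by
  have h : Dense (Set.pi Set.univ fun _ : Fin 2 => ({0}ᶜ : Set ℂ)) :=
    dense_pi Set.univ fun _ _ => dense_compl_singleton 0
  refine h.mono ?_
  intro w hw
  exact ⟨hw 0 trivial, hw 1 trivial⟩

theorem Coef.good {p a : ℕ} {i : Fin 2} {m : ℕ} {s t : ℤ} {c : ℕ → R} (hc : Coef p a i m s t c)
    {l : ℕ} (hl : l ∈ Finset.range (m + 1)) {z : V} (w : V) (hz : z i ≠ 0) :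
    Good (s + ((m - l : ℕ) : ℤ) * a - l * p) (t + l * ((a : ℤ) - p)) (c l) z w :=
  have h := hc l (Nat.lt_succ_iff.1 (Finset.mem_range.1 hl))
  Good.of (.inr (.inl ⟨i, hz, h.1⟩)) (.inl h.2)

theorem scal_aux (p a n l : ℕ) (s t : ℤ) {x μ : ℂ} (hx : x ≠ 0) (hμ : μ ≠ 0) (y₀ y₁ : ℂ) :
    x ^ (s + (n : ℤ) * a - l * p) * μ ^ (t + l * ((a : ℤ) - p)) * (y₀ ^ n * y₁ ^ l) =
      x ^ s * μ ^ t * ((x ^ (a : ℤ) * y₀) ^ n * (x ^ (-(p : ℤ)) * μ ^ ((a : ℤ) - p) * y₁) ^ l) := by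
  rw [mul_pow, mul_pow, mul_pow, ← zpow_natCast (x ^ (a : ℤ)), ← zpow_natCast (x ^ (-(p : ℤ))),
    ← zpow_natCast (μ ^ ((a : ℤ) - p)), ← zpow_mul, ← zpow_mul, ← zpow_mul,
    show s + (n : ℤ) * a - l * p = s + (a * n + -p * l) by ring, zpow_add₀ hx, zpow_add₀ hx,
    zpow_add₀ hμ, mul_comm (l : ℤ)]
  ring

/-- From coefficients in the Laurent ring to a section. -/
theorem Core.toHSec {p a : ℕ} (K : Core p a) {D : FData p a} (hD : K.Gives D) (m : ℕ) (s t : ℤ)
    (c : Fin 2 → ℕ → R) (hc : ∀ i, Coef p a i m s t (c i))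
    (h : ∀ Y H, form m (c 0) Y H = form m (c 1) (Y + K.γ * H) H) :
    ∃ S : HSec D m s t,
      (∀ i z w y, S.F i z w y = ∑ l ∈ Finset.range (m + 1),
        hev (s + ((m - l : ℕ) : ℤ) * a - l * p) (t + l * ((a : ℤ) - p)) (c i l) z w *
          y 0 ^ (m - l) * y 1 ^ l) ∧
      ∀ i z w, z i ≠ 0 → S.F i z w ![D.th i z w, D.sg z w] =
        hev s (t + m * a) (form m (c i) (K.θ i) K.σ) z w := by
  refine ⟨⟨fun i z w y => ∑ l ∈ Finset.range (m + 1),
        hev (s + ((m - l : ℕ) : ℤ) * a - l * p) (t + l * ((a : ℤ) - p)) (c i l) z w *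
          y 0 ^ (m - l) * y 1 ^ l, fun i z w y hz _ => ?_, fun i z w y b _ _ => ?_,
      fun i z w y x μ hx hμ _ _ => ?_, fun z w y h0 h1 _ => ?_⟩, fun _ _ _ _ => rfl,
      fun i z w hz => ?_⟩
  · refine DifferentiableAt.fun_sum fun l hl => ?_
    have h1 : DifferentiableAt ℂ (fun q : V × V × V => (q.1, q.2.1)) (z, w, y) := by fun_prop
    have h2 := DifferentiableAt.comp (z, w, y) ((hc i).good hl w hz).differentiableAt h1
    exact (h2.fun_mul (by fun_prop)).fun_mul (by fun_prop)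
  · rw [Finset.mul_sum]
    refine Finset.sum_congr rfl fun l hl => ?_
    have : b ^ m = b ^ (m - l) * b ^ l := by
      rw [← pow_add, Nat.sub_add_cancel (Nat.lt_succ_iff.1 (Finset.mem_range.1 hl))]
    simp only [Pi.smul_apply, smul_eq_mul, mul_pow, this]
    ring
  · rw [Finset.mul_sum]
    refine Finset.sum_congr rfl fun l _ => ?_
    rw [hev_scal _ _ _ _ _ _ _ hx hμ]
    simp only [Matrix.cons_val_zero, Matrix.cons_val_one]
    linear_combination hev (s + ((m - l : ℕ) : ℤ) * a - l * p) (t + l * ((a : ℤ) - p)) (c i l) z w *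
      scal_aux p a (m - l) l s t hx hμ (y 0) (y 1)
  · have hcont : ∀ {s t : ℤ} {f : R}, (∀ w, Good s t f z w) → Continuous fun w => hev s t f z w :=
      fun {s t f} hf => continuous_iff_continuousAt.2 fun w =>
        ContinuousAt.comp (f := fun w : V => (z, w)) (g := fun q : V × V => hev s t f q.1 q.2)
          (hf w).differentiableAt.continuousAt (by fun_prop)
    have hγ := hcont fun w => K.good_γ w h0 h1
    simp only [Matrix.cons_val_zero, Matrix.cons_val_one, hD.gam]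
    refine congrFun (Continuous.ext_on dense_torus
      (f := fun w => ∑ l ∈ Finset.range (m + 1),
        hev (s + ((m - l : ℕ) : ℤ) * a - l * p) (t + l * ((a : ℤ) - p)) (c 0 l) z w *
          y 0 ^ (m - l) * y 1 ^ l)
      (g := fun w => ∑ l ∈ Finset.range (m + 1),
        hev (s + ((m - l : ℕ) : ℤ) * a - l * p) (t + l * ((a : ℤ) - p)) (c 1 l) z w *
          (y 0 + hev (-(a : ℤ) - p) ((a : ℤ) - p) K.γ z w * y 1) ^ (m - l) * y 1 ^ l)
      ?_ ?_ ?_) w
    · refine continuous_finset_sum _ fun l hl => ?_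
      have := hcont fun w => (hc 0).good hl w h0
      fun_prop
    · refine continuous_finset_sum _ fun l hl => ?_
      have := hcont fun w => (hc 1).good hl w h1
      fun_prop
    · rintro w ⟨w0, w1⟩
      obtain ⟨ev, -, hev'⟩ := exists_ev (z 1 / z 0) (w 1 / w 0) (div_ne_zero h1 h0)
        (div_ne_zero w1 w0)
      have ez : z = ![z 0, z 0 * (z 1 / z 0)] := by
        funext k; fin_cases k <;> simp [mul_div_cancel₀ _ h0]
      have ew : w = ![w 0, w 0 * (w 1 / w 0)] := by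
        funext k; fin_cases k <;> simp [mul_div_cancel₀ _ w0]
      have he : ∀ s t f, hev s t f z w = z 0 ^ s * w 0 ^ t * ev f := fun s t f => by
        rw [← hev' s t f _ _ h0 w0, ← ez, ← ew]
      have hh := congrArg ev (h (algebraMap ℂ R (z 0 ^ (a : ℤ) * y 0))
        (algebraMap ℂ R (z 0 ^ (-(p : ℤ)) * w 0 ^ ((a : ℤ) - p) * y 1)))
      simp only [form, map_sum, map_mul ev, map_pow ev, map_add ev, AlgHom.commutes,
        Algebra.algebraMap_self, RingHom.id_apply] at hh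
      have e1 : ∀ (i : Fin 2) (y₀ : ℂ), ∑ l ∈ Finset.range (m + 1),
          hev (s + ((m - l : ℕ) : ℤ) * a - l * p) (t + l * ((a : ℤ) - p)) (c i l) z w *
          y₀ ^ (m - l) * y 1 ^ l = z 0 ^ s * w 0 ^ t * ∑ l ∈ Finset.range (m + 1),
          ev (c i l) * (z 0 ^ (a : ℤ) * y₀) ^ (m - l) *
            (z 0 ^ (-(p : ℤ)) * w 0 ^ ((a : ℤ) - p) * y 1) ^ l := fun i y₀ => by
        rw [Finset.mul_sum]
        refine Finset.sum_congr rfl fun l _ => ?_
        rw [he]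
        linear_combination ev (c i l) * scal_aux p a (m - l) l s t h0 w0 y₀ (y 1)
      have e2 : z 0 ^ (a : ℤ) * (y 0 + hev (-(a : ℤ) - p) ((a : ℤ) - p) K.γ z w * y 1) =
          z 0 ^ (a : ℤ) * y 0 + ev K.γ * (z 0 ^ (-(p : ℤ)) * w 0 ^ ((a : ℤ) - p) * y 1) := by
        have : z 0 ^ (-(p : ℤ)) = z 0 ^ (a : ℤ) * z 0 ^ (-(a : ℤ) - p) := by
          rw [← zpow_add₀ h0]; congr 1; ring
        rw [he, this]; ring
      simp only
      rw [e1, e1, e2, hh]
  · simp only [Matrix.cons_val_zero, Matrix.cons_val_one, form, hev_sum, hD.th, hD.sg]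
    refine Finset.sum_congr rfl fun l hl => ?_
    have g1 := (hc i).good hl w hz
    have g2 := K.good_θ i w hz
    have g3 := K.good_σ z w
    rw [← hev_pow g2, ← hev_pow g3, ← hev_mul g1 (g2.pow _), ← hev_mul (g1.mul (g2.pow _)) (g3.pow _)]
    congr 1
    · ring
    · rw [Nat.cast_sub (Nat.lt_succ_iff.1 (Finset.mem_range.1 hl))]; ring

end Vale.Agent.P296
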