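import Vale.Agent.P296.Step
import Vale.Agent.P296.ToSec

namespace Vale.Agent.P296

open scoped Matrix

/-- The monomial `z i ^ A * w j ^ B` in bidegree `(A, B)`. -/
noncomputable def mon (i j : Fin 2) (A B : ℕ) : R :=
  mono (if i = 0 then 0 else A) (if j = 0 then 0 else B)

theorem mon_z (i j k : Fin 2) (A B : ℕ) : ZR k A (mon i j A B) :=
  ZR.monomial k _ _ (fun _ => by split_ifs <;> simp) (fun _ => by split_ifs <;> simp)

theorem mon_w (i j k : Fin 2) (A B : ℕ) : WR k B (mon i j A B) :=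
  WR.monomial k _ _ (fun _ => by split_ifs <;> simp) (fun _ => by split_ifs <;> simp)

theorem hev_mon (i j : Fin 2) (A B : ℕ) (z w : V) :
    hev A B (mon i j A B) z w = z i ^ A * w j ^ B := by
  rw [mon, hev_mono]
  fin_cases i <;> fin_cases j <;> simp

variable {p a : ℕ} (K : Core p a)

theorem Core.sec_of {D : FData p a} (hD : K.Gives D) (q : ℕ) (hp : p = q + 1) (hq : 1 ≤ q)
    (ha : p * p ≤ a) (fm f₀ ρ ρ' : R) (hm : ∀ i, ZR i (((p : ℤ) - 1) + p * a) fm)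
    (hmw : ∀ k, WR k ((p : ℤ) - 1) fm) (hρ : ZR 0 (-1) ρ) (hρ' : ZR 1 (-1) ρ')
    (hρw : ∀ k, WR k (p * a - 1) ρ) (hρw' : ∀ k, WR k (p * a - 1) ρ')
    (h : f₀ - K.θ 0 ^ p * fm = K.σ * ρ) (h' : f₀ - K.θ 1 ^ p * fm = K.σ * ρ') :
    ∃ S : HSec D p ((p : ℤ) - 1) ((p : ℤ) - 1), ∀ i z w, z i ≠ 0 →
      S.F i z w ![1, 0] = hev (((p : ℤ) - 1) + p * a) ((p : ℤ) - 1) fm z w ∧
      S.F i z w ![D.th i z w, D.sg z w] = hev ((p : ℤ) - 1) (((p : ℤ) - 1) + p * a) f₀ z w := by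
  have hpq : (p : ℤ) = q + 1 := by exact_mod_cast hp
  have ha' : (p : ℤ) * p ≤ a := by exact_mod_cast ha
  have hq' : (1 : ℤ) ≤ q := by exact_mod_cast hq
  obtain ⟨c, c', h1, h2, h3, h4, h5, h6, h7⟩ := K.top (by nlinarith) q ((p : ℤ) - 1) ((p : ℤ) - 1)
    (by rw [← hpq]; nlinarith) (by nlinarith) fm f₀ ρ ρ' (fun i => (hm i).of_eq (by rw [hpq]))
    hmw (hρ.of_eq (by ring)) (hρ'.of_eq (by ring))
    (fun k => (hρw k).of_eq (by rw [← hpq]; ring)) (fun k => (hρw' k).of_eq (by rw [← hpq]; ring))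
    (by rw [← hp]; exact h) (by rw [← hp]; exact h')
  rw [← hp] at h1 h2 h3 h6 h7
  obtain ⟨S, hS, hS'⟩ := K.toHSec hD p _ _ ![c, c'] (fun i => by fin_cases i; exacts [h1, h2]) h3
  refine ⟨S, fun i z w hz => ⟨?_, ?_⟩⟩
  · rw [hS, Finset.sum_range_succ']
    have : (![c, c'] : Fin 2 → ℕ → R) i 0 = fm := by fin_cases i; exacts [h4, h5]
    simp [this]
  · rw [hS' i z w hz]
    congr 1
    fin_cases i; exacts [h6, h7]

theorem Core.rich {D : FData p a} (hD : K.Gives D) (hp : 2 ≤ p)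
    (ha : p * p ≤ a) : Rich D := by
  obtain ⟨q, hq⟩ : ∃ q, p = q + 1 := ⟨p - 1, by omega⟩
  have c1 : ((p - 1 : ℕ) : ℤ) = (p : ℤ) - 1 := by rw [Nat.cast_sub (by omega)]; simp
  have c2 : ((p * a + (p - 1) : ℕ) : ℤ) = (p : ℤ) - 1 + p * a := by
    rw [Nat.cast_add, c1]; push_cast; ring
  refine ⟨fun i j => ?_, fun i j => ?_, fun i j => ?_⟩
  · set fm := mon i j (p * a + (p - 1)) (p - 1)
    have hz : ∀ k, ZR k ((p : ℤ) - 1 + p * a) fm := fun k => (mon_z i j k _ _).of_eq c2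
    have hw : ∀ k, WR k ((p : ℤ) - 1) fm := fun k => (mon_w i j k _ _).of_eq c1
    set G := K.γ * ∑ l ∈ Finset.range p, K.θ 1 ^ l * K.θ 0 ^ (p - 1 - l) with hG
    have hX : K.θ 1 ^ p - K.θ 0 ^ p = K.σ * G := by
      rw [hG, ← mul_assoc, ← K.γ_eq, mul_comm, (Commute.all _ _).geom_sum₂_mul]
    have hGw : ∀ k, WR k (p * a - p) G := fun k => by
      rw [hG, Finset.mul_sum]
      refine WR.sum _ fun l hl => ?_
      have hl' := Finset.mem_range.1 hl
      refine ((K.γ_w k).mul (((K.θ_w 1 k).pow l).mul ((K.θ_w 0 k).pow _))).of_eq ?_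
      rw [Nat.cast_sub (by omega), c1]; ring
    obtain ⟨X₀, X₁, hX01, h0, h1, hXw⟩ := ZR.split (G * fm) (s := -1) le_rfl
    have hXw' := fun k => hXw k (p * a - 1) (((hGw k).mul (hw k)).of_eq (by ring))
    obtain ⟨S, hS⟩ := K.sec_of hD q hq (by omega) ha fm (K.θ 0 ^ p * fm + K.σ * X₀) X₀ (-X₁) hz hw
      h0 h1.neg (fun k => (hXw' k).1) (fun k => (hXw' k).2.neg) (by ring)
      (by linear_combination -fm * hX - K.σ * hX01)
    refine ⟨S, fun i' z w hz _ => ?_⟩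
    rw [(hS i' z w hz).1, ← c2, ← c1, hev_mon]
  · set f₀ := mon i j (p - 1) (p * a + (p - 1))
    have hz : ∀ k, ZR k ((p : ℤ) - 1) f₀ := fun k => (mon_z i j k _ _).of_eq c1
    have hw : ∀ k, WR k ((p : ℤ) - 1 + p * a) f₀ := fun k => (mon_w i j k _ _).of_eq c2
    obtain ⟨c, hcw, hcz, hce⟩ := K.wlift p ((p : ℤ) - 1) le_rfl f₀ hw
    obtain ⟨e, he, hew, hez⟩ := hce 0
    obtain ⟨e', he', hew', hez'⟩ := hce 1
    obtain ⟨S, hS⟩ := K.sec_of hD q hq (by omega) ha c f₀ e e' (fun k => hcz k _ (hz k)) hcw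
      ((hez _ (hz 0)).of_eq (by ring)) ((hez' _ (hz 1)).of_eq (by ring))
      (fun k => (hew k).of_eq (by ring)) (fun k => (hew' k).of_eq (by ring))
      (by rw [← he]; ring) (by rw [← he']; ring)
    refine ⟨S, fun i' z w hz _ => ?_⟩
    rw [(hS i' z w hz).2, ← c2, ← c1, hev_mon]
  · set f := mon i j (p + a) p
    obtain ⟨e₀, e₁, he, h0, h1, hew⟩ := ZR.split (K.γ * f) (s := 0) (by norm_num)
    have hew' := fun k => hew k a (((K.γ_w k).mul (mon_w i j k (p + a) p)).of_eq (by ring))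
    let e : Fin 2 → R := ![e₀, -e₁]
    have hez : ∀ k, ZR k 0 (e k) := fun k => by fin_cases k; exacts [h0, h1.neg]
    have hew2 : ∀ k k', WR k' a (e k) := fun k k' => by
      fin_cases k; exacts [(hew' k').1, (hew' k').2.neg]
    obtain ⟨S, hS, -⟩ := K.toHSec hD 1 p p (fun k l => Nat.casesOn l f fun _ => e k)
      (fun k => coef_succ (j := 0) ((mon_z i j k _ _).of_eq (by simp)) (fun k' => mon_w i j k' _ _)
        fun l hl => by
          obtain rfl : l = 0 := by omega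
          exact ⟨(hez k).of_eq (by simp), fun k' => (hew2 k k').of_eq (by simp)⟩)
      (fun Y H => by
        rw [form_succ, form_succ, form_zero, form_zero]
        change f * _ + H * e₀ = f * _ + H * -e₁
        linear_combination -H * he)
    refine ⟨S, fun k z w => hev 0 a (e k) z w, fun k z w y _ _ => ?_⟩
    rw [hS, Finset.sum_range_succ, Finset.sum_range_one, ← hev_mon i j (p + a) p z w]
    simp [f]

end Vale.Agent.P296
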