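import Vale.Agent.P296.HorizX

namespace Vale.Agent.P296

open scoped Matrix

theorem bound2_of_bound1 {p a : ℕ} {D : FData p a} (N : HNorm D) {δ₀ c₀ C₀ C ε B : ℝ}
    (hc : 0 < c₀) (hε : 0 ≤ ε) (hB : 0 ≤ B) (hL : LineProp δ₀ c₀ C₀ C)
    (T : Contr D δ₀ c₀ C₀ ε) (h : Bound1 N T.q B) : Bound2 N T.q (C * ε * B) := by
  intro i z w₀ hz hw₀
  obtain ⟨j, δ, σ', hδ, hσ', hδh, hσh, hsg, hδC, hin⟩ := T.hw z (hx_ne_of hz)
  set v : V → V := fun w => ![-σ' w * D.rr i j z w, -σ' w * D.th' j z w] with hv'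
  have hds : ∀ w, w j ≠ 0 → DifferentiableAt ℂ v w := fun w hw =>
    hx_diff_vec ((hσ' w).neg.mul ((D.rr_hh i j).contAt_w ⟨hz, hw⟩))
      ((hσ' w).neg.mul ((D.th'_hh j).contAt_w hw))
  have hnh : ∀ (l : ℂ) w, l ≠ 0 → w ≠ 0 →
      N.n i z (l • w) ![1, 0] = ‖l‖ * N.n i z w ![1, 0] := fun l w hl hw => by
    rw [N.scal_w _ hl hz hw]
    simp
  have heh : ∀ (l : ℂ) w, l ≠ 0 → w j ≠ 0 → ‖(l • w) j‖ * N.n i z (l • w) (v (l • w)) =
      ‖w j‖ * N.n i z w (v w) := fun l w hl hw => by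
    rw [N.scal_w _ hl hz (hx_ne_of hw)]
    have e1 : (![v (l • w) 0, l ^ ((a : ℤ) - p) * v (l • w) 1] : V) = (l ^ 2)⁻¹ • v w := by
      have e2 : (l ^ 2)⁻¹ = l ^ (-2 : ℤ) := by rw [zpow_neg]; norm_cast
      simp only [hv', Matrix.cons_val_zero, Matrix.cons_val_one]
      rw [hσh l w hl, (D.rr_hh i j).scal_w hl, (D.th'_hh j).scal_w hl, e2]
      funext k
      fin_cases k
      · have : l ^ (-2 : ℤ) = l ^ ((p : ℤ) - 2) * l ^ (-(p : ℤ)) := by
          rw [← zpow_add₀ hl]; congr 1; ring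
        simp only [Fin.zero_eta, Matrix.cons_val_zero, Pi.smul_apply, smul_eq_mul, this]
        ring
      · have : l ^ (-2 : ℤ) = l ^ ((a : ℤ) - p) * l ^ ((p : ℤ) - 2) * l ^ (-(a : ℤ)) := by
          rw [← zpow_add₀ hl, ← zpow_add₀ hl]; congr 1; ring
        simp only [Fin.mk_one, Matrix.cons_val_one, Matrix.cons_val_zero, Pi.smul_apply,
          smul_eq_mul, this]
        ring
    have hl' : ‖l‖ ≠ 0 := norm_ne_zero_iff.2 hl
    rw [e1, N.smul _ _ _ _ _ hz (hx_ne_of hw), Pi.smul_apply, smul_eq_mul, norm_mul, norm_inv,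
      norm_pow]
    field_simp
  have hq := T.q_pos z (hx_ne_of hz)
  have main := hL j (fun w => N.n i z w ![1, 0]) (fun w => ‖w j‖ * N.n i z w (v w)) δ
    (ε * B * ‖z‖ * T.q z)
    (by positivity) (fun w hw => ?_) (fun w _ => N.nonneg _ _ _ _) hnh hδ.continuous hδh hδC
    (fun w hw => ?_)
    (fun w _ => mul_nonneg (norm_nonneg _) (N.nonneg _ _ _ _)) heh (fun w hw hd => ?_)
    (fun w hw h0 hm => ?_) (fun w hw hd h0 hm => ?_) w₀ hw₀
  · exact main.trans (le_of_eq (by ring))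
  · exact (N.cont_w continuousAt_const hz hw).continuousWithinAt
  · exact (ContinuousAt.mul (continuous_apply j).norm.continuousAt
      (N.cont_w (hds w hw).continuousAt hz (hx_ne_of hw))).continuousWithinAt
  · obtain ⟨h1, h2⟩ := hin w hw hd
    have hwj : w j ≠ 0 := fun h0 => by
      rw [h0, norm_zero] at h1
      have : 0 < c₀ * ‖w‖ := mul_pos hc (norm_pos_iff.2 hw)
      linarith
    refine ⟨h1, ?_⟩
    refine N.tri2 (c := D.th' j z w) (u := ![D.th i z w, D.sg z w]) hz hw ?_ ?_ _ (norm_nonneg _)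
    · have h3 := D.rr_eq i j z w hz hwj
      have h4 := hsg w
      funext k
      fin_cases k
      · simp only [hv', Fin.zero_eta, Matrix.cons_val_zero, Pi.smul_apply, smul_eq_mul,
          Pi.add_apply]
        linear_combination -h3 - D.rr i j z w * h4
      · simp only [hv', Fin.mk_one, Matrix.cons_val_one, Matrix.cons_val_zero, Pi.smul_apply,
          smul_eq_mul, Pi.add_apply]
        linear_combination -D.th' j z w * h4
    · calc ‖D.th' j z w‖ * N.n i z w ![D.th i z w, D.sg z w]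
            ≤ ‖D.th' j z w‖ * (B * ‖z‖ * ‖w‖ * T.q w) :=
            mul_le_mul_of_nonneg_left (h i z w hz hw) (norm_nonneg _)
        _ = B * ‖z‖ * ‖w‖ * (‖D.th' j z w‖ * T.q w) := by ring
        _ ≤ B * ‖z‖ * ‖w‖ * (ε * T.q z) := mul_le_mul_of_nonneg_left h2 (by positivity)
        _ = _ := by ring
  · obtain ⟨t₀, ht₀⟩ := hx_exists_hv j w hw
    have hG : ∀ t, ‖(w j • hv j t) j‖ * N.n i z (w j • hv j t) (v (w j • hv j t)) =
        N.n i z (hv j t) (v (hv j t)) := fun t => by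
      rw [heh _ _ hw (hx_hv_ne j t), hx_hv_self, norm_one, one_mul]
    rw [ht₀] at hm h0
    beta_reduce at h0
    rw [hG] at h0
    refine N.mpw i j z (fun t => v (hv j t)) t₀ hz ?_ (N.ne_of_pos hz (hv_ne j t₀) h0)
      (hx_localMax hm hG)
    exact Differentiable.analyticAt
      (fun t => (hds _ (hx_hv_ne j t)).comp t (hx_diff_hv j t)) t₀
  · obtain ⟨k, hk⟩ := hx_exists_ne hw
    obtain ⟨t₀, ht₀⟩ := hx_exists_hv k w hk
    have hl' : ‖w k‖ ≠ 0 := norm_ne_zero_iff.2 hk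
    have hG : ∀ t, N.n i z (w k • hv k t) ![1, 0] ^ 2 / ‖δ (w k • hv k t)‖ =
        N.n i z (hv k t) ![1, 0] ^ 2 / ‖δ (hv k t)‖ := fun t => by
      rw [hnh _ _ hk (hv_ne k t), hδh, norm_mul, norm_pow, mul_pow,
        mul_div_mul_left _ _ (pow_ne_zero 2 hl')]
    rw [ht₀] at hm hd
    rw [hδh] at hd
    refine hx_nomax_sq (n := fun t y => N.n i z (hv k t) y) (fun _ _ => N.nonneg _ _ _ _)
      (fun t y c => N.smul _ _ _ _ _ hz (hv_ne k t)) (fun φ => N.mpw i k z φ t₀ hz)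
      (s := fun _ => ![1, 0]) (d := fun t => δ (hv k t)) analyticAt_const
      (fun h0 => by simpa using congrFun h0 0) ?_
      (right_ne_zero_of_mul hd) (hx_localMax hm hG)
    exact (hδ.comp (hx_diff_hv k)).analyticAt t₀

end Vale.Agent.P296
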