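import Vale.Agent.P296.Horiz
import Vale.Agent.P296.Vert
import Vale.Agent.P296.Line
import Vale.Agent.P296.Norm
import Vale.Agent.P296.AmpleOf
import Vale.Agent.P296.RichF
import Vale.Agent.P296.Exists

namespace Vale.Agent.P296

open scoped Matrix

theorem HNorm.s2_frame {p a : ℕ} {D : FData p a} (N : HNorm D) {i i' : Fin 2} {z w : V}
    (hi : z i ≠ 0) (hi' : z i' ≠ 0) (hw : w ≠ 0) : N.n i z w ![1, 0] = N.n i' z w ![1, 0] := by
  fin_cases i <;> fin_cases i'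
  · rfl
  · simpa using N.frame z w ![1, 0] hi hi' hw
  · simpa using (N.frame z w ![1, 0] hi' hi hw).symm
  · rfl

theorem exists_bound2 {p a : ℕ} {D : FData p a} (N : HNorm D) {δ₀ c₀ C₀ ε : ℝ}
    (T : Contr D δ₀ c₀ C₀ ε) : ∃ A : ℝ, 0 ≤ A ∧ Bound2 N T.q A := by
  have H : ∀ i : Fin 2, ∃ A : ℝ, ∀ z w : V, ‖z‖ = 1 → ‖z i‖ = 1 → ‖w‖ = 1 →
      N.n i z w ![1, 0] ≤ A * T.q z := fun i => by
    have hK : IsCompact ((Metric.sphere (0 : V) 1 ∩ {z | ‖z i‖ = 1}) ×ˢ Metric.sphere (0 : V) 1) :=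
      ((isCompact_sphere _ _).inter_right (isClosed_eq (by fun_prop) continuous_const)).prod
        (isCompact_sphere _ _)
    obtain ⟨A, hA⟩ := hK.bddAbove_image (f := fun x : V × V => N.n i x.1 x.2 ![1, 0] / T.q x.1) (by
      rintro ⟨z, w⟩ ⟨⟨h1, h2⟩, h3⟩
      have hz : z i ≠ 0 := fun h => by simp [h] at h2
      have hw : w ≠ 0 := fun h => by simp [h] at h3
      refine ContinuousAt.continuousWithinAt (ContinuousAt.div ?_ ?_ ?_)
      · exact ContinuousAt.comp (g := fun q : V × V × V => N.n i q.1 q.2.1 q.2.2)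
          (f := fun x : V × V => (x.1, x.2, ![1, 0])) (N.cont i z w _ hz hw) (by fun_prop)
      · exact (T.q_cont.comp continuous_fst).continuousAt
      · exact (T.q_pos z fun h => hz (congrFun h i)).ne')
    refine ⟨A, fun z w h1 h2 h3 => ?_⟩
    have hq := T.q_pos z fun h => by simp [h] at h1
    exact (div_le_iff₀ hq).1 (hA ⟨(z, w), ⟨⟨by simpa using h1, h2⟩, by simpa using h3⟩, rfl⟩)
  choose A hA using H
  refine ⟨max (max (A 0) (A 1)) 0, le_max_right _ _, fun i z w hz hw => ?_⟩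
  have hz0 : z ≠ 0 := fun h => hz (congrFun h i)
  obtain ⟨k, hk⟩ : ∃ k, ‖z k‖ = ‖z‖ := by
    obtain ⟨k, -, hk⟩ := Finset.exists_max_image Finset.univ (fun k => ‖z k‖) ⟨0, by simp⟩
    exact ⟨k, le_antisymm (norm_le_pi_norm z k)
      ((pi_norm_le_iff_of_nonneg (norm_nonneg _)).2 fun j => hk j (by simp))⟩
  have nz := norm_pos_iff.2 hz0
  have nw := norm_pos_iff.2 hw
  have hl : ((‖z‖ : ℝ) : ℂ) ≠ 0 := by exact_mod_cast nz.ne'
  have hm : ((‖w‖ : ℝ) : ℂ) ≠ 0 := by exact_mod_cast nw.ne'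
  set z' : V := ((‖z‖ : ℝ) : ℂ)⁻¹ • z with hz'
  set w' : V := ((‖w‖ : ℝ) : ℂ)⁻¹ • w with hw'
  have ez : z = ((‖z‖ : ℝ) : ℂ) • z' := by rw [hz', smul_inv_smul₀ hl]
  have ew : w = ((‖w‖ : ℝ) : ℂ) • w' := by rw [hw', smul_inv_smul₀ hm]
  have n1 : ‖z'‖ = 1 := by simp [hz', norm_smul, nz.ne']
  have n2 : ‖z' k‖ = 1 := by simp [hz', hk, nz.ne']
  have n3 : ‖w'‖ = 1 := by simp [hw', norm_smul, nw.ne']
  have hk0 : z k ≠ 0 := fun h => by rw [h, norm_zero] at hk; exact nz.ne hk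
  have hk1 : z' k ≠ 0 := fun h => by simp [h] at n2
  have hw1 : w' ≠ 0 := fun h => by simp [h] at n3
  have e1 := N.scal k z' w' ![1, 0] _ _ hl hm hk1 hw1
  have e2 := N.smul k z' w' ![1, 0] (((‖z‖ : ℝ) : ℂ) ^ a) hk1 hw1
  have e3 := T.q_hom ((‖z‖ : ℝ) : ℂ) z'
  rw [← ez] at e3
  rw [← ez, ← ew] at e1
  simp only [Matrix.cons_val_zero, Matrix.cons_val_one, mul_one, mul_zero, zpow_natCast,
    Matrix.smul_cons, smul_eq_mul, Matrix.smul_empty, norm_pow, Complex.norm_real,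
    norm_norm] at e1 e2 e3
  have h1 : A k ≤ max (max (A 0) (A 1)) 0 := by
    fin_cases k
    exacts [le_max_of_le_left (le_max_left _ _), le_max_of_le_left (le_max_right _ _)]
  have hq := T.q_pos z' fun h => by simp [h] at n1
  rw [N.s2_frame hz hk0 hw, e1, e2, e3]
  calc ‖z‖ * ‖w‖ * (‖z‖ ^ a * N.n k z' w' ![1, 0])
      ≤ ‖z‖ * ‖w‖ * (‖z‖ ^ a * (max (max (A 0) (A 1)) 0 * T.q z')) := by
        gcongr
        exact (hA k z' w' n1 n2 n3).trans (by gcongr)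
    _ = _ := by ring

theorem not_hnorm {p a : ℕ} {D : FData p a} (N : HNorm D) {δ₀ c₀ C₀ C ε : ℝ}
    (hc : 0 < c₀) (hC : 0 < C) (hε : 0 < ε) (h1 : C * ε ≤ 1 / 2) (hL : LineProp δ₀ c₀ C₀ C)
    (T : Contr D δ₀ c₀ C₀ ε) : False := by
  obtain ⟨A, hA, hB⟩ := exists_bound2 N T
  have H : ∀ n : ℕ, Bound2 N T.q ((C * ε) ^ (2 * n) * A) := fun n => by
    induction n with
    | zero => simpa using hB
    | succ n ih =>
      have := bound2_of_bound1 N hc hε.le (by positivity) hL T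
        (bound1_of_bound2 N hc hε.le (by positivity) hL T ih)
      rwa [show C * ε * (C * ε * ((C * ε) ^ (2 * n) * A)) = (C * ε) ^ (2 * (n + 1)) * A by ring]
        at this
  let z : V := fun _ => 1
  have hz : z ≠ 0 := fun h => by simpa [z] using congrFun h 0
  have hp := N.pos 0 z z ![1, 0] (by simp [z]) hz (by simp)
  have ht : Filter.Tendsto (fun n : ℕ => ((C * ε) ^ 2) ^ n * A * ‖z‖ * ‖z‖ * T.q z) Filter.atTop
      (nhds (0 * A * ‖z‖ * ‖z‖ * T.q z)) :=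
    ((((tendsto_pow_atTop_nhds_zero_of_lt_one (by positivity)
      (by nlinarith [mul_pos hC hε])).mul_const _).mul_const _).mul_const _).mul_const _
  have := ge_of_tendsto' ht fun n => by
    rw [← pow_mul]; exact H n 0 z z (by simp [z]) hz
  simp only [zero_mul] at this
  exact absurd hp (not_lt.2 this)

theorem main : ∃ E : Bundle 2, E.Ample ∧ ∀ h : HMetric E, ¬ h.GriffithsPos := by
  obtain ⟨δ₀, c₀, C₀, hδ, hc, hC₀, H⟩ := exists_core
  obtain ⟨C, hC, hL⟩ := line_lemma hδ hc hC₀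
  have hε : 0 < 1 / (2 * C) := by positivity
  obtain ⟨a, K, D, ha, hD, ⟨T⟩⟩ := H _ hε
  obtain ⟨E, hE⟩ := exists_models D
  have hR : Rich D := K.rich hD (by norm_num) ha
  refine ⟨E, ample_of hE (hR.bpf (by norm_num) ha) hR.gen, fun h hG => ?_⟩
  obtain ⟨N⟩ := exists_hnorm hE h hG
  exact not_hnorm N hc hC hε (by field_simp; norm_num) hL T

end Vale.Agent.P296
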