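import Vale.Agent.P296.HorizX

namespace Vale.Agent.P296

open scoped Matrix

theorem bound1_of_bound2 {p a : ℕ} {D : FData p a} (N : HNorm D) {δ₀ c₀ C₀ C ε A : ℝ}
    (hc : 0 < c₀) (hε : 0 ≤ ε) (hA : 0 ≤ A) (hL : LineProp δ₀ c₀ C₀ C)
    (T : Contr D δ₀ c₀ C₀ ε) (h : Bound2 N T.q A) : Bound1 N T.q (C * ε * A) := by
  classical
  intro i₀ z₀ w hz₀ hw
  obtain ⟨i, δ, σ', hδ, hσ', hδh, hσh, hsg, hδC, hin⟩ := T.hz w hw
  set n₁ : V → ℝ := fun z => if z 0 ≠ 0 then N.n 0 z w ![D.th 0 z w, D.sg z w]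
    else N.n 1 z w ![D.th 1 z w, D.sg z w] with hn₁
  have key : ∀ k z, z k ≠ 0 → n₁ z = N.n k z w ![D.th k z w, D.sg z w] := by
    intro k z hz
    fin_cases k
    · exact if_pos hz
    · by_cases h0 : z 0 ≠ 0
      · have hz' : z 1 ≠ 0 := hz
        have e1 : n₁ z = N.n 0 z w ![D.th 0 z w, D.sg z w] := if_pos h0
        have e2 : D.th 0 z w + D.gam z w * D.sg z w = D.th 1 z w := by
          linear_combination -D.gam_eq z w h0 hz'
        rw [e1, N.frame z w _ h0 hz' hw]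
        simp only [Matrix.cons_val_zero, Matrix.cons_val_one, e2]
        rfl
      · exact if_neg h0
  have hds : ∀ k z, z k ≠ 0 →
      DifferentiableAt ℂ (fun z => (![D.th k z w, D.sg z w] : V)) z := fun k z hz =>
    hx_diff_vec ((D.th_hh k).contAt_z hz) (D.sg_hh.contAt_z trivial)
  have hnh : ∀ (l : ℂ) z, l ≠ 0 → z ≠ 0 → n₁ (l • z) = ‖l‖ * n₁ z := fun l z hl hz => by
    obtain ⟨k, hk⟩ := hx_exists_ne hz
    rw [key k (l • z) (mul_ne_zero hl hk), key k z hk, N.scal_z _ hl hk hw,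
      (D.th_hh k).scal_z hl, D.sg_hh.scal_z hl]
    simp only [Matrix.cons_val_zero, Matrix.cons_val_one]
    rw [← mul_assoc, ← mul_assoc, ← zpow_add₀ hl, ← zpow_add₀ hl]
    simp
  have heh : ∀ (l : ℂ) z, l ≠ 0 → z i ≠ 0 → ‖(l • z) i‖ * N.n i (l • z) w ![0, σ' (l • z)] =
      ‖z i‖ * N.n i z w ![0, σ' z] := fun l z hl hz => by
    rw [N.scal_z _ hl hz hw, hσh l z hl]
    simp only [Matrix.cons_val_zero, Matrix.cons_val_one]
    have e1 : (![l ^ (a : ℤ) * 0, l ^ (-(p : ℤ)) * (l ^ ((p : ℤ) - 2) * σ' z)] : V) =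
        (l ^ 2)⁻¹ • ![0, σ' z] := by
      funext k
      fin_cases k
      · simp
      · have : l ^ (-(p : ℤ)) * l ^ ((p : ℤ) - 2) = (l ^ 2)⁻¹ := by
          rw [← zpow_add₀ hl, show -(p : ℤ) + ((p : ℤ) - 2) = -((2 : ℕ) : ℤ) by push_cast; ring,
            zpow_neg, zpow_natCast]
        simp [← this, mul_assoc]
    have hl' : ‖l‖ ≠ 0 := norm_ne_zero_iff.2 hl
    rw [e1, N.smul _ _ _ _ _ hz hw, Pi.smul_apply, smul_eq_mul, norm_mul, norm_inv, norm_pow]
    field_simp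
  have hq := T.q_pos w hw
  have main := hL i n₁ (fun z => ‖z i‖ * N.n i z w ![0, σ' z]) δ (ε * A * ‖w‖ * T.q w)
    (by positivity) (fun z hz => ?_) (fun z hz => ?_) hnh hδ.continuous hδh hδC (fun z hz => ?_)
    (fun z _ => mul_nonneg (norm_nonneg _) (N.nonneg _ _ _ _)) heh (fun z hz hd => ?_)
    (fun z hz h0 hm => ?_) (fun z hz hd h0 hm => ?_) z₀ (hx_ne_of hz₀)
  · rw [key i₀ z₀ hz₀] at main
    exact main.trans (le_of_eq (by ring))
  · obtain ⟨k, hk⟩ := hx_exists_ne (show z ≠ 0 from hz)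
    refine ((N.cont_z (hds k z hk).continuousAt hk hw).congr ?_).continuousWithinAt
    have : ∀ᶠ x : V in nhds z, x k ≠ 0 := (continuous_apply k).continuousAt.eventually_ne hk
    filter_upwards [this] with x hx using (key k x hx).symm
  · obtain ⟨k, hk⟩ := hx_exists_ne hz
    rw [key k z hk]; exact N.nonneg _ _ _ _
  · refine (ContinuousAt.mul (continuous_apply i).norm.continuousAt (N.cont_z ?_ hz hw)).continuousWithinAt
    exact (hx_diff_vec (differentiableAt_const _) (hσ' z)).continuousAt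
  · obtain ⟨h1, h2⟩ := hin z hz hd
    have hzi : z i ≠ 0 := fun h0 => by
      rw [h0, norm_zero] at h1
      have : 0 < c₀ * ‖z‖ := mul_pos hc (norm_pos_iff.2 hz)
      linarith
    refine ⟨h1, ?_⟩
    rw [key i z hzi]
    refine N.tri2 (c := D.th i z w) (u := ![1, 0]) hzi hw ?_ ?_ _ (norm_nonneg _)
    · funext k
      fin_cases k <;> simp [hsg]
    · calc ‖D.th i z w‖ * N.n i z w ![1, 0] ≤ ‖D.th i z w‖ * (A * ‖z‖ * ‖w‖ * T.q z) :=
            mul_le_mul_of_nonneg_left (h i z w hzi hw) (norm_nonneg _)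
        _ = A * ‖z‖ * ‖w‖ * (‖D.th i z w‖ * T.q z) := by ring
        _ ≤ A * ‖z‖ * ‖w‖ * (ε * T.q w) := mul_le_mul_of_nonneg_left h2 (by positivity)
        _ = _ := by ring
  · obtain ⟨t₀, ht₀⟩ := hx_exists_hv i z hz
    have hG : ∀ t, ‖(z i • hv i t) i‖ * N.n i (z i • hv i t) w ![0, σ' (z i • hv i t)] =
        N.n i (hv i t) w ![0, σ' (hv i t)] := fun t => by
      rw [heh _ _ hz (hx_hv_ne i t), hx_hv_self, norm_one, one_mul]
    rw [ht₀] at hm h0
    beta_reduce at h0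
    rw [hG] at h0
    refine N.mpz i w (fun t => ![0, σ' (hv i t)]) t₀ hw ?_ (N.ne_of_pos (hx_hv_ne i t₀) hw h0)
      (hx_localMax hm hG)
    exact Differentiable.analyticAt
      (fun t => hx_diff_vec (differentiableAt_const _) ((hσ'.comp (hx_diff_hv i)) t)) t₀
  · obtain ⟨k, hk⟩ := hx_exists_ne hz
    obtain ⟨t₀, ht₀⟩ := hx_exists_hv k z hk
    have hl' : ‖z k‖ ≠ 0 := norm_ne_zero_iff.2 hk
    have hG : ∀ t, n₁ (z k • hv k t) ^ 2 / ‖δ (z k • hv k t)‖ =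
        N.n k (hv k t) w ![D.th k (hv k t) w, D.sg (hv k t) w] ^ 2 / ‖δ (hv k t)‖ := fun t => by
      rw [hnh _ _ hk (hv_ne k t), hδh, key k _ (hx_hv_ne k t), norm_mul, norm_pow, mul_pow,
        mul_div_mul_left _ _ (pow_ne_zero 2 hl')]
    rw [ht₀] at hm h0 hd
    rw [hnh _ _ hk (hv_ne k t₀), key k _ (hx_hv_ne k t₀)] at h0
    rw [hδh] at hd
    refine hx_nomax_sq (n := fun t y => N.n k (hv k t) w y) (fun _ _ => N.nonneg _ _ _ _)
      (fun t y c => N.smul _ _ _ _ _ (hx_hv_ne k t) hw) (fun φ => N.mpz k w φ t₀ hw)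
      (s := fun t => ![D.th k (hv k t) w, D.sg (hv k t) w]) (d := fun t => δ (hv k t)) ?_
      (N.ne_of_pos (hx_hv_ne k t₀) hw (pos_of_mul_pos_right h0 (norm_nonneg _))) ?_
      (right_ne_zero_of_mul hd) (hx_localMax hm hG)
    · exact Differentiable.analyticAt
        (fun t => (hds k _ (hx_hv_ne k t)).comp t (hx_diff_hv k t)) t₀
    · exact (hδ.comp (hx_diff_hv k)).analyticAt t₀

end Vale.Agent.P296
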