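import Vale.Agent.P296.Api

namespace Vale.Agent.P296

open scoped Matrix

theorem hx_exists_hv (i : Fin 2) (z : V) (hz : z i ≠ 0) : ∃ t, z = z i • hv i t := by
  fin_cases i
  · refine ⟨z 1 / z 0, ?_⟩
    funext k
    have hz' : z 0 ≠ 0 := hz
    fin_cases k <;> simp [hv, mul_div_cancel₀ _ hz']
  · refine ⟨z 0 / z 1, ?_⟩
    funext k
    have hz' : z 1 ≠ 0 := hz
    fin_cases k <;> simp [hv, mul_div_cancel₀ _ hz']

theorem hx_hv_self (i : Fin 2) (t : ℂ) : hv i t i = 1 := by simp [hv]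

theorem hx_hv_ne (i : Fin 2) (t : ℂ) : hv i t i ≠ 0 := by simp [hv]

theorem hx_diff_hv (i : Fin 2) : Differentiable ℂ (hv i) := by
  refine differentiable_pi.2 fun k => ?_
  unfold hv
  split_ifs <;> fun_prop

theorem hx_exists_ne {z : V} (hz : z ≠ 0) : ∃ i, z i ≠ 0 := Function.ne_iff.1 hz

theorem hx_ne_of {z : V} {i : Fin 2} (hz : z i ≠ 0) : z ≠ 0 := by
  rintro rfl; exact hz rfl

theorem hx_localMax {F : V → ℝ} {G : ℂ → ℝ} {i : Fin 2} {c t₀ : ℂ}
    (h : IsLocalMax F (c • hv i t₀)) (hG : ∀ t, F (c • hv i t) = G t) : IsLocalMax G t₀ := by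
  have hc : Continuous fun t => c • hv i t := (hx_diff_hv i).continuous.const_smul c
  have := h.comp_continuous (g := fun t => c • hv i t) hc.continuousAt
  rwa [show (F ∘ fun t => c • hv i t) = G from funext hG] at this

theorem hx_inv_sqrt {d : ℂ → ℂ} {t₀ : ℂ} (hd : AnalyticAt ℂ d t₀) (h0 : d t₀ ≠ 0) :
    ∃ g : ℂ → ℂ, AnalyticAt ℂ g t₀ ∧ ∀ᶠ t in nhds t₀, g t ^ 2 * d t = 1 := by
  refine ⟨fun t => Complex.exp (-(Complex.log (d t / d t₀) + Complex.log (d t₀)) / 2), ?_, ?_⟩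
  · have h1 : AnalyticAt ℂ (fun t => Complex.log (d t / d t₀)) t₀ :=
      (hd.div_const (c := d t₀)).clog (by simp [div_self h0])
    exact (((h1.add analyticAt_const).neg).div_const (c := 2)).cexp
  · filter_upwards [hd.continuousAt.eventually_ne h0] with t ht
    rw [← Complex.exp_nat_mul]
    have : ((2 : ℕ) : ℂ) * (-(Complex.log (d t / d t₀) + Complex.log (d t₀)) / 2) =
        -(Complex.log (d t / d t₀) + Complex.log (d t₀)) := by push_cast; ring
    rw [this, Complex.exp_neg, Complex.exp_add, Complex.exp_log (div_ne_zero ht h0),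
      Complex.exp_log h0]
    field_simp

theorem hx_nomax_sq {n : ℂ → V → ℝ} {t₀ : ℂ} (hn0 : ∀ t y, 0 ≤ n t y)
    (hs : ∀ t y (c : ℂ), n t (c • y) = ‖c‖ * n t y)
    (mp : ∀ φ : ℂ → V, AnalyticAt ℂ φ t₀ → φ t₀ ≠ 0 → ¬ IsLocalMax (fun t => n t (φ t)) t₀)
    {s : ℂ → V} {d : ℂ → ℂ} (hsa : AnalyticAt ℂ s t₀) (hs0 : s t₀ ≠ 0) (hd : AnalyticAt ℂ d t₀)
    (hd0 : d t₀ ≠ 0) : ¬ IsLocalMax (fun t => n t (s t) ^ 2 / ‖d t‖) t₀ := by
  intro h
  obtain ⟨g, hg, he⟩ := hx_inv_sqrt hd hd0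
  have hg0 : g t₀ ≠ 0 := fun h0 => by simpa [h0] using he.self_of_nhds
  refine mp (fun t => g t • s t) (hg.smul hsa) (smul_ne_zero hg0 hs0) ?_
  have key : ∀ t, g t ^ 2 * d t = 1 → n t (s t) ^ 2 / ‖d t‖ = n t (g t • s t) ^ 2 := fun t ht => by
    have h1 : ‖g t‖ ^ 2 * ‖d t‖ = 1 := by rw [← norm_pow, ← norm_mul, ht, norm_one]
    have h2 : ‖d t‖ ≠ 0 := fun h0 => by simp [h0] at h1
    rw [hs, div_eq_iff h2]
    linear_combination -n t (s t) ^ 2 * h1
  filter_upwards [h, he] with t h1 h2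
  rw [key t h2, key t₀ he.self_of_nhds] at h1
  exact (pow_le_pow_iff_left₀ (hn0 _ _) (hn0 _ _) two_ne_zero).1 h1

theorem HH.contAt_z {P : V → V → Prop} {s t : ℤ} {f : V → V → ℂ} (h : HH P s t f) {z w : V}
    (hp : P z w) : DifferentiableAt ℂ (fun z => f z w) z :=
  DifferentiableAt.comp (f := fun z : V => (z, w)) (g := fun q : V × V => f q.1 q.2) z
    (h.diff z w hp) (by fun_prop)

theorem HH.contAt_w {P : V → V → Prop} {s t : ℤ} {f : V → V → ℂ} (h : HH P s t f) {z w : V}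
    (hp : P z w) : DifferentiableAt ℂ (fun w => f z w) w :=
  DifferentiableAt.comp (f := fun w : V => (z, w)) (g := fun q : V × V => f q.1 q.2) w
    (h.diff z w hp) (by fun_prop)

theorem HH.scal_z {P : V → V → Prop} {s t : ℤ} {f : V → V → ℂ} (h : HH P s t f) {l : ℂ}
    (hl : l ≠ 0) (z w : V) : f (l • z) w = l ^ s * f z w := by
  simpa using h.scal l 1 z w hl one_ne_zero

theorem HH.scal_w {P : V → V → Prop} {s t : ℤ} {f : V → V → ℂ} (h : HH P s t f) {l : ℂ}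
    (hl : l ≠ 0) (z w : V) : f z (l • w) = l ^ t * f z w := by
  simpa using h.scal 1 l z w one_ne_zero hl

theorem hx_diff_vec {E : Type*} [NormedAddCommGroup E] [NormedSpace ℂ E] {f g : E → ℂ} {x : E}
    (hf : DifferentiableAt ℂ f x) (hg : DifferentiableAt ℂ g x) :
    DifferentiableAt ℂ (fun x => (![f x, g x] : V)) x := by
  refine differentiableAt_pi.2 fun k => ?_
  fin_cases k
  · simpa using hf
  · simpa using hg

variable {p a : ℕ} {D : FData p a}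

theorem HNorm.scal_z (N : HNorm D) {i : Fin 2} {z w : V} (y : V) {l : ℂ} (hl : l ≠ 0)
    (hz : z i ≠ 0) (hw : w ≠ 0) :
    N.n i (l • z) w y = ‖l‖ * N.n i z w ![l ^ (a : ℤ) * y 0, l ^ (-(p : ℤ)) * y 1] := by
  simpa using N.scal i z w y l 1 hl one_ne_zero hz hw

theorem HNorm.scal_w (N : HNorm D) {i : Fin 2} {z w : V} (y : V) {l : ℂ} (hl : l ≠ 0)
    (hz : z i ≠ 0) (hw : w ≠ 0) :
    N.n i z (l • w) y = ‖l‖ * N.n i z w ![y 0, l ^ ((a : ℤ) - p) * y 1] := by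
  simpa using N.scal i z w y 1 l one_ne_zero hl hz hw

theorem HNorm.cont_z (N : HNorm D) {i : Fin 2} {z w : V} {φ : V → V} (hφ : ContinuousAt φ z)
    (hz : z i ≠ 0) (hw : w ≠ 0) : ContinuousAt (fun z => N.n i z w (φ z)) z :=
  ContinuousAt.comp (f := fun z : V => (z, w, φ z))
    (g := fun q : V × V × V => N.n i q.1 q.2.1 q.2.2) (N.cont i z w (φ z) hz hw) (by fun_prop)

theorem HNorm.cont_w (N : HNorm D) {i : Fin 2} {z w : V} {φ : V → V} (hφ : ContinuousAt φ w)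
    (hz : z i ≠ 0) (hw : w ≠ 0) : ContinuousAt (fun w => N.n i z w (φ w)) w :=
  ContinuousAt.comp (f := fun w : V => (z, w, φ w))
    (g := fun q : V × V × V => N.n i q.1 q.2.1 q.2.2) (N.cont i z w (φ w) hz hw) (by fun_prop)

theorem HNorm.ne_of_pos (N : HNorm D) {i : Fin 2} {z w y : V} (hz : z i ≠ 0) (hw : w ≠ 0)
    (h : 0 < N.n i z w y) : y ≠ 0 := by
  rintro rfl
  have := N.smul i z w 0 0 hz hw
  rw [smul_zero, norm_zero, zero_mul] at this
  exact h.ne' this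

/-- The two triangle inequalities for `x = c • u + d • v`. -/
theorem HNorm.tri2 (N : HNorm D) {i : Fin 2} {z w x u v : V} {c d : ℂ} {S : ℝ} (hz : z i ≠ 0)
    (hw : w ≠ 0) (hx : x = c • u + d • v) (hS : ‖c‖ * N.n i z w u ≤ S) (r : ℝ) (hr : 0 ≤ r) :
    N.n i z w x * r ≤ S * r + ‖d‖ * (r * N.n i z w v) ∧
      ‖d‖ * (r * N.n i z w v) ≤ (N.n i z w x + S) * r := by
  have h1 := N.tri i z w (c • u) (d • v) hz hw
  have h2 := N.tri i z w x ((-c) • u) hz hw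
  rw [← hx, N.smul _ _ _ _ _ hz hw, N.smul _ _ _ _ _ hz hw] at h1
  rw [show x + (-c) • u = d • v by rw [hx, neg_smul]; abel, N.smul _ _ _ _ _ hz hw,
    N.smul _ _ _ _ _ hz hw, norm_neg] at h2
  constructor <;> nlinarith

end Vale.Agent.P296
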