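import Vale.Agent.P296.Api

namespace Vale.Agent.P296

open scoped Matrix
open Polynomial

namespace InterpX

/-- binary forms of degree `n` over `ℂ[X]` -/
def Frm (n : ℕ) (F : ℂ[X] → ℂ[X] → ℂ[X]) : Prop :=
  ∃ T : ℕ → ℂ[X], ∀ x y, F x y = ∑ k ∈ Finset.range (n + 1), T k * x ^ (n - k) * y ^ k

theorem Frm.add {n : ℕ} {F G : ℂ[X] → ℂ[X] → ℂ[X]} (hF : Frm n F) (hG : Frm n G) :
    Frm n fun x y => F x y + G x y := by
  obtain ⟨T, h⟩ := hF
  obtain ⟨T', h'⟩ := hG
  refine ⟨fun k => T k + T' k, fun x y => ?_⟩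
  simp only [h, h', ← Finset.sum_add_distrib]
  exact Finset.sum_congr rfl fun k _ => by ring

theorem Frm.mulx {n : ℕ} {F : ℂ[X] → ℂ[X] → ℂ[X]} (hF : Frm n F) (a : ℂ[X]) :
    Frm (n + 1) fun x y => a * x * F x y := by
  obtain ⟨T, h⟩ := hF
  refine ⟨fun k => if k ≤ n then a * T k else 0, fun x y => ?_⟩
  simp only [h]
  rw [Finset.sum_range_succ _ (n + 1), if_neg (by omega), Finset.mul_sum]
  simp only [zero_mul, add_zero]
  refine Finset.sum_congr rfl fun k hk => ?_
  have hk' : k ≤ n := Nat.lt_succ_iff.1 (Finset.mem_range.1 hk)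
  rw [if_pos hk', Nat.succ_sub hk', pow_succ]
  ring

theorem Frm.muly {n : ℕ} {F : ℂ[X] → ℂ[X] → ℂ[X]} (hF : Frm n F) (a : ℂ[X]) :
    Frm (n + 1) fun x y => a * y * F x y := by
  obtain ⟨T, h⟩ := hF
  refine ⟨fun k => if k = 0 then 0 else a * T (k - 1), fun x y => ?_⟩
  simp only [h]
  rw [Finset.sum_range_succ' _ (n + 1), Finset.mul_sum]
  simp only [if_true, zero_mul, add_zero, Nat.add_sub_cancel, Nat.succ_ne_zero, if_false,
    Nat.add_sub_add_right]
  exact Finset.sum_congr rfl fun k _ => by ring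

theorem Frm.lin {n : ℕ} {F : ℂ[X] → ℂ[X] → ℂ[X]} (hF : Frm n F) (a b : ℂ[X]) :
    Frm (n + 1) fun x y => (a * x + b * y) * F x y := by
  have := (hF.mulx a).add (hF.muly b)
  simpa only [add_mul] using this

theorem frm_pow (c a b : ℂ[X]) (n : ℕ) : Frm n fun x y => c * (a * x + b * y) ^ n := by
  induction n with
  | zero => exact ⟨fun _ => c, fun x y => by simp⟩
  | succ n ih =>
    have := ih.lin a b
    convert this using 3
    ring

theorem quad_dvd (a b c : ℂ) (h : b ^ 2 ≠ 4 * a * c) (q d : ℂ[X])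
    (hq : ∀ u, q.eval u = a + b * u + c * u ^ 2) (hd : ∀ u, q.eval u = 0 → d.eval u = 0) :
    q ∣ d := by
  by_cases hc : c = 0
  · have hb : b ≠ 0 := fun e => h (by simp [e, hc])
    have e : q = C b * (X - C (-a / b)) := Polynomial.funext fun u => by
      rw [hq, hc]; simp only [eval_mul, eval_C, eval_sub, eval_X]; field_simp; ring
    rw [e, (isUnit_C.2 (Ne.isUnit hb)).mul_left_dvd, dvd_iff_isRoot]
    apply hd
    rw [e]; simp
  · obtain ⟨s, hs⟩ := IsAlgClosed.exists_pow_nat_eq (b ^ 2 - 4 * a * c) two_pos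
    have hs0 : s ≠ 0 := fun e => h (by rw [e] at hs; linear_combination -hs)
    have e : q = C c * ((X - C ((-b + s) / (2 * c))) * (X - C ((-b - s) / (2 * c)))) :=
      Polynomial.funext fun u => by
        rw [hq]; simp only [eval_mul, eval_C, eval_sub, eval_X]; field_simp
        linear_combination hs
    rw [e, (isUnit_C.2 (Ne.isUnit hc)).mul_left_dvd]
    refine IsCoprime.mul_dvd (isCoprime_X_sub_C_of_isUnit_sub (Ne.isUnit ?_)) ?_ ?_
    · rw [← sub_div]
      exact div_ne_zero (fun x => hs0 (by linear_combination x / 2)) (mul_ne_zero two_ne_zero hc)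
    · rw [dvd_iff_isRoot]; apply hd; rw [e]; simp
    · rw [dvd_iff_isRoot]; apply hd; rw [e]; simp

theorem prop_of_cross {x y : V} (hy : y ≠ 0) (h : cross x y = 0) : ∃ c : ℂ, x = c • y := by
  unfold cross at h
  by_cases h0 : y 0 = 0
  · have h1 : y 1 ≠ 0 := fun e => hy (by ext k; fin_cases k <;> simp [h0, e])
    refine ⟨x 1 / y 1, ?_⟩
    ext k; fin_cases k
    · simp only [h0, mul_zero, sub_zero, mul_eq_zero, h1, or_false] at h
      simp [h, h0]
    · simp [h1]
  · refine ⟨x 0 / y 0, ?_⟩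
    ext k; fin_cases k
    · simp [h0]
    · simp only [Fin.mk_one, Pi.smul_apply, smul_eq_mul]
      field_simp
      linear_combination -h

theorem mulVec_ne {M : Matrix (Fin 2) (Fin 2) ℂ} (hM : M.det ≠ 0) {Z : V} (hZ : Z ≠ 0) :
    M *ᵥ Z ≠ 0 := fun h => hZ (Matrix.eq_zero_of_mulVec_eq_zero hM h)

theorem quad_cross {N : Fin 4 → Matrix (Fin 2) (Fin 2) ℂ} (hN : Nodal N) (i : Fin 2)
    {l l' : Fin 4} (h : l ≠ l') : ∃ a b c : ℂ, b ^ 2 ≠ 4 * a * c ∧
      ∀ u, cross (N l *ᵥ hv i u) (N l' *ᵥ hv i u) = a + b * u + c * u ^ 2 := by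
  have hd := hN.disc l l' h
  fin_cases i
  · refine ⟨_, _, _, hd, fun u => ?_⟩
    simp [cross, hv, Matrix.mulVec, dotProduct, Fin.sum_univ_two]
    ring
  · refine ⟨cross (N l *ᵥ ![0, 1]) (N l' *ᵥ ![0, 1]), _,
      cross (N l *ᵥ ![1, 0]) (N l' *ᵥ ![1, 0]), fun e => hd (by rw [e]; ring), fun u => ?_⟩
    simp [cross, hv, Matrix.mulVec, dotProduct, Fin.sum_univ_two]
    ring

theorem main {N : Fin 4 → Matrix (Fin 2) (Fin 2) ℂ} (hN : Nodal N) (i : Fin 2)
    (P : Fin 4 → Fin 2 → ℂ[X]) (hP : ∀ l k u, (P l k).eval u = (N l *ᵥ hv i u) k)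
    (S : Finset (Fin 4)) : ∀ (n : ℕ) (b : Fin 4 → ℂ[X]), S.card ≤ n + 1 →
      (∀ l ∈ S, ∀ l' ∈ S, l ≠ l' → ∀ (u c : ℂ), N l' *ᵥ hv i u = c • N l *ᵥ hv i u →
        (b l').eval u = c ^ n * (b l).eval u) →
      ∃ F, Frm n F ∧ ∀ l ∈ S, F (P l 0) (P l 1) = b l := by
  induction S using Finset.induction_on with
  | empty => exact fun n b _ _ => ⟨_, frm_pow 0 0 0 n, fun l hl => by simp at hl⟩
  | insert l1 S hl1 ih =>
    intro n b hc hb
    set m0 := (N l1)⁻¹ i 0
    set m1 := (N l1)⁻¹ i 1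
    have hL : ∀ u, m0 * (N l1 *ᵥ hv i u) 0 + m1 * (N l1 *ᵥ hv i u) 1 = 1 := by
      intro u
      have : ((N l1)⁻¹ *ᵥ (N l1 *ᵥ hv i u)) i = 1 := by
        rw [Matrix.mulVec_mulVec, Matrix.nonsing_inv_mul _ (Ne.isUnit (hN.det_ne l1)),
          Matrix.one_mulVec]
        simp [hv]
      rw [← this]
      generalize N l1 *ᵥ hv i u = y
      simp [Matrix.mulVec, dotProduct, Fin.sum_univ_two, m0, m1]
    have hL' : C m0 * P l1 0 + C m1 * P l1 1 = 1 := Polynomial.funext fun u => by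
      simp only [eval_add, eval_mul, eval_C, hP, eval_one, hL]
    rcases S.eq_empty_or_nonempty with rfl | hne
    · refine ⟨_, frm_pow (b l1) (C m0) (C m1) n, fun l hl => ?_⟩
      have : l = l1 := by simpa using hl
      rw [this, hL']; simp
    have hcard : 0 < S.card := hne.card_pos
    rw [Finset.card_insert_of_notMem hl1] at hc
    obtain ⟨n, rfl⟩ : ∃ m, n = m + 1 := ⟨n - 1, by omega⟩
    have hq : ∀ l u, (P l1 1 * P l 0 + -P l1 0 * P l 1).eval u =
        cross (N l *ᵥ hv i u) (N l1 *ᵥ hv i u) := fun l u => by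
      simp only [eval_add, eval_mul, eval_neg, hP, cross]; ring
    have hd : ∀ l u, (b l - b l1 * (C m0 * P l 0 + C m1 * P l 1) ^ (n + 1)).eval u =
        (b l).eval u - (b l1).eval u *
          (m0 * (N l *ᵥ hv i u) 0 + m1 * (N l *ᵥ hv i u) 1) ^ (n + 1) := fun l u => by
      simp only [eval_sub, eval_add, eval_mul, eval_pow, eval_C, hP]
    have hdiv : ∀ l, ∃ b' : ℂ[X], l ∈ S → b l - b l1 * (C m0 * P l 0 + C m1 * P l 1) ^ (n + 1) =
        (P l1 1 * P l 0 + -P l1 0 * P l 1) * b' := by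
      intro l
      by_cases hl : l ∈ S
      · have hne : l ≠ l1 := fun e => hl1 (e ▸ hl)
        obtain ⟨a, b0, c, h1, h2⟩ := quad_cross hN i hne
        obtain ⟨b', h⟩ := quad_dvd a b0 c h1 (P l1 1 * P l 0 + -P l1 0 * P l 1)
          (b l - b l1 * (C m0 * P l 0 + C m1 * P l 1) ^ (n + 1))
          (fun u => by rw [hq, h2]) (fun u hu => by
            rw [hq] at hu
            obtain ⟨c0, h0⟩ := prop_of_cross (mulVec_ne (hN.det_ne l1) (hv_ne i u)) hu
            rw [hd, hb l1 (Finset.mem_insert_self _ _) l (Finset.mem_insert_of_mem hl) hne.symm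
              u c0 h0, h0]
            have : m0 * (c0 • N l1 *ᵥ hv i u) 0 + m1 * (c0 • N l1 *ᵥ hv i u) 1 = c0 := by
              simp only [Pi.smul_apply, smul_eq_mul]
              linear_combination c0 * hL u
            rw [this]; ring)
        exact ⟨b', fun _ => h⟩
      · exact ⟨0, fun h => absurd h hl⟩
    choose b' hb' using hdiv
    obtain ⟨F, hF, hF'⟩ := ih n b' (by omega) (by
      intro l hl l' hl' hne u c h
      have e1 := congrArg (eval u) (hb' l hl)
      have e2 := congrArg (eval u) (hb' l' hl')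
      rw [hd, eval_mul, hq] at e1 e2
      have e3 := hb l (Finset.mem_insert_of_mem hl) l' (Finset.mem_insert_of_mem hl') hne u c h
      have c0 : c ≠ 0 := by
        rintro rfl
        exact mulVec_ne (hN.det_ne l') (hv_ne i u) (by rw [h, zero_smul])
      have q0 : cross (N l *ᵥ hv i u) (N l1 *ᵥ hv i u) ≠ 0 :=
        hN.triple l l' l1 _ hne (fun e => hl1 (e ▸ hl)) (fun e => hl1 (e ▸ hl')) (hv_ne i u)
          (by rw [h]; simp only [cross, Pi.smul_apply, smul_eq_mul]; ring)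
      rw [h] at e2
      have e4 : cross (c • N l *ᵥ hv i u) (N l1 *ᵥ hv i u) =
          c * cross (N l *ᵥ hv i u) (N l1 *ᵥ hv i u) := by
        simp only [cross, Pi.smul_apply, smul_eq_mul]; ring
      have e5 : m0 * (c • N l *ᵥ hv i u) 0 + m1 * (c • N l *ᵥ hv i u) 1 =
          c * (m0 * (N l *ᵥ hv i u) 0 + m1 * (N l *ᵥ hv i u) 1) := by
        simp only [Pi.smul_apply, smul_eq_mul]; ring
      rw [e4, e5, mul_pow, e3] at e2
      apply mul_left_cancel₀ (mul_ne_zero c0 q0)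
      linear_combination c ^ (n + 1) * e1 - e2)
    refine ⟨_, (frm_pow (b l1) (C m0) (C m1) (n + 1)).add (hF.lin (P l1 1) (-P l1 0)),
      fun l hl => ?_⟩
    rcases Finset.mem_insert.1 hl with rfl | hl
    · simp only [hL']; ring
    · simp only [hF' l hl]
      linear_combination -hb' l hl

end InterpX

/-- A binary form of degree 16 with coefficients in `ℂ[u]` and value `1` at the four vectors
`N l *ᵥ hv i u`. -/
theorem interp {N : Fin 4 → Matrix (Fin 2) (Fin 2) ℂ} (hN : Nodal N) (i : Fin 2) :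
    ∃ T : ℕ → Polynomial ℂ, ∀ l (u : ℂ), ∑ k ∈ Finset.range 17,
      (T k).eval u * (N l *ᵥ hv i u) 0 ^ (16 - k) * (N l *ᵥ hv i u) 1 ^ k = 1 := by
  have hP : ∀ l k, ∃ P : ℂ[X], ∀ u, P.eval u = (N l *ᵥ hv i u) k := by
    intro l k
    fin_cases i
    · exact ⟨C (N l k 0) + C (N l k 1) * X, fun u => by
        simp [hv, Matrix.mulVec, dotProduct, Fin.sum_univ_two]⟩
    · exact ⟨C (N l k 0) * X + C (N l k 1), fun u => by
        simp [hv, Matrix.mulVec, dotProduct, Fin.sum_univ_two]⟩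
  choose P hP using hP
  obtain ⟨F, ⟨T, hT⟩, hF⟩ := InterpX.main hN i P hP Finset.univ 16 (fun _ => 1) (by simp)
    (fun l _ l' _ hne u c h => by rw [hN.root l l' _ c hne (hv_ne i u) h]; simp)
  refine ⟨T, fun l u => ?_⟩
  have := congrArg (eval u) ((hT _ _).symm.trans (hF l (Finset.mem_univ l)))
  simpa only [eval_finsetSum, eval_mul, eval_pow, hP, eval_one] using this

end Vale.Agent.P296
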