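import Vale.Agent.P296.Curv

namespace Vale.Agent.P296

open scoped Matrix ComplexOrder ContDiff Topology

theorem second_test {g g' : ℝ → ℝ} {c : ℝ} (hmax : IsLocalMax g 0)
    (h1 : ∀ᶠ s in 𝓝 (0 : ℝ), HasDerivAt g (g' s) s) (h2 : HasDerivAt g' c 0) : c ≤ 0 := by
  by_contra hc
  push Not at hc
  have e : deriv g =ᶠ[𝓝 0] g' := h1.mono fun s hs => hs.deriv
  have e2 : deriv (deriv g) 0 = c := by rw [e.deriv_eq, h2.deriv]
  have hmin : IsLocalMin g 0 := isLocalMin_of_deriv_deriv_pos (by rw [e2]; exact hc)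
    hmax.deriv_eq_zero h1.self_of_nhds.continuousAt
  have hcst : g =ᶠ[𝓝 0] fun _ => g 0 := by
    filter_upwards [hmax, hmin] with s a b using le_antisymm a b
  have : deriv g =ᶠ[𝓝 0] fun _ => 0 := by
    filter_upwards [hcst.eventually_nhds] with s hs
    rw [Filter.EventuallyEq.deriv_eq hs]; simp
  rw [this.deriv_eq] at e2
  simp at e2
  exact hc.ne e2

/-- The 2-jet at `0` of a complex valued function of a real variable. -/
def J2 (f : ℝ → ℂ) (c₀ c₁ c₂ : ℂ) : Prop :=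
  f 0 = c₀ ∧ ∃ f' : ℝ → ℂ, (∀ᶠ s in 𝓝 (0 : ℝ), HasDerivAt f (f' s) s) ∧ f' 0 = c₁ ∧
    HasDerivAt f' c₂ 0

theorem J2.mul {f g : ℝ → ℂ} {a₀ a₁ a₂ b₀ b₁ b₂ : ℂ} (hf : J2 f a₀ a₁ a₂) (hg : J2 g b₀ b₁ b₂) :
    J2 (fun s => f s * g s) (a₀ * b₀) (a₁ * b₀ + a₀ * b₁) (a₂ * b₀ + 2 * a₁ * b₁ + a₀ * b₂) := by
  obtain ⟨f0, f', hf1, hf2, hf3⟩ := hf
  obtain ⟨g0, g', hg1, hg2, hg3⟩ := hg
  refine ⟨by simp only [f0, g0], fun s => f' s * g s + f s * g' s, ?_, by simp only [f0, g0, hf2, hg2], ?_⟩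
  · filter_upwards [hf1, hg1] with s a b using a.fun_mul b
  · have := (hf3.fun_mul hg1.self_of_nhds).fun_add (hf1.self_of_nhds.fun_mul hg3)
    rw [f0, g0, hf2, hg2] at this
    exact this.congr_deriv (by ring)

theorem J2.add {f g : ℝ → ℂ} {a₀ a₁ a₂ b₀ b₁ b₂ : ℂ} (hf : J2 f a₀ a₁ a₂) (hg : J2 g b₀ b₁ b₂) :
    J2 (fun s => f s + g s) (a₀ + b₀) (a₁ + b₁) (a₂ + b₂) := by
  obtain ⟨f0, f', hf1, hf2, hf3⟩ := hf
  obtain ⟨g0, g', hg1, hg2, hg3⟩ := hg
  refine ⟨by simp only [f0, g0], fun s => f' s + g' s, ?_, by simp only [hf2, hg2], hf3.fun_add hg3⟩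
  filter_upwards [hf1, hg1] with s a b using a.fun_add b

theorem J2.lin (a b : ℂ) : J2 (fun s => a + s * b) a b 0 := by
  refine ⟨by simp, fun _ => b, Filter.Eventually.of_forall fun s => ?_, rfl, hasDerivAt_const _ _⟩
  have := ((Complex.ofRealCLM.hasDerivAt (x := s)).mul_const b).const_add a
  simpa using this

theorem J2.sum {ι : Type*} (T : Finset ι) {f : ι → ℝ → ℂ} {a₀ a₁ a₂ : ι → ℂ}
    (h : ∀ i, J2 (f i) (a₀ i) (a₁ i) (a₂ i)) :
    J2 (fun s => ∑ i ∈ T, f i s) (∑ i ∈ T, a₀ i) (∑ i ∈ T, a₁ i) (∑ i ∈ T, a₂ i) := by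
  classical
  induction T using Finset.induction_on with
  | empty => simpa using J2.lin 0 0
  | insert i T hi ih => simpa only [Finset.sum_insert hi] using (h i).add ih

theorem J2.test {f : ℝ → ℂ} {a₀ a₁ a₂ : ℂ} (hf : J2 f a₀ a₁ a₂)
    (hm : IsLocalMax (fun s => (f s).re) 0) : a₂.re ≤ 0 := by
  obtain ⟨-, f', hf1, -, hf3⟩ := hf
  refine second_test (g' := fun s => (f' s).re) hm ?_ ?_
  · filter_upwards [hf1] with s hs
    exact Complex.reCLM.hasFDerivAt.comp_hasDerivAt s hs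
  · exact Complex.reCLM.hasFDerivAt.comp_hasDerivAt 0 hf3

theorem J2.smooth {f : ℂ × ℂ → ℂ} (hf : ContDiff ℝ ∞ f) (x η : ℂ × ℂ) :
    J2 (fun s => f (x + s • η)) (f x) (fderiv ℝ f x η) (fderiv ℝ (fderiv ℝ f) x η η) := by
  have h1 : ContDiff ℝ ∞ (fderiv ℝ f) := hf.fderiv_right (m := ∞) (by simp)
  have hl : ∀ s : ℝ, HasDerivAt (fun s : ℝ => x + s • η) η s := fun s => by
    simpa using ((hasDerivAt_id s).smul_const η).const_add x
  refine ⟨by simp, fun s => fderiv ℝ f (x + s • η) η, Filter.Eventually.of_forall fun s => ?_,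
    by simp, ?_⟩
  · exact ((hf.differentiable (by simp)) _).hasFDerivAt.comp_hasDerivAt s (hl s)
  · have := ((h1.differentiable (by simp)) (x + (0 : ℝ) • η)).hasFDerivAt.comp_hasDerivAt 0 (hl 0)
    have h2 := this.clm_apply (hasDerivAt_const (0 : ℝ) η)
    simpa using h2

theorem J2.anal {P : ℂ → ℂ} {t₀ : ℂ} (hP : AnalyticAt ℂ P t₀) (d : ℂ) :
    J2 (fun s => P (t₀ + s * d)) (P t₀) (deriv P t₀ * d) (deriv (deriv P) t₀ * d * d) := by
  have hl : ∀ u : ℂ, HasDerivAt (fun u : ℂ => t₀ + u * d) d u := fun u => by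
    simpa using ((hasDerivAt_id u).mul_const d).const_add t₀
  have hc : Filter.Tendsto (fun s : ℝ => t₀ + s * d) (𝓝 0) (𝓝 t₀) := by
    have : Continuous (fun s : ℝ => t₀ + s * d) := by fun_prop
    simpa using this.tendsto 0
  refine ⟨by simp, fun s => deriv P (t₀ + s * d) * d, ?_, by simp, ?_⟩
  · filter_upwards [hc.eventually hP.eventually_analyticAt] with s hs
    exact (hs.differentiableAt.hasDerivAt.comp (s : ℂ) (hl s)).comp_ofReal
  · have h0 : AnalyticAt ℂ (deriv P) (t₀ + ((0 : ℝ) : ℂ) * d) := by simpa using hP.deriv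
    have := ((h0.differentiableAt.hasDerivAt.comp ((0 : ℝ) : ℂ) (hl _)).mul_const d).comp_ofReal
    simpa using this

theorem delbar_del {f : ℂ × ℂ → ℂ} (hf : ContDiff ℝ ∞ f) (ξ x : ℂ × ℂ) :
    4 * delbar ξ (del ξ f) x = fderiv ℝ (fderiv ℝ f) x ξ ξ +
      fderiv ℝ (fderiv ℝ f) x (Complex.I • ξ) (Complex.I • ξ) := by
  have h1 : ContDiff ℝ ∞ (fderiv ℝ f) := hf.fderiv_right (m := ∞) (by simp)
  have hd := ((h1.differentiable (by simp)) x).hasFDerivAt
  have hsym := (hf.contDiffAt (x := x)).isSymmSndFDerivAt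
    (by simp only [minSmoothness_of_isRCLikeNormedField]; exact ENat.LEInfty.out)
  have ha : ∀ η, HasFDerivAt (fun y => fderiv ℝ f y η)
      ((fderiv ℝ (fderiv ℝ f) x).flip η) x := fun η => by
    have := hd.clm_apply (hasFDerivAt_const η x)
    simpa using this
  have hb := (((ha ξ).sub ((ha (Complex.I • ξ)).const_mul Complex.I)).mul_const (2 : ℂ)⁻¹).fderiv
  have he : del ξ f = fun y => (fderiv ℝ f y ξ - Complex.I * fderiv ℝ f y (Complex.I • ξ)) *
      (2 : ℂ)⁻¹ := by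
    funext y; simp [del, div_eq_mul_inv]
  unfold delbar
  rw [he]
  erw [hb]
  simp only [ContinuousLinearMap.smul_apply, ContinuousLinearMap.sub_apply,
    ContinuousLinearMap.flip_apply, smul_eq_mul]
  rw [hsym.eq (Complex.I • ξ) ξ]
  linear_combination (-(fderiv ℝ (fderiv ℝ f) x (Complex.I • ξ) (Complex.I • ξ))) * Complex.I_mul_I

theorem star_dot_star {r : ℕ} (v φ : Fin r → ℂ) : star v ⬝ᵥ star φ = star (φ ⬝ᵥ v) := by
  simp [dotProduct, mul_comm]

theorem dual_le {r : ℕ} {H : Matrix (Fin r) (Fin r) ℂ} (hH : H.PosDef) (φ v : Fin r → ℂ) :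
    (2 * (φ ⬝ᵥ v) - star v ⬝ᵥ H *ᵥ v).re ≤ (φ ⬝ᵥ H⁻¹ *ᵥ star φ).re := by
  have hu : IsUnit H.det := hH.det_pos.ne'.isUnit
  set u := H⁻¹ *ᵥ star φ with hu'
  have h1 : H *ᵥ u = star φ := by
    rw [hu', Matrix.mulVec_mulVec, Matrix.mul_nonsing_inv _ hu, Matrix.one_mulVec]
  have h2 : star u ᵥ* H = φ := by
    have := congrArg star h1
    rwa [Matrix.star_mulVec, hH.isHermitian.eq, star_star] at this
  have h3 := hH.posSemidef.dotProduct_mulVec_nonneg (v - u)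
  have h4 : star (v - u) ⬝ᵥ H *ᵥ (v - u) =
      star v ⬝ᵥ H *ᵥ v - star (φ ⬝ᵥ v) - φ ⬝ᵥ v + φ ⬝ᵥ u := by
    rw [star_sub, Matrix.mulVec_sub, sub_dotProduct, dotProduct_sub, dotProduct_sub, h1,
      Matrix.dotProduct_mulVec (star u), h2, star_dot_star, ← h1,
      Matrix.dotProduct_mulVec (star u), h2]
    ring
  rw [h4] at h3
  have h5 := (Complex.nonneg_iff.1 h3).1
  simp only [Complex.add_re, Complex.sub_re, Complex.star_def, Complex.conj_re] at h5
  simp only [Complex.sub_re, Complex.mul_re, Complex.re_ofNat, Complex.im_ofNat]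
  linarith

/-- The dual norm of a holomorphic covector along a complex line has no local maximum. -/
theorem no_local_max {r : ℕ} (H : ℂ × ℂ → Matrix (Fin r) (Fin r) ℂ)
    (hs : ∀ a b, ContDiff ℝ ∞ (fun x => H x a b)) (hp : ∀ x, (H x).PosDef) (x₀ ξ : ℂ × ℂ)
    (t₀ : ℂ) (hG : ∀ v : Fin r → ℂ, v ≠ 0 →
      0 < (star v ⬝ᵥ (H (x₀ + t₀ • ξ) * curv H ξ (x₀ + t₀ • ξ)) *ᵥ v).re)
    (φ : ℂ → Fin r → ℂ) (hφ : AnalyticAt ℂ φ t₀) (h0 : φ t₀ ≠ 0) :
    ¬ IsLocalMax (fun t => (φ t ⬝ᵥ (H (x₀ + t • ξ))⁻¹ *ᵥ star (φ t)).re) t₀ := by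
  intro hmax
  set x := x₀ + t₀ • ξ with hx
  have hu : IsUnit (H x).det := (hp x).det_pos.ne'.isUnit
  set A : Matrix (Fin r) (Fin r) ℂ := Matrix.of fun a b => del ξ (fun y => H y a b) x with hA
  set B : Matrix (Fin r) (Fin r) ℂ := Matrix.of fun a b => delbar ξ (fun y => H y a b) x with hB
  set C : Matrix (Fin r) (Fin r) ℂ :=
    Matrix.of fun a b => delbar ξ (del ξ (fun y => H y a b)) x with hC
  set v₀ := (H x)⁻¹ *ᵥ star (φ t₀) with hv₀
  set v₁ := -((H x)⁻¹ *ᵥ (A *ᵥ v₀)) with hv₁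
  have h1 : H x *ᵥ v₀ = star (φ t₀) := by
    rw [hv₀, Matrix.mulVec_mulVec, Matrix.mul_nonsing_inv _ hu, Matrix.one_mulVec]
  have h2 : H x *ᵥ v₁ = -(A *ᵥ v₀) := by
    rw [hv₁, Matrix.mulVec_neg, Matrix.mulVec_mulVec, Matrix.mul_nonsing_inv _ hu,
      Matrix.one_mulVec]
  have hv0 : v₀ ≠ 0 := fun h => h0 (by
    rw [h, Matrix.mulVec_zero] at h1
    simpa using congrArg star h1.symm)
  have hpos := hG v₀ hv0
  rw [mul_curv H hs hp, ← hA, ← hB, ← hC] at hpos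
  let v : ℂ → Fin r → ℂ := fun t => v₀ + (t - t₀) • v₁
  let P : ℂ → ℂ := fun t => 2 * (φ t ⬝ᵥ v t)
  have hP : AnalyticAt ℂ P t₀ := by
    refine analyticAt_const.mul ?_
    simp only [dotProduct]
    refine Finset.analyticAt_fun_sum _ fun a _ => (analyticAt_pi_iff.1 hφ a).mul ?_
    simp only [v, Pi.add_apply, Pi.smul_apply, smul_eq_mul]
    fun_prop
  let ψ : ℂ → ℂ := fun t => P t - star (v t) ⬝ᵥ H (x₀ + t • ξ) *ᵥ v t
  have hψ : IsLocalMax (fun t => (ψ t).re) t₀ := by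
    filter_upwards [hmax] with t ht
    refine (dual_le (hp _) (φ t) (v t)).trans (ht.trans (le_of_eq ?_))
    have e : v t₀ = v₀ := by simp [v]
    simp only [ψ, P, e, ← hx, ← hv₀, h1, star_dot_star, Complex.sub_re, Complex.mul_re,
      Complex.re_ofNat, Complex.im_ofNat, Complex.star_def, Complex.conj_re]
    ring
  have key : ∀ d : ℂ, (deriv (deriv P) t₀ * d * d - ∑ a, ∑ b,
      (star (v₀ a) * fderiv ℝ (fderiv ℝ fun y => H y a b) x (d • ξ) (d • ξ) * v₀ b +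
        2 * (star d * star (v₁ a)) * fderiv ℝ (fun y => H y a b) x (d • ξ) * v₀ b +
        2 * star (v₀ a) * fderiv ℝ (fun y => H y a b) x (d • ξ) * (d * v₁ b) +
        2 * (star d * star (v₁ a)) * H x a b * (d * v₁ b))).re ≤ 0 := by
    intro d
    have hj := (J2.anal hP d).add ((J2.lin (-1) 0).mul (J2.sum Finset.univ fun a =>
      J2.sum Finset.univ fun b => ((J2.lin (star (v₀ a)) (star d * star (v₁ a))).mul
        (J2.smooth (hs a b) x (d • ξ))).mul (J2.lin (v₀ b) (d * v₁ b))))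
    have hc : Filter.Tendsto (fun s : ℝ => t₀ + s * d) (𝓝 0) (𝓝 t₀) := by
      have : Continuous (fun s : ℝ => t₀ + s * d) := by fun_prop
      simpa using this.tendsto 0
    have ht := hj.test (by
      have e : ∀ s : ℝ, ψ (t₀ + s * d) = P (t₀ + s * d) + (-1 + (s : ℂ) * 0) * ∑ a, ∑ b,
          (star (v₀ a) + s * (star d * star (v₁ a))) * H (x + s • d • ξ) a b *
            (v₀ b + s * (d * v₁ b)) := by
        intro s
        have e1 : x₀ + (t₀ + s * d) • ξ = x + s • d • ξ := by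
          rw [hx, add_smul, add_assoc, mul_smul, Complex.coe_smul]
        simp only [ψ, e1, dotProduct, Matrix.mulVec, v, Pi.add_apply, Pi.smul_apply, smul_eq_mul,
          Pi.star_apply, add_sub_cancel_left, star_add, star_mul', Finset.mul_sum,
          Complex.star_def, Complex.conj_ofReal, mul_zero, add_zero, sub_eq_add_neg,
          ← Finset.sum_neg_distrib]
        congr 1
        refine Finset.sum_congr rfl fun a _ => Finset.sum_congr rfl fun b _ => ?_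
        simp only [map_add, map_neg, map_mul, Complex.conj_ofReal]
        ring
      have hm : IsLocalMax (fun s : ℝ => (ψ (t₀ + s * d)).re) 0 := by
        filter_upwards [hc.eventually hψ] with s hs
        simpa using hs
      simpa only [e] using hm)
    refine le_of_eq_of_le (congrArg Complex.re ?_) ht
    simp only [zero_mul, mul_zero, zero_add, add_zero, neg_mul, one_mul, sub_eq_add_neg]
    congr 2
    refine Finset.sum_congr rfl fun a _ => Finset.sum_congr rfl fun b _ => ?_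
    ring
  have k := add_nonpos (key 1) (key Complex.I)
  rw [← Complex.add_re] at k
  have e : star v₀ ⬝ᵥ (-C + B * (H x)⁻¹ * A) *ᵥ v₀ = -(star v₀ ⬝ᵥ C *ᵥ v₀ +
      star v₁ ⬝ᵥ A *ᵥ v₀ + star v₀ ⬝ᵥ B *ᵥ v₁ + star v₁ ⬝ᵥ H x *ᵥ v₁) := by
    rw [h2, hv₁, Matrix.add_mulVec, Matrix.neg_mulVec, ← Matrix.mulVec_mulVec,
      ← Matrix.mulVec_mulVec]
    simp only [dotProduct_add, dotProduct_neg, Matrix.mulVec_neg]
    ring
  rw [e] at hpos
  refine absurd k (not_le.2 (lt_of_lt_of_eq (mul_pos (by norm_num : (0 : ℝ) < 4) hpos) ?_))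
  rw [← Complex.re_ofReal_mul]
  refine congrArg Complex.re ?_
  have e4 : ∀ a b, fderiv ℝ (fderiv ℝ fun y => H y a b) x ξ ξ = 4 * C a b -
      fderiv ℝ (fderiv ℝ fun y => H y a b) x (Complex.I • ξ) (Complex.I • ξ) := fun a b => by
    rw [hC, Matrix.of_apply, delbar_del (hs a b)]; ring
  simp only [one_smul, e4, dotProduct, Matrix.mulVec, Finset.mul_sum, ← Finset.sum_add_distrib,
    Pi.star_apply, hA, hB, Matrix.of_apply, del, delbar, star_one, Complex.star_def,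
    Complex.conj_I, Complex.ofReal_ofNat, mul_neg, ← Finset.sum_neg_distrib]
  have e5 : ∀ X Y Z W : ℂ, Z = -(X + Y) → Z = W * 1 * 1 - X + (W * Complex.I * Complex.I - Y) := by
    intro X Y Z W h; rw [h]; linear_combination (-W) * Complex.I_mul_I
  refine e5 _ _ _ _ ?_
  rw [← Finset.sum_add_distrib, ← Finset.sum_neg_distrib]
  refine Finset.sum_congr rfl fun a _ => ?_
  rw [← Finset.sum_add_distrib, ← Finset.sum_neg_distrib]
  refine Finset.sum_congr rfl fun b _ => ?_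
  linear_combination (-2 * (starRingEnd ℂ) (v₁ a) * H x a b * v₁ b) * Complex.I_mul_I

end Vale.Agent.P296
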