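import Vale.Agent.P296.Api

namespace Vale.Agent.P296

open scoped Matrix Pointwise

/-- All exponents of `f` satisfy `P`. -/
def Sup (P : ℤ × ℤ → Prop) (f : R) : Prop := ∀ m ∈ f.coeff.support, P m

theorem Sup.zero (P : ℤ × ℤ → Prop) : Sup P 0 := fun m hm => by simp at hm

theorem Sup.single {P : ℤ × ℤ → Prop} {m : ℤ × ℤ} (h : P m) (c : ℂ) :
    Sup P (AddMonoidAlgebra.single m c) := fun m' hm => by
  have := Finsupp.support_single_subset hm
  rw [Finset.mem_singleton] at this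
  exact this ▸ h

theorem Sup.add {P : ℤ × ℤ → Prop} {f g : R} (hf : Sup P f) (hg : Sup P g) : Sup P (f + g) :=
  fun m hm => by
    rcases Finset.mem_union.1 (Finsupp.support_add hm) with h | h
    exacts [hf m h, hg m h]

theorem Sup.smul {P : ℤ × ℤ → Prop} {f : R} (c : ℂ) (hf : Sup P f) : Sup P (c • f) :=
  fun m hm => hf m (Finsupp.support_smul hm)

theorem Sup.neg {P : ℤ × ℤ → Prop} {f : R} (hf : Sup P f) : Sup P (-f) := by
  simpa using hf.smul (-1)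

theorem Sup.mul {P Q S : ℤ × ℤ → Prop} {f g : R} (hf : Sup P f) (hg : Sup Q g)
    (h : ∀ a b, P a → Q b → S (a + b)) : Sup S (f * g) := fun m hm => by
  obtain ⟨a, ha, b, hb, rfl⟩ :=
    Finset.mem_add.1 (AddMonoidAlgebra.support_coeff_mul_subset f g hm)
  exact h a b (hf a ha) (hg b hb)

theorem Sup.imp {P Q : ℤ × ℤ → Prop} {f : R} (hf : Sup P f) (h : ∀ a, P a → Q a) : Sup Q f :=
  fun m hm => h m (hf m hm)

theorem Sup.split (f : R) (P : ℤ × ℤ → Prop) : ∃ f₀ f₁ : R, f = f₀ + f₁ ∧ Sup P f₀ ∧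
    Sup (fun m => ¬ P m) f₁ ∧ ∀ Q, Sup Q f → Sup Q f₀ ∧ Sup Q f₁ := by
  classical
  refine ⟨.ofCoeff (f.coeff.filter P), .ofCoeff (f.coeff.filter fun m => ¬ P m), ?_, ?_, ?_, ?_⟩
  · rw [← AddMonoidAlgebra.ofCoeff_add, Finsupp.filter_pos_add_filter_neg]
  · intro m hm
    exact (Finset.mem_filter.1 (by simpa only [Finsupp.support_filter] using hm)).2
  · intro m hm
    have : m ∈ f.coeff.support.filter fun m => ¬ P m := by
      simpa only [Finsupp.support_filter] using hm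
    exact (Finset.mem_filter.1 this).2
  · intro Q hQ
    exact ⟨fun m hm => hQ m (Finset.mem_filter.1 (by simpa only [Finsupp.support_filter] using hm)).1,
      fun m hm => hQ m (Finset.mem_filter.1 (by simpa only [Finsupp.support_filter] using hm)).1⟩

theorem ZR.zero (i : Fin 2) (s : ℤ) : ZR i s 0 := Sup.zero _
theorem ZR.natCast (i : Fin 2) (n : ℕ) : ZR i 0 (n : R) := by
  rw [AddMonoidAlgebra.natCast_def]
  exact Sup.single (by split_ifs <;> simp) _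
theorem ZR.one (i : Fin 2) : ZR i 0 1 := by simpa using ZR.natCast i 1
theorem ZR.add {i : Fin 2} {s : ℤ} {f g : R} (hf : ZR i s f) (hg : ZR i s g) :
    ZR i s (f + g) := Sup.add hf hg
theorem ZR.neg {i : Fin 2} {s : ℤ} {f : R} (hf : ZR i s f) : ZR i s (-f) := Sup.neg hf
theorem ZR.sub {i : Fin 2} {s : ℤ} {f g : R} (hf : ZR i s f) (hg : ZR i s g) :
    ZR i s (f - g) := by rw [sub_eq_add_neg]; exact hf.add hg.neg
theorem ZR.smul {i : Fin 2} {s : ℤ} {f : R} (c : ℂ) (hf : ZR i s f) : ZR i s (c • f) :=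
  Sup.smul c hf
theorem ZR.mul {i : Fin 2} {s s' : ℤ} {f g : R} (hf : ZR i s f) (hg : ZR i s' g) :
    ZR i (s + s') (f * g) := Sup.mul hf hg fun a b ha hb => by
  split_ifs at ha hb ⊢ <;> simp only [Prod.fst_add, Prod.snd_add] <;> omega
theorem ZR.of_eq {i : Fin 2} {s s' : ℤ} {f : R} (hf : ZR i s f) (h : s = s') :
    ZR i s' f := h ▸ hf
theorem ZR.pow {i : Fin 2} {s : ℤ} {f : R} (hf : ZR i s f) (n : ℕ) :
    ZR i (n * s) (f ^ n) := by
  induction n with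
  | zero => simpa using ZR.one i
  | succ n ih => rw [pow_succ]; exact (ih.mul hf).of_eq (by push_cast; ring)
theorem ZR.sum {ι : Type*} {i : Fin 2} {s : ℤ} (t : Finset ι) {f : ι → R}
    (hf : ∀ k ∈ t, ZR i s (f k)) : ZR i s (∑ k ∈ t, f k) :=
  Finset.sum_induction f (ZR i s) (fun _ _ => ZR.add) (ZR.zero i s) hf
theorem ZR.mono_le {i : Fin 2} {s s' : ℤ} {f : R} (hf : ZR i s f) (h : s ≤ s') :
    ZR i s' f := Sup.imp hf fun a ha => by
  split_ifs at ha ⊢ <;> omega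
theorem ZR.zero_any {s : ℤ} {f : R} (hf : ZR 0 s f) (s' : ℤ) : ZR 0 s' f :=
  Sup.imp hf fun a ha => by simpa using ha
theorem ZR.monomial (i : Fin 2) {s : ℤ} (a b : ℤ) (h0 : i = 0 → 0 ≤ a) (h1 : i = 1 → a ≤ s) :
    ZR i s (mono a b) := Sup.single (by
  split_ifs with h
  · exact h0 h
  · exact h1 (by omega)) _
/-- Vanishing of `H¹(P¹, O(s))` for `s ≥ -1`. -/
theorem ZR.split (f : R) {s : ℤ} (hs : -1 ≤ s) : ∃ f₀ f₁ : R, f = f₀ + f₁ ∧ ZR 0 s f₀ ∧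
    ZR 1 s f₁ ∧ ∀ j t, WR j t f → WR j t f₀ ∧ WR j t f₁ := by
  obtain ⟨f₀, f₁, h, h0, h1, h2⟩ := Sup.split f (fun m => 0 ≤ m.1)
  refine ⟨f₀, f₁, h, Sup.imp h0 fun a ha => by simpa using ha, Sup.imp h1 fun a ha => ?_,
    fun j t hf => h2 _ hf⟩
  simp only [Fin.isValue, one_ne_zero, if_false]
  omega

theorem WR.zero (i : Fin 2) (s : ℤ) : WR i s 0 := Sup.zero _
theorem WR.natCast (i : Fin 2) (n : ℕ) : WR i 0 (n : R) := by
  rw [AddMonoidAlgebra.natCast_def]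
  exact Sup.single (by split_ifs <;> simp) _
theorem WR.one (i : Fin 2) : WR i 0 1 := by simpa using WR.natCast i 1
theorem WR.add {i : Fin 2} {s : ℤ} {f g : R} (hf : WR i s f) (hg : WR i s g) :
    WR i s (f + g) := Sup.add hf hg
theorem WR.neg {i : Fin 2} {s : ℤ} {f : R} (hf : WR i s f) : WR i s (-f) := Sup.neg hf
theorem WR.sub {i : Fin 2} {s : ℤ} {f g : R} (hf : WR i s f) (hg : WR i s g) :
    WR i s (f - g) := by rw [sub_eq_add_neg]; exact hf.add hg.neg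
theorem WR.smul {i : Fin 2} {s : ℤ} {f : R} (c : ℂ) (hf : WR i s f) : WR i s (c • f) :=
  Sup.smul c hf
theorem WR.mul {i : Fin 2} {s s' : ℤ} {f g : R} (hf : WR i s f) (hg : WR i s' g) :
    WR i (s + s') (f * g) := Sup.mul hf hg fun a b ha hb => by
  split_ifs at ha hb ⊢ <;> simp only [Prod.fst_add, Prod.snd_add] <;> omega
theorem WR.of_eq {i : Fin 2} {s s' : ℤ} {f : R} (hf : WR i s f) (h : s = s') :
    WR i s' f := h ▸ hf
theorem WR.pow {i : Fin 2} {s : ℤ} {f : R} (hf : WR i s f) (n : ℕ) :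
    WR i (n * s) (f ^ n) := by
  induction n with
  | zero => simpa using WR.one i
  | succ n ih => rw [pow_succ]; exact (ih.mul hf).of_eq (by push_cast; ring)
theorem WR.sum {ι : Type*} {i : Fin 2} {s : ℤ} (t : Finset ι) {f : ι → R}
    (hf : ∀ k ∈ t, WR i s (f k)) : WR i s (∑ k ∈ t, f k) :=
  Finset.sum_induction f (WR i s) (fun _ _ => WR.add) (WR.zero i s) hf
theorem WR.mono_le {i : Fin 2} {s s' : ℤ} {f : R} (hf : WR i s f) (h : s ≤ s') :
    WR i s' f := Sup.imp hf fun a ha => by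
  split_ifs at ha ⊢ <;> omega
theorem WR.zero_any {s : ℤ} {f : R} (hf : WR 0 s f) (s' : ℤ) : WR 0 s' f :=
  Sup.imp hf fun a ha => by simpa using ha
theorem WR.monomial (i : Fin 2) {s : ℤ} (a b : ℤ) (h0 : i = 0 → 0 ≤ b) (h1 : i = 1 → b ≤ s) :
    WR i s (mono a b) := Sup.single (by
  split_ifs with h
  · exact h0 h
  · exact h1 (by omega)) _
/-- Vanishing of `H¹(P¹, O(s))` for `s ≥ -1`. -/
theorem WR.split (f : R) {s : ℤ} (hs : -1 ≤ s) : ∃ f₀ f₁ : R, f = f₀ + f₁ ∧ WR 0 s f₀ ∧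
    WR 1 s f₁ ∧ ∀ j t, ZR j t f → ZR j t f₀ ∧ ZR j t f₁ := by
  obtain ⟨f₀, f₁, h, h0, h1, h2⟩ := Sup.split f (fun m => 0 ≤ m.2)
  refine ⟨f₀, f₁, h, Sup.imp h0 fun a ha => by simpa using ha, Sup.imp h1 fun a ha => ?_,
    fun j t hf => h2 _ hf⟩
  simp only [Fin.isValue, one_ne_zero, if_false]
  omega

theorem mono_mul (a b c d : ℤ) : mono a b * mono c d = mono (a + c) (b + d) := by
  simp [mono, AddMonoidAlgebra.single_mul_single]
theorem mono_zero : mono 0 0 = 1 := rfl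

variable {p a : ℕ} (K : Core p a)

theorem Core.γ_eq' (j : Fin 2) :
    K.θ 1 - K.θ 0 = K.σ * (K.θ 0 * K.r 1 j - K.θ 1 * K.r 0 j) := by
  linear_combination K.θ 0 * K.eq 1 j - K.θ 1 * K.eq 0 j

theorem Core.γ_eq : K.θ 1 - K.θ 0 = K.σ * K.γ := K.γ_eq' 0

theorem Core.γ_w (j : Fin 2) : WR j ((a : ℤ) - p) K.γ := by
  have : K.γ = K.θ 0 * K.r 1 j - K.θ 1 * K.r 0 j :=
    mul_left_cancel₀ K.σ_ne (K.γ_eq.symm.trans (K.γ_eq' j))
  rw [this]
  exact (((K.θ_w 0 j).mul (K.r_w 1 j)).sub ((K.θ_w 1 j).mul (K.r_w 0 j))).of_eq (by ring)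

/-- The same for `θ'`. -/
theorem Core.exists_γ' : ∃ g : R, K.θ' 1 - K.θ' 0 = K.σ * g ∧ ∀ i, ZR i ((a : ℤ) - p) g := by
  have h : ∀ i, K.θ' 1 - K.θ' 0 = K.σ * (K.θ' 0 * K.r i 1 - K.θ' 1 * K.r i 0) := fun i => by
    linear_combination K.θ' 0 * K.eq i 1 - K.θ' 1 * K.eq i 0
  refine ⟨_, h 0, fun i => ?_⟩
  rw [mul_left_cancel₀ K.σ_ne ((h 0).symm.trans (h i))]
  exact (((K.θ'_z i 0).mul (K.r_z i 1)).sub ((K.θ'_z i 1).mul (K.r_z i 0))).of_eq (by ring)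

end Vale.Agent.P296
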