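import Vale.Agent.P296.RingA

namespace Vale.Agent.P296

open scoped Matrix

theorem hev_zero (s t : ℤ) (z w : V) : hev s t 0 z w = 0 := by simp [hev]
theorem hev_single (s t : ℤ) (m : ℤ × ℤ) (c : ℂ) (z w : V) :
    hev s t (AddMonoidAlgebra.single m c) z w =
      c * (z 0 ^ (s - m.1) * z 1 ^ m.1) * (w 0 ^ (t - m.2) * w 1 ^ m.2) := by
  unfold hev
  rw [AddMonoidAlgebra.coeff_single, Finsupp.sum_single_index (by simp)]
theorem hev_one (z w : V) : hev 0 0 1 z w = 1 := by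
  rw [AddMonoidAlgebra.one_def, hev_single]; simp
theorem hev_add (s t : ℤ) (f g : R) (z w : V) :
    hev s t (f + g) z w = hev s t f z w + hev s t g z w := by
  unfold hev
  rw [AddMonoidAlgebra.coeff_add, Finsupp.sum_add_index' (by simp) (by intros; ring)]
theorem hev_smul (s t : ℤ) (c : ℂ) (f : R) (z w : V) :
    hev s t (c • f) z w = c * hev s t f z w := by
  unfold hev
  rw [AddMonoidAlgebra.coeff_smul, Finsupp.sum_smul_index' (by simp), Finsupp.mul_sum]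
  exact Finsupp.sum_congr fun m _ => by simp only [smul_eq_mul]; ring
theorem hev_neg (s t : ℤ) (f : R) (z w : V) : hev s t (-f) z w = -hev s t f z w := by
  simpa using hev_smul s t (-1) f z w
theorem hev_sub (s t : ℤ) (f g : R) (z w : V) :
    hev s t (f - g) z w = hev s t f z w - hev s t g z w := by
  rw [sub_eq_add_neg, hev_add, hev_neg, sub_eq_add_neg]
theorem hev_natCast_mul (s t : ℤ) (n : ℕ) (f : R) (z w : V) :
    hev s t ((n : R) * f) z w = n * hev s t f z w := by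
  rw [← hev_smul, ← nsmul_eq_mul, Nat.cast_smul_eq_nsmul]
theorem hev_sum {ι : Type*} (s t : ℤ) (T : Finset ι) (f : ι → R) (z w : V) :
    hev s t (∑ k ∈ T, f k) z w = ∑ k ∈ T, hev s t (f k) z w := by
  classical
  induction T using Finset.induction_on with
  | empty => simp [hev_zero]
  | insert i T hi ih => rw [Finset.sum_insert hi, Finset.sum_insert hi, hev_add, ih]
theorem hev_mono (s t a b : ℤ) (z w : V) :
    hev s t (mono a b) z w = (z 0 ^ (s - a) * z 1 ^ a) * (w 0 ^ (t - b) * w 1 ^ b) := by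
  rw [mono, hev_single, one_mul]
theorem hev_scal (s t : ℤ) (f : R) (l m : ℂ) (z w : V) (hl : l ≠ 0) (hm : m ≠ 0) :
    hev s t f (l • z) (m • w) = l ^ s * m ^ t * hev s t f z w := by
  unfold hev
  rw [Finsupp.mul_sum]
  refine Finsupp.sum_congr fun k _ => ?_
  have e1 : l ^ s = l ^ (s - k.1) * l ^ k.1 := by rw [← zpow_add₀ hl]; simp
  have e2 : m ^ t = m ^ (t - k.2) * m ^ k.2 := by rw [← zpow_add₀ hm]; simp
  simp only [Pi.smul_apply, smul_eq_mul, mul_zpow]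
  rw [e1, e2]; ring

theorem Good.mul {s t s' t' : ℤ} {f g : R} {z w : V} (hf : Good s t f z w)
    (hg : Good s' t' g z w) : Good (s + s') (t + t') (f * g) z w :=
  ⟨fun h => (hf.z1 h).mul (hg.z1 h), fun h => (hf.z0 h).mul (hg.z0 h),
    fun h => (hf.w1 h).mul (hg.w1 h), fun h => (hf.w0 h).mul (hg.w0 h)⟩
theorem Good.pow {s t : ℤ} {f : R} {z w : V} (hf : Good s t f z w) (n : ℕ) :
    Good (n * s) (n * t) (f ^ n) z w :=
  ⟨fun h => (hf.z1 h).pow n, fun h => (hf.z0 h).pow n, fun h => (hf.w1 h).pow n,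
    fun h => (hf.w0 h).pow n⟩

theorem Good.exps {s t : ℤ} {f : R} {z w : V} (hf : Good s t f z w) {m : ℤ × ℤ}
    (hm : m ∈ f.coeff.support) : (z 0 ≠ 0 ∨ 0 ≤ s - m.1) ∧ (z 1 ≠ 0 ∨ 0 ≤ m.1) ∧
      (w 0 ≠ 0 ∨ 0 ≤ t - m.2) ∧ (w 1 ≠ 0 ∨ 0 ≤ m.2) := by
  refine ⟨or_iff_not_imp_left.2 fun h => ?_, or_iff_not_imp_left.2 fun h => ?_,
    or_iff_not_imp_left.2 fun h => ?_, or_iff_not_imp_left.2 fun h => ?_⟩
  · simpa using hf.z0 (not_not.1 h) m hm
  · simpa using hf.z1 (not_not.1 h) m hm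
  · simpa using hf.w0 (not_not.1 h) m hm
  · simpa using hf.w1 (not_not.1 h) m hm

theorem zpow_add_or {x : ℂ} {a b : ℤ} (ha : x ≠ 0 ∨ 0 ≤ a) (hb : x ≠ 0 ∨ 0 ≤ b) :
    x ^ (a + b) = x ^ a * x ^ b := by
  by_cases hx : x = 0
  · lift a to ℕ using ha.resolve_left (not_not.2 hx)
    lift b to ℕ using hb.resolve_left (not_not.2 hx)
    rw [← Nat.cast_add, zpow_natCast, zpow_natCast, zpow_natCast, pow_add]
  · exact zpow_add₀ hx a b

theorem hev_mul {s t s' t' : ℤ} {f g : R} {z w : V} (hf : Good s t f z w)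
    (hg : Good s' t' g z w) :
    hev (s + s') (t + t') (f * g) z w = hev s t f z w * hev s' t' g z w := by
  rw [AddMonoidAlgebra.mul_def, Finsupp.sum, hev_sum]
  conv_rhs => rw [hev, Finsupp.sum, Finset.sum_mul]
  refine Finset.sum_congr rfl fun a ha => ?_
  rw [Finsupp.sum, hev_sum, hev, Finsupp.sum, Finset.mul_sum]
  refine Finset.sum_congr rfl fun b hb => ?_
  obtain ⟨a1, a2, a3, a4⟩ := hf.exps ha
  obtain ⟨b1, b2, b3, b4⟩ := hg.exps hb
  rw [hev_single, Prod.fst_add, Prod.snd_add, show s + s' - (a.1 + b.1) = (s - a.1) + (s' - b.1) by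
    ring, show t + t' - (a.2 + b.2) = (t - a.2) + (t' - b.2) by ring, zpow_add_or a1 b1,
    zpow_add_or a2 b2, zpow_add_or a3 b3, zpow_add_or a4 b4]
  ring

theorem hev_pow {s t : ℤ} {f : R} {z w : V} (hf : Good s t f z w) (n : ℕ) :
    hev (n * s) (n * t) (f ^ n) z w = hev s t f z w ^ n := by
  induction n with
  | zero => simpa using hev_one z w
  | succ n ih =>
    rw [pow_succ, pow_succ, ← ih, ← hev_mul (hf.pow n) hf]
    push_cast
    rw [add_mul, add_mul, one_mul, one_mul]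

theorem Good.differentiableAt {s t : ℤ} {f : R} {z w : V} (hf : Good s t f z w) :
    DifferentiableAt ℂ (fun q : V × V => hev s t f q.1 q.2) (z, w) := by
  simp only [hev, Finsupp.sum]
  refine DifferentiableAt.fun_sum fun m hm => ?_
  obtain ⟨a1, a2, a3, a4⟩ := hf.exps hm
  have h1 : ∀ k, DifferentiableAt ℂ (fun q : V × V => q.1 k) (z, w) := fun k => by fun_prop
  have h2 : ∀ k, DifferentiableAt ℂ (fun q : V × V => q.2 k) (z, w) := fun k => by fun_prop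
  exact ((((h1 0).zpow a1).fun_mul ((h1 1).zpow a2)).const_mul _).fun_mul
    (((h2 0).zpow a3).fun_mul ((h2 1).zpow a4))

/-- Ways to see that `f` is regular at `(z, w)`. -/
theorem Good.of {s t : ℤ} {f : R} {z w : V}
    (hz : (∀ i, ZR i s f) ∨ (∃ i, z i ≠ 0 ∧ ZR i s f) ∨ (z 0 ≠ 0 ∧ z 1 ≠ 0))
    (hw : (∀ j, WR j t f) ∨ (∃ j, w j ≠ 0 ∧ WR j t f) ∨ (w 0 ≠ 0 ∧ w 1 ≠ 0)) :
    Good s t f z w := by
  refine ⟨fun h => ?_, fun h => ?_, fun h => ?_, fun h => ?_⟩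
  · rcases hz with hz | ⟨i, hi, hz⟩ | hz
    · exact hz 0
    · fin_cases i
      exacts [hz, absurd h hi]
    · exact absurd h hz.2
  · rcases hz with hz | ⟨i, hi, hz⟩ | hz
    · exact hz 1
    · fin_cases i
      exacts [absurd h hi, hz]
    · exact absurd h hz.1
  · rcases hw with hz | ⟨i, hi, hz⟩ | hz
    · exact hz 0
    · fin_cases i
      exacts [hz, absurd h hi]
    · exact absurd h hz.2
  · rcases hw with hz | ⟨i, hi, hz⟩ | hz
    · exact hz 1
    · fin_cases i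
      exacts [absurd h hi, hz]
    · exact absurd h hz.1

/-- Evaluation at a point of the torus, as an algebra map. -/
theorem exists_ev (u v : ℂ) (hu : u ≠ 0) (hv : v ≠ 0) : ∃ ev : R →ₐ[ℂ] ℂ,
    (∀ a b, ev (mono a b) = u ^ a * v ^ b) ∧
    ∀ (s t : ℤ) (f : R) (z₀ w₀ : ℂ), z₀ ≠ 0 → w₀ ≠ 0 →
      hev s t f ![z₀, z₀ * u] ![w₀, w₀ * v] = z₀ ^ s * w₀ ^ t * ev f := by
  let φ : Multiplicative (ℤ × ℤ) →* ℂ :=
    { toFun := fun m => u ^ m.toAdd.1 * v ^ m.toAdd.2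
      map_one' := by simp
      map_mul' := fun a b => by
        simp only [toAdd_mul, Prod.fst_add, Prod.snd_add, zpow_add₀ hu, zpow_add₀ hv]; ring }
  have hs : ∀ (m : ℤ × ℤ) (c : ℂ), AddMonoidAlgebra.lift ℂ ℂ (ℤ × ℤ) φ
      (AddMonoidAlgebra.single m c) = c * (u ^ m.1 * v ^ m.2) := fun m c => by
    rw [AddMonoidAlgebra.lift_single]; rfl
  refine ⟨AddMonoidAlgebra.lift ℂ ℂ (ℤ × ℤ) φ, fun a b => by rw [mono, hs, one_mul],
    fun s t f z₀ w₀ hz hw => ?_⟩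
  induction f using AddMonoidAlgebra.induction_linear with
  | zero => simp [hev_zero]
  | add f g hf hg => rw [hev_add, map_add, hf, hg]; ring
  | single m c =>
    have e1 : z₀ ^ s = z₀ ^ (s - m.1) * z₀ ^ m.1 := by rw [← zpow_add₀ hz]; simp
    have e2 : w₀ ^ t = w₀ ^ (t - m.2) * w₀ ^ m.2 := by rw [← zpow_add₀ hw]; simp
    rw [hev_single, hs, e1, e2]
    simp only [Matrix.cons_val_zero, Matrix.cons_val_one, mul_zpow]
    ring

theorem hh_hev {D : V → V → Prop} {s t : ℤ} {f : R} (h : ∀ z w, D z w → Good s t f z w) :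
    HH D s t (hev s t f) :=
  ⟨fun z w hD => (h z w hD).differentiableAt, fun l m z w hl hm => hev_scal s t f l m z w hl hm⟩

section
variable {p a : ℕ} (K : Core p a)

theorem Core.good_σ (z w : V) : Good p p K.σ z w := Good.of (.inl K.σ_z) (.inl K.σ_w)
theorem Core.good_θ (i : Fin 2) {z : V} (w : V) (h : z i ≠ 0) :
    Good (-(a : ℤ)) a (K.θ i) z w := Good.of (.inr (.inl ⟨i, h, K.θ_z i⟩)) (.inl (K.θ_w i))
theorem Core.good_θ' (j : Fin 2) (z : V) {w : V} (h : w j ≠ 0) :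
    Good a (-(a : ℤ)) (K.θ' j) z w :=
  Good.of (.inl fun i => K.θ'_z i j) (.inr (.inl ⟨j, h, K.θ'_w j⟩))
theorem Core.good_r (i j : Fin 2) {z w : V} (h : z i ≠ 0) (h' : w j ≠ 0) :
    Good (-(p : ℤ)) (-(p : ℤ)) (K.r i j) z w :=
  Good.of (.inr (.inl ⟨i, h, K.r_z i j⟩)) (.inr (.inl ⟨j, h', K.r_w i j⟩))
theorem Core.good_γ {z : V} (w : V) (h : z 0 ≠ 0) (h' : z 1 ≠ 0) :
    Good (-(a : ℤ) - p) ((a : ℤ) - p) K.γ z w := Good.of (.inr (.inr ⟨h, h'⟩)) (.inl K.γ_w)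

theorem Core.exists_fdata : ∃ D : FData p a, K.Gives D := by
  refine ⟨⟨hev p p K.σ, fun i => hev (-(a : ℤ)) a (K.θ i), fun j => hev a (-(a : ℤ)) (K.θ' j),
    fun i j => hev (-(p : ℤ)) (-(p : ℤ)) (K.r i j), hev (-(a : ℤ) - p) ((a : ℤ) - p) K.γ,
    hh_hev fun z w _ => K.good_σ z w, fun i => hh_hev fun z w h => K.good_θ i w h,
    fun j => hh_hev fun z w h => K.good_θ' j z h,
    fun i j => hh_hev fun z w h => K.good_r i j h.1 h.2,
    hh_hev fun z w h => K.good_γ w h.1 h.2, fun i j z w hz hw => ?_, fun z w h0 h1 => ?_⟩,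
    ⟨rfl, fun _ => rfl, fun _ => rfl, rfl⟩⟩
  · rw [← hev_mul (K.good_θ i w hz) (K.good_θ' j z hw), ← hev_mul (K.good_σ z w) (K.good_r i j hz hw),
      ← K.eq, neg_add_cancel, add_neg_cancel, add_neg_cancel, hev_sub, hev_one]
  · rw [← hev_mul (K.good_σ z w) (K.good_γ w h0 h1), ← K.γ_eq, ← hev_sub]
    congr 1 <;> ring

end

end Vale.Agent.P296
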