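import Vale.Agent.P296.Api

namespace Vale.Agent.P296

open scoped Matrix

variable {p a : ℕ} {D : FData p a}

theorem HSec.exists_cast {m m' : ℕ} {s t s' t' : ℤ} (S : HSec D m s t) (hm : m = m') (hs : s = s')
    (ht : t = t') : ∃ S' : HSec D m' s' t', S'.F = S.F := by
  subst hm hs ht; exact ⟨S, rfl⟩

theorem HSec.exists_mul {m m' : ℕ} {s t s' t' : ℤ} (S : HSec D m s t) (S' : HSec D m' s' t') :
    ∃ T : HSec D (m + m') (s + s') (t + t'), ∀ i z w y,
      T.F i z w y = S.F i z w y * S'.F i z w y := by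
  refine ⟨⟨fun i z w y => S.F i z w y * S'.F i z w y, fun i z w y hz hw => ?_,
    fun i z w y c hz hw => ?_, fun i z w y l μ hl hμ hz hw => ?_, fun z w y h0 h1 hw => ?_⟩,
    fun _ _ _ _ => rfl⟩
  · exact (S.diff i z w y hz hw).fun_mul (S'.diff i z w y hz hw)
  · rw [S.hom i z w y c hz hw, S'.hom i z w y c hz hw]; ring
  · rw [S.scal i z w y l μ hl hμ hz hw, S'.scal i z w y l μ hl hμ hz hw, zpow_add₀ hl,
      zpow_add₀ hμ]; ring
  · rw [S.frame z w y h0 h1 hw, S'.frame z w y h0 h1 hw]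

theorem HSec.exists_mono (D : FData p a) (i j : Fin 2) (A B : ℕ) :
    ∃ T : HSec D 0 A B, ∀ i' z w y, T.F i' z w y = z i ^ A * w j ^ B := by
  refine ⟨⟨fun _ z w _ => z i ^ A * w j ^ B, fun i z w y hz hw => by fun_prop,
    fun i z w y c hz hw => by simp, fun i z w y l μ hl hμ hz hw => ?_, fun z w y h0 h1 hw => rfl⟩,
    fun _ _ _ _ => rfl⟩
  simp only [Pi.smul_apply, smul_eq_mul, mul_pow, zpow_natCast]; ring

theorem HSec.exists_pow {m : ℕ} {s t : ℤ} (S : HSec D m s t) (k : ℕ) :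
    ∃ T : HSec D (k * m) (k * s) (k * t), ∀ i z w y, T.F i z w y = S.F i z w y ^ k := by
  induction k with
  | zero =>
    obtain ⟨T, hT⟩ := HSec.exists_mono D 0 0 0 0
    obtain ⟨T', hT'⟩ := T.exists_cast (m' := 0 * m) (s' := (0 : ℕ) * s) (t' := (0 : ℕ) * t)
      (by simp) (by simp) (by simp)
    exact ⟨T', fun i z w y => by rw [hT', hT]; simp⟩
  | succ k ih =>
    obtain ⟨T, hT⟩ := ih
    obtain ⟨U, hU⟩ := T.exists_mul S
    obtain ⟨T', hT'⟩ := U.exists_cast (m' := (k + 1) * m) (s' := (k + 1 : ℕ) * s)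
      (t' := (k + 1 : ℕ) * t) (by ring) (by push_cast; ring) (by push_cast; ring)
    exact ⟨T', fun i z w y => by rw [hT', hU, hT, pow_succ]⟩

theorem HSec.exists_eta (D : FData p a) :
    ∃ T : HSec D 1 p ((p : ℤ) - a), ∀ i z w y, T.F i z w y = y 1 := by
  refine ⟨⟨fun _ _ _ y => y 1, fun i z w y hz hw => by fun_prop,
    fun i z w y c hz hw => by simp, fun i z w y l μ hl hμ hz hw => ?_, fun z w y h0 h1 hw => rfl⟩,
    fun _ _ _ _ => rfl⟩
  have e1 : l ^ (p : ℤ) * l ^ (-(p : ℤ)) = 1 := by rw [← zpow_add₀ hl]; simp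
  have e2 : μ ^ ((p : ℤ) - a) * μ ^ ((a : ℤ) - p) = 1 := by rw [← zpow_add₀ hμ]; simp
  simp only [Matrix.cons_val_one, Matrix.cons_val_zero]
  linear_combination -(y 1) * e1 - y 1 * l ^ (p : ℤ) * l ^ (-(p : ℤ)) * e2

theorem HSec.exists_eta' (D : FData p a) :
    ∃ T : HSec D 1 ((p : ℤ) - a) p, ∀ i z w y,
      T.F i z w y = D.sg z w * y 0 - D.th i z w * y 1 := by
  refine ⟨⟨fun i z w y => D.sg z w * y 0 - D.th i z w * y 1, fun i z w y hz hw => ?_,
    fun i z w y c hz hw => ?_, fun i z w y l μ hl hμ hz hw => ?_, fun z w y h0 h1 hw => ?_⟩,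
    fun _ _ _ _ => rfl⟩
  · have h1 : DifferentiableAt ℂ (fun q : V × V × V => (q.1, q.2.1)) (z, w, y) := by fun_prop
    have h2 := DifferentiableAt.comp (z, w, y) (D.sg_hh.diff z w trivial) h1
    have h3 := DifferentiableAt.comp (z, w, y) ((D.th_hh i).diff z w hz) h1
    exact (h2.fun_mul (by fun_prop)).fun_sub (h3.fun_mul (by fun_prop))
  · simp only [Pi.smul_apply, smul_eq_mul]; ring
  · rw [D.sg_hh.scal l μ z w hl hμ, (D.th_hh i).scal l μ z w hl hμ]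
    have e1 : l ^ (p : ℤ) = l ^ ((p : ℤ) - a) * l ^ (a : ℤ) := by rw [← zpow_add₀ hl]; simp
    have e2 : l ^ (-(a : ℤ)) = l ^ ((p : ℤ) - a) * l ^ (-(p : ℤ)) := by
      rw [← zpow_add₀ hl]; congr 1; ring
    have e3 : μ ^ (a : ℤ) = μ ^ (p : ℤ) * μ ^ ((a : ℤ) - p) := by rw [← zpow_add₀ hμ]; simp
    simp only [Matrix.cons_val_one, Matrix.cons_val_zero]
    rw [e1, e2, e3]; ring
  · simp only [Matrix.cons_val_one, Matrix.cons_val_zero]
    linear_combination y 1 * D.gam_eq z w h0 h1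

theorem exists_ne_zero {z : V} (hz : z ≠ 0) : ∃ i, z i ≠ 0 := Function.ne_iff.1 hz

theorem FData.th_sg_ne (D : FData p a) {i : Fin 2} {z w : V} (hz : z i ≠ 0) (hw : w ≠ 0) :
    D.th i z w ≠ 0 ∨ D.sg z w ≠ 0 := by
  obtain ⟨j, hj⟩ := exists_ne_zero hw
  by_contra h
  push Not at h
  have := D.rr_eq i j z w hz hj
  simp [h.1, h.2] at this

theorem bpf_of_fintype {ι : Type} [Fintype ι] {m : ℕ} (s : ι → HSec D m ((m : ℤ) - 1) ((m : ℤ) - 1))
    (h : ∀ i z w y, z i ≠ 0 → w ≠ 0 → y ≠ 0 → ∃ k, (s k).F i z w y ≠ 0) : Bpf D m := by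
  refine ⟨Fintype.card ι, fun k => s ((Fintype.equivFin ι).symm k), fun i z w y hz hw hy => ?_⟩
  obtain ⟨k, hk⟩ := h i z w y hz hw hy
  exact ⟨Fintype.equivFin ι k, by simpa using hk⟩

theorem Rich.bpf (h : Rich D) (hp : 2 ≤ p) (ha : p * p ≤ a) : Bpf D p := by
  choose s1 hs1 using h.s1
  choose s2 hs2 using h.s2
  have h3 : ∀ i j : Fin 2, ∃ (s : HSec D p ((p : ℤ) - 1) ((p : ℤ) - 1)) (A B : ℕ), ∀ i' z w y,
      s.F i' z w y = y 1 ^ (p - 1) * (D.sg z w * y 0 - D.th i' z w * y 1) * (z i ^ A * w j ^ B) := by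
    intro i j
    obtain ⟨q, rfl⟩ : ∃ q, p = q + 1 := ⟨p - 1, by omega⟩
    obtain ⟨b, rfl⟩ : ∃ b, a = (q + 1) * (q + 1) + b := ⟨a - (q + 1) * (q + 1), by omega⟩
    obtain ⟨r, rfl⟩ : ∃ r, q = r + 1 := ⟨q - 1, by omega⟩
    obtain ⟨T1, h1⟩ := HSec.exists_eta D
    obtain ⟨T2, h2⟩ := HSec.exists_eta' D
    obtain ⟨T3, h3⟩ := T1.exists_pow (r + 1)
    obtain ⟨T4, h4⟩ := T3.exists_mul T2
    obtain ⟨T5, h5⟩ := HSec.exists_mono D i j (r + 1 + b)
      (r + 1 + r * ((r + 2) * (r + 2)) + (r + 1) * b)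
    obtain ⟨T6, h6⟩ := T4.exists_mul T5
    obtain ⟨T7, h7⟩ := T6.exists_cast (m' := r + 1 + 1) (s' := ((r + 1 + 1 : ℕ) : ℤ) - 1)
      (t' := ((r + 1 + 1 : ℕ) : ℤ) - 1) (by ring) (by push_cast; ring) (by push_cast; ring)
    exact ⟨T7, _, _, fun i' z w y => by rw [h7, h6, h4, h3, h1, h2, h5]; rfl⟩
  choose s3 A B hs3 using h3
  refine bpf_of_fintype (ι := Fin 3 × Fin 2 × Fin 2)
    (fun k => ![s1 k.2.1 k.2.2, s2 k.2.1 k.2.2, s3 k.2.1 k.2.2] k.1) fun i z w y hz hw hy => ?_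
  obtain ⟨j, hj⟩ := exists_ne_zero hw
  by_cases h1 : y 1 = 0
  · have h0 : y 0 ≠ 0 := fun h0 => hy (by funext k; fin_cases k; exacts [h0, h1])
    have : y = y 0 • ![1, 0] := by funext k; fin_cases k <;> simp [h1]
    refine ⟨(0, i, j), ?_⟩
    change (s1 i j).F i z w y ≠ 0
    rw [this, HSec.hom _ _ _ _ _ _ hz hw, hs1 i j i z w hz hw]
    exact mul_ne_zero (pow_ne_zero _ h0) (mul_ne_zero (pow_ne_zero _ hz) (pow_ne_zero _ hj))
  · by_cases h2 : D.sg z w * y 0 - D.th i z w * y 1 = 0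
    · have hs : D.sg z w ≠ 0 := fun hs => by
        rcases D.th_sg_ne hz hw with h | h
        · simp [hs, h, h1] at h2
        · exact h hs
      have : y = (y 1 / D.sg z w) • ![D.th i z w, D.sg z w] := by
        funext k; fin_cases k
        · simp only [Fin.zero_eta, Pi.smul_apply, Matrix.cons_val_zero, smul_eq_mul]
          field_simp
          linear_combination h2
        · simp [hs]
      refine ⟨(1, i, j), ?_⟩
      change (s2 i j).F i z w y ≠ 0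
      rw [this, HSec.hom _ _ _ _ _ _ hz hw, hs2 i j i z w hz hw]
      exact mul_ne_zero (pow_ne_zero _ (div_ne_zero h1 hs))
        (mul_ne_zero (pow_ne_zero _ hz) (pow_ne_zero _ hj))
    · refine ⟨(2, i, j), ?_⟩
      change (s3 i j).F i z w y ≠ 0
      rw [hs3]
      exact mul_ne_zero (mul_ne_zero (pow_ne_zero _ h1) h2)
        (mul_ne_zero (pow_ne_zero _ hz) (pow_ne_zero _ hj))

theorem Rich.gen (h : Rich D) : Gen D p := by
  choose s3 c hs3 using h.s3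
  have h1 : ∀ j : Fin 2, ∃ s : HSec D 1 p p, ∀ i' z w y, s.F i' z w y = w j ^ a * y 1 := by
    intro j
    obtain ⟨T1, h1⟩ := HSec.exists_eta D
    obtain ⟨T5, h5⟩ := HSec.exists_mono D 0 j 0 a
    obtain ⟨T6, h6⟩ := T5.exists_mul T1
    obtain ⟨T7, h7⟩ := T6.exists_cast (m' := 1) (s' := p) (t' := p) rfl (by simp) (by simp)
    exact ⟨T7, fun i' z w y => by rw [h7, h6, h5, h1]; simp⟩
  choose s1 hs1 using h1
  let e := (Fintype.equivFin (Fin 2 × Fin 2 × Fin 2)).symm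
  refine ⟨_, fun k => ![s1 (e k).2.2, s3 (e k).2.1 (e k).2.2] (e k).1,
    fun k i z w => ![0, z (e k).2.1 ^ (p + a) * w (e k).2.2 ^ p] (e k).1,
    fun k i z w => ![w (e k).2.2 ^ a, c (e k).2.1 (e k).2.2 i z w] (e k).1,
    fun k i z w y hz hw => ?_, fun i z w y hz hw hy => ?_⟩
  · beta_reduce
    generalize e k = x
    obtain ⟨u, i', j⟩ := x
    fin_cases u
    · simp [hs1]
    · simpa using hs3 i' j i z w y hz hw
  · obtain ⟨j, hj⟩ := exists_ne_zero hw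
    by_cases h1 : y 1 = 0
    · have h0 : y 0 ≠ 0 := fun h0 => hy (by funext k; fin_cases k; exacts [h0, h1])
      refine ⟨e.symm (1, i, j), ?_⟩
      simp only [Equiv.apply_symm_apply, Matrix.cons_val_one, Matrix.cons_val_zero]
      rw [hs3 i j i z w y hz hw, h1, mul_zero, add_zero]
      exact mul_ne_zero (mul_ne_zero (pow_ne_zero _ hz) (pow_ne_zero _ hj)) h0
    · refine ⟨e.symm (0, i, j), ?_⟩
      simp only [Equiv.apply_symm_apply, Matrix.cons_val_zero]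
      rw [hs1]
      exact mul_ne_zero (pow_ne_zero _ hj) h1

end Vale.Agent.P296
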