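import Vale.Agent.P296.RingA

namespace Vale.Agent.P296

open scoped Matrix

variable {p a : ℕ} (K : Core p a)

theorem form_zero (c : ℕ → R) (Y H : R) : form 0 c Y H = c 0 := by simp [form]

theorem form_succ (j : ℕ) (c : ℕ → R) (Y H : R) :
    form (j + 1) c Y H = c 0 * Y ^ (j + 1) + H * form j (fun l => c (l + 1)) Y H := by
  unfold form
  rw [Finset.sum_range_succ', Finset.mul_sum, add_comm]
  simp only [Nat.sub_zero, pow_zero, mul_one, Nat.add_sub_add_right]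
  congr 1
  exact Finset.sum_congr rfl fun l _ => by ring

theorem form_add (j : ℕ) (c d : ℕ → R) (Y H : R) :
    form j (fun l => c l + d l) Y H = form j c Y H + form j d Y H := by
  simp only [form, add_mul, Finset.sum_add_distrib]

theorem form_binom (j : ℕ) (g f Y H : R) :
    f * (Y + g * H) ^ (j + 1) = f * Y ^ (j + 1) +
      H * form j (fun l => ((j + 1).choose (l + 1) : R) * g ^ (l + 1) * f) Y H := by
  have : f * (Y + g * H) ^ (j + 1) =
      form (j + 1) (fun l => ((j + 1).choose l : R) * g ^ l * f) Y H := by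
    rw [add_comm Y, add_pow, form, Finset.mul_sum]
    exact Finset.sum_congr rfl fun l _ => by rw [mul_pow]; ring
  rw [this, form_succ]; simp

/-- `(x y) ^ n - 1` is a multiple of `σ`. -/
theorem Core.pow_eq (i k : Fin 2) (n : ℕ) : ∃ e : R, K.θ i ^ n * K.θ' k ^ n - 1 = K.σ * e ∧
    ZR i (-(p : ℤ)) e ∧ WR k (-(p : ℤ)) e := by
  refine ⟨K.r i k * ∑ l ∈ Finset.range n, (K.θ i * K.θ' k) ^ l, ?_, ?_, ?_⟩
  · rw [← mul_assoc, ← K.eq, ← mul_pow, mul_comm (_ - 1), geom_sum_mul]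
  · exact ((K.r_z i k).mul (ZR.sum (s := 0) _ fun l _ =>
      ((((K.θ_z i).mul (K.θ'_z i k)).pow l).of_eq (by ring)))).of_eq (by ring)
  · exact ((K.r_w i k).mul (WR.sum (s := 0) _ fun l _ =>
      ((((K.θ_w i k).mul (K.θ'_w k)).pow l).of_eq (by ring)))).of_eq (by ring)

/-- If `σ` divides `x θ ^ n` then it divides `x`. -/
theorem Core.cancel (i : Fin 2) (n : ℕ) (t : ℤ) (x y : R) (h : x * K.θ i ^ n = K.σ * y)
    (hx : ∀ k, WR k t x) (hy : ∀ k, WR k (t + n * a - p) y) :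
    ∃ e : R, x = K.σ * e ∧ ∀ k, WR k (t - p) e := by
  have H : ∀ k, ∃ e : R, x = K.σ * e ∧ WR k (t - p) e := fun k => by
    obtain ⟨e, he, -, hw⟩ := K.pow_eq i k n
    refine ⟨y * K.θ' k ^ n - x * e, by linear_combination K.θ' k ^ n * h - x * he, ?_⟩
    exact (((hy k).mul ((K.θ'_w k).pow n)).of_eq (by ring)).sub (((hx k).mul hw).of_eq (by ring))
  obtain ⟨e, he, -⟩ := H 0
  refine ⟨e, he, fun k => ?_⟩
  obtain ⟨e', he', hw⟩ := H k
  rwa [mul_left_cancel₀ K.σ_ne (he.symm.trans he')]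

/-- Lifting `ρ θ' ^ n` from the curve to `{z i ≠ 0} × P¹`. -/
theorem Core.wlift (n : ℕ) (t : ℤ) (ht : (p : ℤ) - 1 ≤ t) (ρ : R)
    (hw : ∀ k, WR k (t + n * a) ρ) : ∃ c : R, (∀ k, WR k t c) ∧
      (∀ i s, ZR i s ρ → ZR i (s + n * a) c) ∧
      ∀ i, ∃ e : R, ρ - c * K.θ i ^ n = K.σ * e ∧ (∀ k, WR k (t + n * a - p) e) ∧
        ∀ s, ZR i s ρ → ZR i (s - p) e := by
  obtain ⟨g, hg, hgz⟩ := K.exists_γ'
  set G := g * ∑ l ∈ Finset.range n, K.θ' 1 ^ l * K.θ' 0 ^ (n - 1 - l) with hG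
  have hX : K.θ' 1 ^ n - K.θ' 0 ^ n = K.σ * G := by
    rw [hG, ← mul_assoc, ← hg, mul_comm, (Commute.all _ _).geom_sum₂_mul]
  have hGz : ∀ i, ZR i (n * a - p) G := fun i => by
    rw [hG, Finset.mul_sum]
    refine ZR.sum _ fun l hl => ?_
    have hl' := Finset.mem_range.1 hl
    refine ((hgz i).mul (((K.θ'_z i 1).pow l).mul ((K.θ'_z i 0).pow _))).of_eq ?_
    obtain ⟨m, rfl⟩ : ∃ m, n = l + 1 + m := ⟨n - (l + 1), by omega⟩
    rw [show l + 1 + m - 1 - l = m by omega]; push_cast; ring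
  obtain ⟨X₀, X₁, hX01, h0, h1, hz⟩ := WR.split (ρ * G) (s := t - p) (by omega)
  let X : Fin 2 → R := ![X₀, -X₁]
  have hc : ∀ k, ρ * K.θ' 0 ^ n + K.σ * X₀ = ρ * K.θ' k ^ n + K.σ * X k := fun k => by
    fin_cases k
    · rfl
    · change _ = ρ * K.θ' 1 ^ n + K.σ * -X₁
      linear_combination -ρ * hX - K.σ * hX01
  have hXw : ∀ k, WR k (t - p) (X k) := fun k => by
    fin_cases k
    exacts [h0, h1.neg]
  have hXz : ∀ k i s, ZR i s ρ → ZR i (s + n * a - p) (X k) := fun k i s hs => by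
    have := hz i _ ((hs.mul (hGz i)).of_eq (s' := s + n * a - p) (by ring))
    fin_cases k
    exacts [this.1, this.2.neg]
  refine ⟨ρ * K.θ' 0 ^ n + K.σ * X₀, fun k => ?_, fun i s hs => ?_, fun i => ?_⟩
  · rw [hc k]
    exact (((hw k).mul ((K.θ'_w k).pow n)).of_eq (by ring)).add
      (((K.σ_w k).mul (hXw k)).of_eq (by ring))
  · exact (hs.mul ((K.θ'_z i 0).pow n)).add (((K.σ_z i).mul (hXz 0 i s hs)).of_eq (by ring))
  · have H : ∀ k, ∃ e : R, ρ - (ρ * K.θ' 0 ^ n + K.σ * X₀) * K.θ i ^ n = K.σ * e ∧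
        WR k (t + n * a - p) e ∧ ∀ s, ZR i s ρ → ZR i (s - p) e := fun k => by
      obtain ⟨e, he, hez, hew⟩ := K.pow_eq i k n
      refine ⟨-(ρ * e) - X k * K.θ i ^ n, by rw [hc k]; linear_combination -ρ * he, ?_,
        fun s hs => ?_⟩
      · exact (((hw k).mul hew).of_eq (by ring)).neg.sub
          (((hXw k).mul ((K.θ_w i k).pow n)).of_eq (by ring))
      · exact ((hs.mul hez).of_eq (by ring)).neg.sub
          (((hXz k i s hs).mul ((K.θ_z i).pow n)).of_eq (by ring))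
    obtain ⟨e, he, -, hez⟩ := H 0
    refine ⟨e, he, fun k => ?_, hez⟩
    obtain ⟨e', he', hw, -⟩ := H k
    rwa [mul_left_cancel₀ K.σ_ne (he.symm.trans he')]

theorem coef_succ {i : Fin 2} {j : ℕ} {s t : ℤ} {c₀ : R} {c : ℕ → R}
    (hz : ZR i (s + (j + 1) * a) c₀) (hw : ∀ k, WR k t c₀)
    (hc : Coef p a i j (s - p) (t + a - p) c) :
    Coef p a i (j + 1) s t (fun l => Nat.casesOn l c₀ c) := by
  intro l hl
  cases l with
  | zero => exact ⟨hz.of_eq (by simp), fun k => (hw k).of_eq (by simp)⟩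
  | succ l =>
    obtain ⟨h1, h2⟩ := hc l (by omega)
    exact ⟨h1.of_eq (by rw [Nat.add_sub_add_right]; push_cast; ring),
      fun k => (h2 k).of_eq (by push_cast; ring)⟩

theorem Core.binom_w (j : ℕ) (t : ℤ) (f : R) (hf : ∀ k, WR k t f) (l : ℕ) (k : Fin 2) :
    WR k (t + a - p + l * ((a : ℤ) - p)) (((j + 1).choose (l + 1) : R) * K.γ ^ (l + 1) * f) :=
  (((WR.natCast k _).mul ((K.γ_w k).pow (l + 1))).mul (hf k)).of_eq (by push_cast; ring)

theorem Core.step (hpa : p ≤ a) (j : ℕ) (s t : ℤ) (hs : -1 ≤ s + a - j * p) (ht : (p : ℤ) - 1 ≤ t)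
    (d : ℕ → R) (hd : ∀ l ≤ j, ∀ k, WR k (t + l * ((a : ℤ) - p)) (d l)) (ρ ρ' : R)
    (hρ : ZR 0 s ρ) (hρ' : ZR 1 s ρ') (hρw : ∀ k, WR k (t + j * a) ρ)
    (hρw' : ∀ k, WR k (t + j * a) ρ') (h : ρ - ρ' = form j d (K.θ 0) K.σ) :
    ∃ c c' : ℕ → R, Coef p a 0 j s t c ∧ Coef p a 1 j s t c' ∧
      (∀ Y H, form j c Y H - form j c' (Y + K.γ * H) H = form j d Y H) ∧
      form j c (K.θ 0) K.σ = ρ ∧ form j c' (K.θ 1) K.σ = ρ' := by
  induction j generalizing s t d ρ ρ' with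
  | zero =>
    refine ⟨fun _ => ρ, fun _ => ρ', fun l hl => ?_, fun l hl => ?_, fun Y H => ?_, form_zero .., form_zero ..⟩
    · obtain rfl : l = 0 := by omega
      exact ⟨hρ.of_eq (by simp), fun k => (hρw k).of_eq (by simp)⟩
    · obtain rfl : l = 0 := by omega
      exact ⟨hρ'.of_eq (by simp), fun k => (hρw' k).of_eq (by simp)⟩
    · simpa [form_zero] using h
  | succ j ih =>
    have hθ : K.θ 1 = K.θ 0 + K.γ * K.σ := by linear_combination K.γ_eq
    obtain ⟨c, hcw, hcz, hce⟩ := K.wlift (j + 1) t ht ρ hρw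
    obtain ⟨c', hcw', hcz', hce'⟩ := K.wlift (j + 1) t ht ρ' hρw'
    obtain ⟨e, he, hew, hez⟩ := hce 0
    obtain ⟨e', he', hew', hez'⟩ := hce' 1
    obtain ⟨e₀, he₀, hew₀, -⟩ := hce' 0
    rw [form_succ] at h
    have hdw : ∀ k, WR k (t + ((j + 1 : ℕ) : ℤ) * a - p)
        (form j (fun l => d (l + 1)) (K.θ 0) K.σ) := fun k => by
      refine WR.sum _ fun l hl => ?_
      have hl' := Finset.mem_range.1 hl
      refine (((hd (l + 1) (by omega) k).mul ((K.θ_w 0 k).pow _)).mul ((K.σ_w k).pow l)).of_eq ?_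
      rw [Nat.cast_sub (by omega)]; push_cast; ring
    obtain ⟨g, hg, hgw⟩ := K.cancel 0 (j + 1) t (c - c' - d 0)
      (form j (fun l => d (l + 1)) (K.θ 0) K.σ - e + e₀)
      (by linear_combination h - he + he₀)
      (fun k => ((hcw k).sub (hcw' k)).sub ((hd 0 (by omega) k).of_eq (by simp)))
      (fun k => ((hdw k).sub (hew k)).add (hew₀ k))
    have hja : (0 : ℤ) ≤ j * a := by positivity
    have hjp : (0 : ℤ) ≤ j * p := by positivity
    obtain ⟨g₀, g₁, hg01, hg0, hg1, hgw'⟩ := ZR.split g (s := s + (j + 1) * a - p)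
      (by push_cast at hs; nlinarith)
    have hc'w : ∀ k, WR k t (c' + K.σ * g₁) := fun k =>
      (hcw' k).add (((K.σ_w k).mul (hgw' k _ (hgw k)).2).of_eq (by ring))
    obtain ⟨c₁, c₁', h1, h2, h3, h4, h5⟩ := ih (s - p) (t + a - p) (by push_cast at hs; linarith)
      (by have : (p : ℤ) ≤ a := by exact_mod_cast hpa
          omega)
      (fun l => d (l + 1) + ((j + 1).choose (l + 1) : R) * K.γ ^ (l + 1) * (c' + K.σ * g₁))
      (fun l hl k => ((hd (l + 1) (by omega) k).of_eq (by push_cast; ring)).add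
        (K.binom_w j t _ hc'w l k))
      (e + g₀ * K.θ 0 ^ (j + 1)) (e' - g₁ * K.θ 1 ^ (j + 1))
      ((hez s hρ).add ((hg0.mul ((K.θ_z 0).pow _)).of_eq (by push_cast; ring)))
      ((hez' s hρ').sub ((hg1.mul ((K.θ_z 1).pow _)).of_eq (by push_cast; ring)))
      (fun k => ((hew k).of_eq (by push_cast; ring)).add
        (((hgw' k _ (hgw k)).1.mul ((K.θ_w 0 k).pow _)).of_eq (by push_cast; ring)))
      (fun k => ((hew' k).of_eq (by push_cast; ring)).sub
        (((hgw' k _ (hgw k)).2.mul ((K.θ_w 1 k).pow _)).of_eq (by push_cast; ring)))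
      (by
        apply mul_left_cancel₀ K.σ_ne
        have hb := form_binom j K.γ (c' + K.σ * g₁) (K.θ 0) K.σ
        rw [← hθ] at hb
        rw [form_add]
        linear_combination h - he + he' + hb - K.θ 0 ^ (j + 1) * hg -
          K.θ 0 ^ (j + 1) * K.σ * hg01)
    refine ⟨fun l => Nat.casesOn l (c - K.σ * g₀) c₁, fun l => Nat.casesOn l (c' + K.σ * g₁) c₁',
      coef_succ ?_ (fun k => ?_) h1, coef_succ ?_ hc'w h2, fun Y H => ?_, ?_, ?_⟩
    · exact ((hcz 0 s hρ).of_eq (by push_cast; ring)).sub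
        (((K.σ_z 0).mul hg0).of_eq (by ring))
    · exact (hcw k).sub (((K.σ_w k).mul (hgw' k _ (hgw k)).1).of_eq (by ring))
    · exact ((hcz' 1 s hρ').of_eq (by push_cast; ring)).add
        (((K.σ_z 1).mul hg1).of_eq (by ring))
    · have hb := form_binom j K.γ (c' + K.σ * g₁) Y H
      have h3' := h3 Y H
      rw [form_add] at h3'
      rw [form_succ, form_succ, form_succ]
      change (c - K.σ * g₀) * _ + H * form j c₁ Y H -
        ((c' + K.σ * g₁) * _ + H * form j c₁' (Y + K.γ * H) H) = _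
      linear_combination H * h3' - hb + Y ^ (j + 1) * hg + Y ^ (j + 1) * K.σ * hg01
    · rw [form_succ]
      change (c - K.σ * g₀) * _ + K.σ * form j c₁ (K.θ 0) K.σ = _
      rw [h4]; linear_combination -he
    · rw [form_succ]
      change (c' + K.σ * g₁) * _ + K.σ * form j c₁' (K.θ 1) K.σ = _
      rw [h5]; linear_combination -he'

/-- A global section of `S^{j+1} N (s, t)` with prescribed values on the two line subbundles. -/
theorem Core.top (hpa : p ≤ a) (j : ℕ) (s t : ℤ) (hs : -1 ≤ s + a - (j + 1) * p)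
    (ht : (p : ℤ) - 1 ≤ t + a - p)
    (fm f₀ ρ ρ' : R) (hm : ∀ i, ZR i (s + (j + 1) * a) fm) (hmw : ∀ k, WR k t fm)
    (hρ : ZR 0 (s - p) ρ) (hρ' : ZR 1 (s - p) ρ') (hρw : ∀ k, WR k (t + (j + 1) * a - p) ρ)
    (hρw' : ∀ k, WR k (t + (j + 1) * a - p) ρ')
    (h : f₀ - K.θ 0 ^ (j + 1) * fm = K.σ * ρ) (h' : f₀ - K.θ 1 ^ (j + 1) * fm = K.σ * ρ') :
    ∃ c c' : ℕ → R, Coef p a 0 (j + 1) s t c ∧ Coef p a 1 (j + 1) s t c' ∧
      (∀ Y H, form (j + 1) c Y H = form (j + 1) c' (Y + K.γ * H) H) ∧ c 0 = fm ∧ c' 0 = fm ∧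
      form (j + 1) c (K.θ 0) K.σ = f₀ ∧ form (j + 1) c' (K.θ 1) K.σ = f₀ := by
  have hθ : K.θ 1 = K.θ 0 + K.γ * K.σ := by linear_combination K.γ_eq
  obtain ⟨c₁, c₁', h1, h2, h3, h4, h5⟩ := K.step hpa j (s - p) (t + a - p) (by linarith) ht
    (fun l => ((j + 1).choose (l + 1) : R) * K.γ ^ (l + 1) * fm)
    (fun l _ k => K.binom_w j t _ hmw l k) ρ ρ' hρ hρ'
    (fun k => (hρw k).of_eq (by ring)) (fun k => (hρw' k).of_eq (by ring))
    (by
      apply mul_left_cancel₀ K.σ_ne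
      have hb := form_binom j K.γ fm (K.θ 0) K.σ
      rw [← hθ] at hb
      linear_combination hb - h + h')
  refine ⟨fun l => Nat.casesOn l fm c₁, fun l => Nat.casesOn l fm c₁',
    coef_succ (hm 0) hmw h1, coef_succ (hm 1) hmw h2, fun Y H => ?_, rfl, rfl, ?_, ?_⟩
  · have hb := form_binom j K.γ fm Y H
    rw [form_succ, form_succ]
    change fm * _ + H * form j c₁ Y H = fm * _ + H * form j c₁' (Y + K.γ * H) H
    linear_combination H * h3 Y H - hb
  · rw [form_succ]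
    change fm * _ + K.σ * form j c₁ (K.θ 0) K.σ = _
    rw [h4]; linear_combination -h
  · rw [form_succ]
    change fm * _ + K.σ * form j c₁' (K.θ 1) K.σ = _
    rw [h5]; linear_combination -h'

end Vale.Agent.P296
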