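import Vale.Agent.P296.Uniform

namespace Vale.Agent.P296

open scoped Matrix

namespace Tet

open Complex

/-- The vertices of the tetrahedron. -/
def vx : Fin 4 → Fin 3 → ℝ := ![![1, 1, 1], ![1, -1, -1], ![-1, 1, -1], ![-1, -1, 1]]

theorem vx_self (l : Fin 4) : vx l 0 ^ 2 + vx l 1 ^ 2 + vx l 2 ^ 2 = 3 := by
  fin_cases l <;> simp [vx] <;> norm_num

theorem vx_dot {l l' : Fin 4} (h : l ≠ l') :
    vx l 0 * vx l' 0 + vx l 1 * vx l' 1 + vx l 2 * vx l' 2 = -1 := by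
  fin_cases l <;> fin_cases l' <;> simp [vx] at h ⊢

/-- The matrices `a + s v · σ`. -/
noncomputable def Nm (a s : ℝ) (l : Fin 4) : Matrix (Fin 2) (Fin 2) ℂ :=
  !![a + s * vx l 2, s * (vx l 0 - I * vx l 1); s * (vx l 0 + I * vx l 1), a - s * vx l 2]

/-- The Hermitian form of `v · σ`. -/
noncomputable def tf (l : Fin 4) (Z : V) : ℝ :=
  vx l 0 * (2 * ((Z 0).re * (Z 1).re + (Z 0).im * (Z 1).im)) +
    vx l 1 * (2 * ((Z 0).re * (Z 1).im - (Z 0).im * (Z 1).re)) +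
    vx l 2 * (((Z 0).re ^ 2 + (Z 0).im ^ 2) - ((Z 1).re ^ 2 + (Z 1).im ^ 2))

theorem e2_eq (Z : V) :
    e2 Z = ((Z 0).re ^ 2 + (Z 0).im ^ 2) + ((Z 1).re ^ 2 + (Z 1).im ^ 2) := by
  simp only [e2, Complex.sq_norm, normSq_apply]
  ring

theorem sum_tf (Z : V) : tf 0 Z + tf 1 Z + tf 2 Z + tf 3 Z = 0 := by
  simp [tf, vx]
  ring

theorem sum_tf_sq (Z : V) :
    tf 0 Z ^ 2 + tf 1 Z ^ 2 + tf 2 Z ^ 2 + tf 3 Z ^ 2 = 4 * e2 Z ^ 2 := by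
  simp [tf, vx, e2_eq]
  ring

variable {a s c k : ℝ}

theorem form_eq (l : Fin 4) (Z : V) :
    star Z ⬝ᵥ (Nm a s l *ᵥ Z) = ((a * e2 Z + s * tf l Z : ℝ) : ℂ) := by
  apply Complex.ext <;>
    simp [Nm, tf, e2_eq, Matrix.mulVec, dotProduct, Fin.sum_univ_two, -ofReal_mul, -ofReal_add,
      -ofReal_sub, -ofReal_pow] <;> ring

theorem e2_Nm (h : a ^ 2 = 3 * s ^ 2 - 1) (l : Fin 4) (Z : V) :
    e2 (Nm a s l *ᵥ Z) = e2 Z + 2 * a * (a * e2 Z + s * tf l Z) := by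
  have h1 := vx_self l
  simp [Nm, tf, e2_eq, Matrix.mulVec, dotProduct, Fin.sum_univ_two]
  linear_combination (s ^ 2 * h1 - h) *
    (((Z 0).re ^ 2 + (Z 0).im ^ 2) + ((Z 1).re ^ 2 + (Z 1).im ^ 2))

theorem mul_Nm (h : a ^ 2 = 3 * s ^ 2 - 1) (l : Fin 4) : Nm (-a) s l * Nm a s l = 1 := by
  have h1 := congrArg ofReal (vx_self l)
  have h2 := congrArg ofReal h
  push_cast at h1 h2
  ext i j
  fin_cases i <;> fin_cases j <;> simp [Nm, Matrix.mul_apply, Fin.sum_univ_two]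
  · linear_combination (s : ℂ) ^ 2 * h1 - h2 - (s : ℂ) ^ 2 * (vx l 1 : ℂ) ^ 2 * I_sq
  · ring
  · ring
  · linear_combination (s : ℂ) ^ 2 * h1 - h2 - (s : ℂ) ^ 2 * (vx l 1 : ℂ) ^ 2 * I_sq

theorem det_Nm (h : a ^ 2 = 3 * s ^ 2 - 1) (l : Fin 4) :
    Nm a s l 0 0 * Nm a s l 1 1 - Nm a s l 0 1 * Nm a s l 1 0 = -1 := by
  have h1 := congrArg ofReal (vx_self l)
  have h2 := congrArg ofReal h
  push_cast at h1 h2
  simp [Nm]
  linear_combination h2 - (s : ℂ) ^ 2 * h1 + (s : ℂ) ^ 2 * (vx l 1 : ℂ) ^ 2 * I_sq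

theorem mix_Nm (h : a ^ 2 = 3 * s ^ 2 - 1) (hc : 4 * s ^ 2 = 1 - c) {l l' : Fin 4} (hl : l ≠ l') :
    Nm a s l 0 0 * Nm a s l' 1 1 + Nm a s l 1 1 * Nm a s l' 0 0 -
      Nm a s l 0 1 * Nm a s l' 1 0 - Nm a s l 1 0 * Nm a s l' 0 1 = -2 * c := by
  have h1 := congrArg ofReal (vx_dot hl)
  have h2 := congrArg ofReal h
  have h3 := congrArg ofReal hc
  push_cast at h1 h2 h3
  simp [Nm]
  linear_combination 2 * h2 - 2 * (s : ℂ) ^ 2 * h1 + 2 * h3 +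
    2 * (s : ℂ) ^ 2 * (vx l 1 : ℂ) * (vx l' 1 : ℂ) * I_sq

theorem eig (h : a ^ 2 = 3 * s ^ 2 - 1) (hc : 4 * s ^ 2 = 1 - c) {l l' : Fin 4} (hl : l ≠ l')
    {Z : V} (hZ : Z ≠ 0) {x : ℂ} (hx : Nm a s l' *ᵥ Z = x • Nm a s l *ᵥ Z) :
    x ^ 2 - 2 * c * x + 1 = 0 := by
  have h0 : (Nm a s l' - x • Nm a s l).det = 0 := Matrix.exists_mulVec_eq_zero_iff.1
    ⟨Z, hZ, by rw [Matrix.sub_mulVec, Matrix.smul_mulVec, hx, sub_self]⟩
  rw [Matrix.det_fin_two] at h0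
  simp only [Matrix.sub_apply, Matrix.smul_apply, smul_eq_mul] at h0
  linear_combination -h0 + det_Nm h l' + x ^ 2 * det_Nm h l - x * mix_Nm h hc hl

theorem cover4 {t₀ t₁ t₂ t₃ E : ℝ} (hk : 3 * k ^ 2 = 1) (h1 : t₀ + t₁ + t₂ + t₃ = 0)
    (h2 : t₀ ^ 2 + t₁ ^ 2 + t₂ ^ 2 + t₃ ^ 2 = 4 * E ^ 2) :
    t₀ ≤ -(k * E) ∨ t₁ ≤ -(k * E) ∨ t₂ ≤ -(k * E) ∨ t₃ ≤ -(k * E) := by
  by_contra! H
  obtain ⟨a0, a1, a2, a3⟩ := H
  have b0 : 0 < t₀ + k * E := by linarith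
  have b1 : 0 < t₁ + k * E := by linarith
  have b2 : 0 < t₂ + k * E := by linarith
  have b3 : 0 < t₃ + k * E := by linarith
  have : (t₀ + k * E) * (t₁ + k * E) + (t₀ + k * E) * (t₂ + k * E) + (t₀ + k * E) * (t₃ + k * E) +
      (t₁ + k * E) * (t₂ + k * E) + (t₁ + k * E) * (t₃ + k * E) + (t₂ + k * E) * (t₃ + k * E) =
      0 := by
    linear_combination ((t₀ + t₁ + t₂ + t₃) / 2 + 3 * k * E) * h1 - h2 / 2 + 2 * E ^ 2 * hk
  exact absurd this (by positivity)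

theorem cover (hk : 3 * k ^ 2 = 1) (b : ℝ) (Z : V) : ∃ l, b * tf l Z ≤ -(k * (|b| * e2 Z)) := by
  have := cover4 (t₀ := b * tf 0 Z) (t₁ := b * tf 1 Z) (t₂ := b * tf 2 Z) (t₃ := b * tf 3 Z)
    (E := |b| * e2 Z) hk (by linear_combination b * sum_tf Z)
    (by rw [mul_pow |b|, sq_abs]; linear_combination b ^ 2 * sum_tf_sq Z)
  rcases this with h | h | h | h <;> exact ⟨_, h⟩

theorem cov (h : a ^ 2 = 3 * s ^ 2 - 1) (hk : 3 * k ^ 2 = 1) (Z : V) :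
    ∃ l, e2 (Nm a s l *ᵥ Z) ≤ (1 + 2 * a ^ 2 - 2 * k * |a * s|) * e2 Z := by
  obtain ⟨l, hl⟩ := cover hk (a * s) Z
  exact ⟨l, by rw [e2_Nm h]; nlinarith⟩

theorem nodal (h : a ^ 2 = 3 * s ^ 2 - 1) (hc : 4 * s ^ 2 = 1 - c) (h8 : (2 - 4 * c ^ 2) ^ 2 = 2)
    (hc1 : c ^ 2 < 1) (hk : 3 * k ^ 2 = 1) (hlt : a ^ 2 < k * |a * s|) : Nodal (Nm a s) := by
  have hdet : ∀ l, (Nm a s l).det ≠ 0 := fun l => by
    rw [Matrix.det_fin_two, det_Nm h]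
    norm_num
  have key : ∀ l l' (Z : V), l ≠ l' → Z ≠ 0 → cross (Nm a s l *ᵥ Z) (Nm a s l' *ᵥ Z) = 0 →
      a * e2 Z + s * tf l Z = 0 ∧ a * e2 Z + s * tf l' Z = 0 := by
    intro l l' Z hl hZ h0
    obtain ⟨x, hx⟩ := Unif.exists_smul (x := Nm a s l' *ᵥ Z) (y := Nm a s l *ᵥ Z)
      (fun e => hZ (Matrix.eq_zero_of_mulVec_eq_zero (hdet l) e))
      (by unfold cross at h0 ⊢; linear_combination -h0)
    have h1 := eig h hc hl hZ hx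
    have h2 := form_eq (a := a) (s := s) l' Z
    rw [hx, dotProduct_smul, form_eq, smul_eq_mul] at h2
    have h3 : x.im ≠ 0 := fun e => by
      have := congrArg re h1
      simp [sq, e] at this
      nlinarith [sq_nonneg (x.re - c)]
    have h4 := congrArg im h2
    rw [im_mul_ofReal, ofReal_im] at h4
    have h5 := (mul_eq_zero.1 h4).resolve_left h3
    rw [h5, ofReal_zero, mul_zero] at h2
    exact ⟨h5, ofReal_eq_zero.1 h2.symm⟩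
  refine ⟨hdet, fun l l' Z x hl hZ hx => ?_, fun l l' l'' Z h1 h2 h3 hZ h4 h5 => ?_,
    fun l l' hl e => ?_⟩
  · have h1 := eig h hc hl hZ hx
    have h2 := congrArg ofReal h8
    push_cast at h2
    have h3 : x ^ 8 + 1 = 0 := by
      linear_combination (x ^ 2 + 2 * c * x + 1) * (x ^ 4 - (2 - 4 * (c : ℂ) ^ 2) * x ^ 2 + 1) * h1
        + x ^ 4 * h2
    linear_combination (x ^ 8 - 1) * h3
  · obtain ⟨b1, b2⟩ := key l l' Z h1 hZ h4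
    obtain ⟨-, b3⟩ := key l l'' Z h2 hZ h5
    obtain ⟨m, hm⟩ := cover hk (a * s) Z
    have hE := Unif.e2_pos hZ
    have hneg : a * (a * e2 Z + s * tf m Z) < 0 := by nlinarith
    have hne : ∀ j, a * e2 Z + s * tf j Z = 0 → m ≠ j := by
      rintro j hj rfl
      rw [hj, mul_zero] at hneg
      exact lt_irrefl _ hneg
    have hp : ∀ l l' l'' m b : Fin 4, l ≠ l' → l ≠ l'' → l' ≠ l'' → m ≠ l → m ≠ l' → m ≠ l'' →
        b ≠ m → b = l ∨ b = l' ∨ b = l'' := by decide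
    have hs : ∑ j, (a * e2 Z + s * tf j Z) = a * e2 Z + s * tf m Z := by
      refine Finset.sum_eq_single m (fun b _ hb => ?_) (by simp)
      rcases hp l l' l'' m b h1 h2 h3 (hne _ b1) (hne _ b2) (hne _ b3) hb with rfl | rfl | rfl
      exacts [b1, b2, b3]
    rw [Fin.sum_univ_four] at hs
    have : a * e2 Z + s * tf m Z = 4 * a * e2 Z := by linear_combination s * sum_tf Z - hs
    rw [this] at hneg
    nlinarith [mul_nonneg (sq_nonneg a) hE.le]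
  · simp only [cross, Matrix.mulVec, dotProduct, Fin.sum_univ_two, Matrix.cons_val_zero,
      Matrix.cons_val_one, mul_one, mul_zero, add_zero, zero_add] at e
    have h1 : (c : ℂ) ^ 2 = 1 := by
      have m := mix_Nm h hc hl
      have d := det_Nm h l
      have d' := det_Nm h l'
      linear_combination e / 4 - (Nm a s l 0 0 * Nm a s l' 1 1 + Nm a s l 1 1 * Nm a s l' 0 0 -
        Nm a s l 0 1 * Nm a s l' 1 0 - Nm a s l 1 0 * Nm a s l' 0 1 - 2 * c) / 4 * m +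
        (Nm a s l' 0 0 * Nm a s l' 1 1 - Nm a s l' 0 1 * Nm a s l' 1 0) * d - d'
    exact hc1.ne (by exact_mod_cast h1)

end Tet

/-- Four hyperbolic reflections: the faces of the regular compact tetrahedron with dihedral
angle `3π/8`. -/
theorem tetra : ∃ (N : Fin 4 → Matrix (Fin 2) (Fin 2) ℂ) (κ : ℝ), 0 ≤ κ ∧ κ < 1 ∧ Nodal N ∧
    Nodal (fun l => (N l)⁻¹) ∧ (∀ Z, ∃ l, e2 (N l *ᵥ Z) ≤ κ * e2 Z) ∧
    (∀ W, ∃ l, e2 ((N l)⁻¹ *ᵥ W) ≤ κ * e2 W) := by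
  have r1 : √2 ^ 2 = 2 := Real.sq_sqrt (by norm_num)
  have r2 : 1 < √2 := by nlinarith [Real.sqrt_nonneg 2]
  have r3 : √2 < 3 / 2 := by nlinarith [Real.sqrt_nonneg 2]
  obtain ⟨c, c0, c1⟩ : ∃ c : ℝ, c ≤ 0 ∧ 4 * c ^ 2 = 2 - √2 :=
    ⟨-(√(2 - √2) / 2), neg_nonpos.2 (by positivity), by
      rw [neg_sq, div_pow, Real.sq_sqrt (by linarith)]; ring⟩
  have c2 : c < -1 / 3 := by nlinarith
  have c3 : -1 / 2 < c := by nlinarith
  obtain ⟨s, s0, s1⟩ : ∃ s : ℝ, 0 < s ∧ s ^ 2 = (1 - c) / 4 :=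
    ⟨√((1 - c) / 4), Real.sqrt_pos.2 (by linarith), Real.sq_sqrt (by linarith)⟩
  obtain ⟨a, a0, a1⟩ : ∃ a : ℝ, 0 < a ∧ a ^ 2 = 3 * s ^ 2 - 1 :=
    ⟨√(3 * s ^ 2 - 1), Real.sqrt_pos.2 (by linarith), Real.sq_sqrt (by linarith)⟩
  obtain ⟨k, k0, k1⟩ : ∃ k : ℝ, 0 < k ∧ k ^ 2 = 1 / 3 :=
    ⟨√(1 / 3), Real.sqrt_pos.2 (by norm_num), Real.sq_sqrt (by norm_num)⟩
  have hk : 3 * k ^ 2 = 1 := by linarith
  have hlt : a ^ 2 < k * |a * s| := by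
    have : a < k * s := by
      refine lt_of_pow_lt_pow_left₀ 2 (by positivity) ?_
      rw [mul_pow, k1]
      linarith
    rw [abs_of_pos (by positivity)]
    nlinarith
  have a2 : (-a) ^ 2 = 3 * s ^ 2 - 1 := by rwa [neg_sq]
  have hinv : ∀ l, (Tet.Nm a s l)⁻¹ = Tet.Nm (-a) s l := fun l =>
    Matrix.inv_eq_left_inv (Tet.mul_Nm a1 l)
  have h8 : (2 - 4 * c ^ 2) ^ 2 = 2 := by rw [c1]; simpa using r1
  refine ⟨Tet.Nm a s, max (1 + 2 * a ^ 2 - 2 * k * |a * s|) 0, le_max_right _ _,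
    max_lt (by linarith) one_pos, Tet.nodal a1 (by linarith) h8 (by nlinarith) hk hlt, ?_,
    fun Z => ?_, fun Z => ?_⟩
  · simp only [hinv]
    exact Tet.nodal a2 (by linarith) h8 (by nlinarith) hk (by rwa [neg_sq, neg_mul, abs_neg])
  · obtain ⟨l, hl⟩ := Tet.cov a1 hk Z
    exact ⟨l, hl.trans (mul_le_mul_of_nonneg_right (le_max_left _ _) (Unif.e2_nonneg Z))⟩
  · obtain ⟨l, hl⟩ := Tet.cov a2 hk Z
    rw [neg_sq, neg_mul, abs_neg, ← hinv] at hl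
    exact ⟨l, hl.trans (mul_le_mul_of_nonneg_right (le_max_left _ _) (Unif.e2_nonneg Z))⟩

end Vale.Agent.P296
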